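import Vale.Agent.Lib.P171.Cano

/-!
The approximation theorem: for a long range attraction of large radius, the pressure is close to the
upper envelope of an explicit finite family of parabolas in the density.
-/

set_option linter.unusedSectionVars false
set_option linter.unusedSimpArgs false
set_option linter.unusedVariables false

open MeasureTheory Set Filter Topology
open scoped ENNReal BigOperators

namespace Vale.Agent.Lib.P171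

/-- Free energy density of `N` particles in the cube of side `ℓ`. -/
noncomputable def yy (φ : ℝ → ℝ) (ℓ N : ℕ) : ℝ := lg (Jc φ (ℓ : ℝ) N) / (ℓ : ℝ) ^ 3

/-- Density of `N` particles in the cube of side `ℓ`. -/
noncomputable def rh (ℓ N : ℕ) : ℝ := (N : ℝ) / (ℓ : ℝ) ^ 3

/-- The member of the finite family. -/
noncomputable def lineV (a : ℝ) (φ : ℝ → ℝ) (ℓ N : ℕ) (ν : ℝ) : ℝ :=
  yy φ ℓ N + ν * rh ℓ N + (a / 2) * rh ℓ N ^ 2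

/-- Index set of the family. -/
def famIdx (ℓ : ℕ) : Finset ℕ := Finset.range (64 * ℓ ^ 3 + 1)

lemma famIdx_nonempty (ℓ : ℕ) : (famIdx ℓ).Nonempty := ⟨0, by simp [famIdx]⟩

/-- The upper envelope of the family. -/
noncomputable def GG (a : ℝ) (φ : ℝ → ℝ) (ℓ : ℕ) (ν : ℝ) : ℝ :=
  (famIdx ℓ).sup' (famIdx_nonempty ℓ) fun N => lineV a φ ℓ N ν

lemma lineV_le_GG (a : ℝ) (φ : ℝ → ℝ) {ℓ N : ℕ} (hN : N ∈ famIdx ℓ) (ν : ℝ) :
    lineV a φ ℓ N ν ≤ GG a φ ℓ ν :=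
  Finset.le_sup' (fun N => lineV a φ ℓ N ν) hN

lemma lineV_zero (a : ℝ) (φ : ℝ → ℝ) (ℓ : ℕ) (ν : ℝ) : lineV a φ ℓ 0 ν = 0 := by
  simp [lineV, yy, rh, lg_one]

lemma GG_nonneg (a : ℝ) (φ : ℝ → ℝ) (ℓ : ℕ) (ν : ℝ) : 0 ≤ GG a φ ℓ ν := by
  have := lineV_le_GG a φ (ℓ := ℓ) (N := 0) (by simp [famIdx]) ν
  rwa [lineV_zero] at this

lemma rh_nonneg (ℓ N : ℕ) : 0 ≤ rh ℓ N := by
  unfold rh; positivity

lemma rh_le {ℓ N : ℕ} (hℓ : 1 ≤ ℓ) (hN : N ∈ famIdx ℓ) : rh ℓ N ≤ 64 := by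
  unfold rh
  have hℓ0 : (0 : ℝ) < ℓ := by exact_mod_cast hℓ
  rw [div_le_iff₀ (by positivity)]
  have : N ≤ 64 * ℓ ^ 3 := by
    simp only [famIdx, Finset.mem_range] at hN
    omega
  exact_mod_cast this

lemma J_Gib_nu {φ : ℝ → ℝ} (hφ : Measurable φ) (ℓ ν : ℝ) (N : ℕ) :
    J (volume.restrict (cube ℓ 0)) (Gib (rad φ) ν) N
      = ENNReal.ofReal (Real.exp (ν * (N : ℝ))) * Jc φ ℓ N := by
  unfold Jc
  rw [← J_const_mul _ (measF_Gib (measurable_rad hφ) 0)]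
  refine J_congr_on (measurableSet_cube _ _) fun s _ hc => ?_
  unfold Gib
  rw [← ENNReal.ofReal_mul (Real.exp_pos _).le, ← Real.exp_add, hc]
  congr 2
  ring

/-- Each term of the grand partition sum is below the whole sum. -/
lemma term_le_lg_Zc {φ : ℝ → ℝ} {B : ℝ} (hφ : Reg φ B) {ℓ : ℝ} (hℓ : 0 < ℓ) (ν : ℝ) (N : ℕ) :
    ν * (N : ℝ) + lg (Jc φ ℓ N) ≤ lg (Zc φ ℓ ν) := by
  have h0 := Jc_ne_zero hφ.meas hℓ N
  have h1 := Jc_ne_top hφ.stable hℓ.le N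
  have h2 : ENNReal.ofReal (Real.exp (ν * (N : ℝ))) * Jc φ ℓ N ≤ Zc φ ℓ ν := by
    rw [← J_Gib_nu hφ.meas]
    exact I_ge_J _ _
  have hexp0 : ENNReal.ofReal (Real.exp (ν * (N : ℝ))) ≠ 0 := by simp [Real.exp_pos]
  have h3 := lg_le_lg h2 (pos_iff_ne_zero.2 (mul_ne_zero hexp0 h0)) (Zc_ne_top hφ hℓ.le ν)
  rwa [lg_mul hexp0 ENNReal.ofReal_ne_top h0 h1, lg_ofReal_exp] at h3

/-- Hoelder inequality in the potential for canonical partition functions. -/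
lemma lg_Jc_holder {φ₀ φ₁ φ₂ : ℝ → ℝ} {B₁ B₂ : ℝ} (hφ₀ : Measurable φ₀)
    (hφ₁ : Measurable φ₁) (hφ₂ : Measurable φ₂)
    (h₁ : ∀ s : Multiset E3, -P (rad φ₁) s ≤ B₁ * (Multiset.card s : ℝ))
    (h₂ : ∀ s : Multiset E3, -P (rad φ₂) s ≤ B₂ * (Multiset.card s : ℝ))
    {θ : ℝ} (hθ0 : 0 ≤ θ) (hθ1 : θ ≤ 1) (hφ : ∀ r, φ₀ r = (1 - θ) * φ₁ r + θ * φ₂ r)
    {ℓ : ℝ} (hℓ : 0 < ℓ) (N : ℕ) :
    lg (Jc φ₀ ℓ N) ≤ (1 - θ) * lg (Jc φ₁ ℓ N) + θ * lg (Jc φ₂ ℓ N) := by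
  have key := J_Gib_holder (ρ := volume.restrict (cube ℓ 0)) (Finset.univ : Finset Bool)
    (u := fun b => if b then rad φ₂ else rad φ₁) (ν := fun _ => 0)
    (p := fun b => if b then θ else 1 - θ)
    (by
      intro b _
      cases b
      · simpa using measurable_rad hφ₁
      · simpa using measurable_rad hφ₂)
    (by simp)
    (by
      intro b _
      cases b
      · simpa using hθ1
      · simpa using hθ0)
    (U := rad φ₀) (ν₀ := 0)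
    (by
      intro s
      have e : rad φ₀ = fun a b => (1 - θ) * rad φ₁ a b + θ * rad φ₂ a b := by
        funext a b
        simp only [rad]
        exact hφ _
      rw [e, P_add_kernel ((symm_rad _).const_mul _) ((symm_rad _).const_mul _),
        P_const_mul (symm_rad _), P_const_mul (symm_rad _)]
      rw [Fintype.sum_bool]
      simp only [if_true, if_false, Bool.false_eq_true]
      apply le_of_eq
      ring)
    N
  have key2 := lg_le_of_prod_rpow (Finset.univ : Finset Bool) (x := Jc φ₀ ℓ N)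
    (f := fun b => J (volume.restrict (cube ℓ 0))
      (Gib (if b then rad φ₂ else rad φ₁) 0) N)
    (p := fun b => if b then θ else 1 - θ)
    (Jc_ne_zero hφ₀ hℓ N) key
    (fun b _ => by
      cases b
      · exact Jc_ne_zero hφ₁ hℓ N
      · exact Jc_ne_zero hφ₂ hℓ N)
    (fun b _ => by
      cases b
      · exact Jc_ne_top h₁ hℓ.le N
      · exact Jc_ne_top h₂ hℓ.le N)
    (fun b _ => by
      cases b
      · simpa using hθ1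
      · simpa using hθ0)
  rw [Fintype.sum_bool] at key2
  simp only [if_true, if_false, Bool.false_eq_true] at key2
  have e1 : J (volume.restrict (cube ℓ 0)) (Gib (rad φ₂) 0) N = Jc φ₂ ℓ N := rfl
  have e2 : J (volume.restrict (cube ℓ 0)) (Gib (rad φ₁) 0) N = Jc φ₁ ℓ N := rfl
  rw [e1, e2] at key2
  linarith

/-- The potentials used from now on. -/
noncomputable abbrev pot (w : ℝ → ℝ) : ℝ → ℝ := fun x => core 131072 x - w x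

lemma reg_pot' {w : ℝ → ℝ} {c : ℝ} (hw : Attr w c) (hc : c ≤ 65536) : Reg (pot w) 65536 := by
  have := reg_pot (A := 131072) (by norm_num) hw (by linarith)
  have e : (131072 : ℝ) / 2 = 65536 := by norm_num
  rwa [e] at this

lemma pot_sub_hat (w : ℝ → ℝ) (a R : ℝ) :
    (fun x => core 131072 x - w x - hat a R x) = pot (fun x => w x + hat a R x) := by
  funext x
  simp only [pot]
  ring

lemma reg_pot_hat {w : ℝ → ℝ} {c a R : ℝ} (hw : Attr w c) (ha : 0 ≤ a) (hR : 1 ≤ R)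
    (hc : c + 108 * a ≤ 65536) : Reg (fun x => core 131072 x - w x - hat a R x) 65536 := by
  rw [pot_sub_hat]
  exact reg_pot' (hw.add (Attr_hat ha hR)) hc

/-- Superstability of the potentials. -/
lemma pot_superstable {w : ℝ → ℝ} {c : ℝ} (hw : Attr w c) (hc : c ≤ 32768) (s : Multiset E3) :
    32768 * Bs s - 65536 * (Multiset.card s : ℝ) ≤ P (rad (pot w)) s := by
  have h1 := P_pot_ge (A := 131072) (by norm_num) hw s
  have h2 := Bs_nonneg s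
  have e : (131072 : ℝ) / 2 = 65536 := by norm_num
  rw [e] at h1
  have h3 : 32768 * Bs s ≤ (65536 - c) * Bs s :=
    mul_le_mul_of_nonneg_right (by linarith) h2
  linarith

/-- Algebra for the bound on the terms. -/
lemma aux_term {ν ρ a a₁ θ GV : ℝ} (hν : ν ≤ 4096) (hρ0 : 0 ≤ ρ) (hρ1 : ρ ≤ 64) (ha : 0 ≤ a)
    (haa : a ≤ a₁) (hθ0 : 0 ≤ θ) (hGV0 : 0 ≤ GV) :
    ν * ρ + (a₁ / 2) * ρ ^ 2 + (1 - θ) * (GV - ν * ρ - (a / 2) * ρ ^ 2) + θ * (65536 * ρ + 1)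
      ≤ GV + (θ * (4096 * 64 + (a / 2) * 4096 + 65536 * 64 + 1) + ((a₁ - a) / 2) * 4096) := by
  have h8 : ν * ρ ≤ 4096 * 64 := by
    have : ν * ρ ≤ 4096 * ρ := mul_le_mul_of_nonneg_right hν hρ0
    linarith
  have h9 : ρ ^ 2 ≤ 4096 := by nlinarith
  have h11 : (a / 2) * ρ ^ 2 ≤ (a / 2) * 4096 :=
    mul_le_mul_of_nonneg_left h9 (by positivity)
  have h10 : θ * (ν * ρ + (a / 2) * ρ ^ 2 + 65536 * ρ + 1)
      ≤ θ * (4096 * 64 + (a / 2) * 4096 + 65536 * 64 + 1) := by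
    refine mul_le_mul_of_nonneg_left ?_ hθ0
    linarith
  have h12 : ((a₁ - a) / 2) * ρ ^ 2 ≤ ((a₁ - a) / 2) * 4096 :=
    mul_le_mul_of_nonneg_left h9 (by linarith)
  have h13 : 0 ≤ θ * GV := mul_nonneg hθ0 hGV0
  have e : ν * ρ + (a₁ / 2) * ρ ^ 2 + (1 - θ) * (GV - ν * ρ - (a / 2) * ρ ^ 2) + θ * (65536 * ρ + 1)
      = GV - θ * GV + θ * (ν * ρ + (a / 2) * ρ ^ 2 + 65536 * ρ + 1) + ((a₁ - a) / 2) * ρ ^ 2 := by
    ring
  rw [e]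
  linarith

/-- The bound on the terms of the grand partition sum of a cube. -/
lemma term_le_GG {w : ℝ → ℝ} {c a ν θ a₁ κ : ℝ} (hw : Attr w c) (hc0 : 0 ≤ c) (hc : c ≤ 16384)
    (ha : 0 ≤ a) (hν : ν ≤ 4096) (hθ0 : 0 ≤ θ) (hθ1 : θ ≤ 1) (haa : a ≤ a₁) {ℓ : ℕ} (hℓ1 : 1 ≤ ℓ)
    (hκℓ : κ * (ℓ : ℝ) ^ 3 = a₁) {N : ℕ} (hN : N < 64 * ℓ ^ 3 + 1) :
    ν * (N : ℝ) + κ * (N : ℝ) ^ 2 / 2 + lg (Jc (pot fun x => (1 + θ) * w x) (ℓ : ℝ) N)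
      ≤ (ℓ : ℝ) ^ 3 * (GG a (pot w) ℓ ν
        + (θ * (4096 * 64 + (a / 2) * 4096 + 65536 * 64 + 1) + ((a₁ - a) / 2) * 4096)) := by
  have hℓ0 : (0 : ℝ) < ℓ := by exact_mod_cast hℓ1
  have hℓ3 : (0 : ℝ) < (ℓ : ℝ) ^ 3 := by positivity
  have hNfam : N ∈ famIdx ℓ := by simp [famIdx, hN]
  have hregv : Reg (pot w) 65536 := reg_pot' hw (by linarith)
  have hreg2w : Reg (pot fun x => 2 * w x) 65536 :=
    reg_pot' (hw.const_mul (by norm_num : (0 : ℝ) ≤ 2)) (by linarith)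
  have hreg₂ : Reg (pot fun x => (1 + θ) * w x) 65536 :=
    reg_pot' (hw.const_mul (by linarith : (0 : ℝ) ≤ 1 + θ)) (by nlinarith)
  have hhold := lg_Jc_holder (φ₀ := pot fun x => (1 + θ) * w x) (φ₁ := pot w)
    (φ₂ := pot fun x => 2 * w x)
    hreg₂.meas hregv.meas hreg2w.meas hregv.stable hreg2w.stable hθ0 hθ1
    (fun r => by
      simp only [pot]
      ring) hℓ0 N
  have hupper := lg_Jc_le (B := 65536) hreg2w.meas hreg2w.stable hℓ0 N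
  have hline := lineV_le_GG a (pot w) hNfam ν
  set GV := GG a (pot w) ℓ ν with hGV
  have hGV0 : 0 ≤ GV := GG_nonneg _ _ _ _
  set ρ := rh ℓ N with hρ
  have hρ0 : 0 ≤ ρ := rh_nonneg _ _
  have hρ1 : ρ ≤ 64 := rh_le hℓ1 hNfam
  have hN_eq : (N : ℝ) = ρ * (ℓ : ℝ) ^ 3 := by
    rw [hρ]
    unfold rh
    field_simp
  set lJ := lg (Jc (pot w) (ℓ : ℝ) N) with hlJ
  have hy : yy (pot w) ℓ N = lJ / (ℓ : ℝ) ^ 3 := rfl
  have hlineexp : lJ / (ℓ : ℝ) ^ 3 + ν * ρ + (a / 2) * ρ ^ 2 ≤ GV := by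
    rw [← hy]
    exact hline
  have h1 : lJ ≤ (ℓ : ℝ) ^ 3 * (GV - ν * ρ - (a / 2) * ρ ^ 2) := by
    have : lJ / (ℓ : ℝ) ^ 3 ≤ GV - ν * ρ - (a / 2) * ρ ^ 2 := by linarith
    rwa [div_le_iff₀ hℓ3, mul_comm] at this
  have h2 : κ * (N : ℝ) ^ 2 / 2 = (ℓ : ℝ) ^ 3 * ((a₁ / 2) * ρ ^ 2) := by
    rw [hN_eq, ← hκℓ]
    field_simp
  have h3 : ν * (N : ℝ) = (ℓ : ℝ) ^ 3 * (ν * ρ) := by
    rw [hN_eq]
    ring
  have h4 : lg (Jc (pot fun x => (1 + θ) * w x) (ℓ : ℝ) N)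
      ≤ (1 - θ) * ((ℓ : ℝ) ^ 3 * (GV - ν * ρ - (a / 2) * ρ ^ 2))
        + θ * (65536 * (ρ * (ℓ : ℝ) ^ 3) + (ℓ : ℝ) ^ 3) := by
    rw [hN_eq] at hupper
    have h5 : (1 - θ) * lJ ≤ (1 - θ) * ((ℓ : ℝ) ^ 3 * (GV - ν * ρ - (a / 2) * ρ ^ 2)) :=
      mul_le_mul_of_nonneg_left h1 (by linarith)
    have h6 := mul_le_mul_of_nonneg_left hupper hθ0
    linarith
  rw [h2, h3]
  have h7 := aux_term (a₁ := a₁) hν hρ0 hρ1 ha haa hθ0 hGV0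
  have h14 := mul_le_mul_of_nonneg_left h7 hℓ3.le
  refine le_trans ?_ h14
  have e : (ℓ : ℝ) ^ 3 * (ν * ρ + (a₁ / 2) * ρ ^ 2 + (1 - θ) * (GV - ν * ρ - (a / 2) * ρ ^ 2)
      + θ * (65536 * ρ + 1))
      = (ℓ : ℝ) ^ 3 * (ν * ρ) + (ℓ : ℝ) ^ 3 * ((a₁ / 2) * ρ ^ 2)
        + ((1 - θ) * ((ℓ : ℝ) ^ 3 * (GV - ν * ρ - (a / 2) * ρ ^ 2))
        + θ * (65536 * (ρ * (ℓ : ℝ) ^ 3) + (ℓ : ℝ) ^ 3)) := by ring
  rw [e]
  linarith

/-- The bound on the grand partition function of a cube with the modified potential. -/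
lemma lg_X_le_GG {w : ℝ → ℝ} {c a ν θ a₁ κ : ℝ} (hw : Attr w c) (hc0 : 0 ≤ c) (hc : c ≤ 16384)
    (ha : 0 ≤ a) (hν : ν ≤ 4096) (hθ0 : 0 ≤ θ) (hθ1 : θ ≤ 1) (haa : a ≤ a₁) (ha₁ : a₁ ≤ 1024)
    {ℓ : ℕ} (hℓ1 : 1 ≤ ℓ) (hκℓ : κ * (ℓ : ℝ) ^ 3 = a₁) :
    let X := Zc (fun x => pot (fun x => (1 + θ) * w x) x - κ) (ℓ : ℝ) (ν + κ / 2)
    X ≠ ∞ ∧ lg X ≤ Real.log (((64 * ℓ ^ 3 + 1 : ℕ) : ℝ) + 2) + (ℓ : ℝ) ^ 3 * (GG a (pot w) ℓ ν
        + (θ * (4096 * 64 + (a / 2) * 4096 + 65536 * 64 + 1) + ((a₁ - a) / 2) * 4096)) := by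
  intro X
  have hℓ0 : (0 : ℝ) < ℓ := by exact_mod_cast hℓ1
  have hℓ3 : (0 : ℝ) < (ℓ : ℝ) ^ 3 := by positivity
  have hA₂ := hw.const_mul (by linarith : (0 : ℝ) ≤ 1 + θ)
  have hreg₂ : Reg (pot fun x => (1 + θ) * w x) 65536 := reg_pot' hA₂ (by nlinarith)
  have hsuper := pot_superstable hA₂ (by nlinarith)
  have hGV0 := GG_nonneg a (pot w) ℓ ν
  have hδ₁0 : 0 ≤ θ * (4096 * 64 + (a / 2) * 4096 + 65536 * 64 + 1) + ((a₁ - a) / 2) * 4096 := by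
    have h1 : 0 ≤ a₁ - a := by linarith
    positivity
  have hg : 0 ≤ (ℓ : ℝ) ^ 3 * (GG a (pot w) ℓ ν
      + (θ * (4096 * 64 + (a / 2) * 4096 + 65536 * 64 + 1) + ((a₁ - a) / 2) * 4096)) := by
    positivity
  have hκbound : κ * (ℓ : ℝ) ^ 3 ≤ 1024 := by rw [hκℓ]; exact ha₁
  have hXle := lg_X_le hreg₂.meas hsuper hℓ1 hν hκbound hg
    (fun N hN => term_le_GG hw hc0 hc ha hν hθ0 hθ1 haa hℓ1 hκℓ hN)
  have hXtop : X ≠ ∞ := ne_top_of_le_ne_top ENNReal.ofReal_ne_top hXle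
  refine ⟨hXtop, ?_⟩
  have hK₂pos : 0 < ((64 * ℓ ^ 3 + 1 : ℕ) : ℝ) + 2 := by positivity
  have h1 := lg_le_lg hXle (lt_of_lt_of_le one_pos (one_le_Zc _ _ _)) ENNReal.ofReal_ne_top
  refine h1.trans (le_of_eq ?_)
  unfold lg
  rw [ENNReal.toReal_ofReal (by positivity), Real.log_mul hK₂pos.ne' (Real.exp_pos _).ne',
    Real.log_exp]

/-- Algebra for the last step of the upper bound. -/
lemma aux_upper {t lX lK ℓ3 GV δ₁ Pv e₀ : ℝ} (ht0 : 0 < t) (ht1 : t ≤ 1 / 2) (hℓ3 : 0 < ℓ3)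
    (hlK : 0 ≤ lK) (hGV : 0 ≤ GV) (hδ : 0 ≤ δ₁) (hlX : lX ≤ lK + ℓ3 * (GV + δ₁)) (hPv : Pv ≤ e₀) :
    (1 - t) * (lX / ℓ3) + t * Pv ≤ GV + (δ₁ + lK / ℓ3 + t * e₀) := by
  have h20 : t * Pv ≤ t * e₀ := mul_le_mul_of_nonneg_left hPv ht0.le
  have h21 : lX / ℓ3 ≤ lK / ℓ3 + (GV + δ₁) := by
    rw [div_le_iff₀ hℓ3]
    have e : (lK / ℓ3 + (GV + δ₁)) * ℓ3 = lK + ℓ3 * (GV + δ₁) := by
      field_simp
    rw [e]
    exact hlX
  have h22 : 0 ≤ lK / ℓ3 + (GV + δ₁) := by positivity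
  have h1t : 0 ≤ 1 - t := by linarith
  have h24 := mul_le_mul_of_nonneg_left h21 h1t
  have h25 : t * (lK / ℓ3 + (GV + δ₁)) ≥ 0 := mul_nonneg ht0.le h22
  have e2 : (1 - t) * (lK / ℓ3 + (GV + δ₁)) = (lK / ℓ3 + (GV + δ₁)) - t * (lK / ℓ3 + (GV + δ₁)) := by
    ring
  rw [e2] at h24
  linarith

/-- The upper bound of the approximation theorem. -/
theorem Pres_le_GG {w : ℝ → ℝ} {c r a R : ℝ} (hw : Attr w c) (hc0 : 0 ≤ c) (hc : c ≤ 16384)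
    (hwr : Rng w r) (ha : 0 ≤ a) (hR : 1 ≤ R) (hcA : c + 108 * a ≤ 65536) {m q : ℕ} (hm : 6 ≤ m)
    (hq : 1 ≤ q) (hrq : r ≤ q) {ν : ℝ} (hν : ν ≤ 4096) {a₁ t θ : ℝ} (htd : t = 3 / (m : ℝ))
    (hθd : θ = t / (1 - t))
    (ha₁d : a₁ = a * (1 + 4 * ((m * q : ℕ) : ℝ) / R) ^ 3 / (1 - t)) (ha₁ : a₁ ≤ 1024) :
    Pres (fun x => core 131072 x - w x - hat a R x) ν
      ≤ GG a (pot w) (m * q) ν
        + ((θ * (4096 * 64 + (a / 2) * 4096 + 65536 * 64 + 1) + ((a₁ - a) / 2) * 4096)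
          + Real.log (((64 * (m * q) ^ 3 + 1 : ℕ) : ℝ) + 2) / (((m * q : ℕ) : ℝ)) ^ 3
          + t * Real.exp (ν + 65536)) := by
  have hm0 : (0 : ℝ) < m := by
    have : 0 < m := by omega
    exact_mod_cast this
  have hm6 : (6 : ℝ) ≤ m := by exact_mod_cast hm
  have hq0 : (0 : ℝ) < q := by exact_mod_cast hq
  set ℓ : ℕ := m * q with hℓdef
  have hℓ1 : 1 ≤ ℓ := Nat.mul_pos (by omega) hq
  have hℓ0 : (0 : ℝ) < ℓ := by exact_mod_cast hℓ1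
  have hℓ3 : (0 : ℝ) < (ℓ : ℝ) ^ 3 := by positivity
  have hℓcast : (ℓ : ℝ) = (m : ℝ) * (q : ℝ) := by
    simp only [hℓdef]; push_cast; ring
  have ht1 : t ≤ 1 / 2 := by
    rw [htd, div_le_iff₀ hm0]
    linarith
  have ht0 : 0 < t := by
    rw [htd]
    positivity
  have h1t : 0 < 1 - t := by linarith
  have hθ0 : 0 ≤ θ := by
    rw [hθd]
    positivity
  have hθ1 : θ ≤ 1 := by
    rw [hθd, div_le_iff₀ h1t]
    linarith
  have h1θ : 1 / (1 - t) = 1 + θ := by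
    rw [hθd]
    field_simp
    ring
  have hR0 : 0 < R := by linarith
  have hfrac : (1 : ℝ) ≤ (1 + 4 * (ℓ : ℝ) / R) ^ 3 := by
    refine one_le_pow₀ ?_
    have : 0 ≤ 4 * (ℓ : ℝ) / R := by positivity
    linarith
  have ha₁a : a ≤ a₁ := by
    rw [ha₁d, le_div_iff₀ h1t]
    have h2 : a * 1 ≤ a * (1 + 4 * (ℓ : ℝ) / R) ^ 3 := mul_le_mul_of_nonneg_left hfrac ha
    nlinarith
  set κ := a₁ / (ℓ : ℝ) ^ 3 with hκ
  have hκℓ : κ * (ℓ : ℝ) ^ 3 = a₁ := by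
    rw [hκ]
    field_simp
  have hκ2 : a₁ / (2 * (ℓ : ℝ) ^ 3) = κ / 2 := by
    rw [hκ]
    field_simp
  have hregv : Reg (pot w) 65536 := reg_pot' hw (by linarith)
  obtain ⟨hXtop, hlgX⟩ := lg_X_le_GG (ν := ν) hw hc0 hc ha hν hθ0 hθ1 ha₁a ha₁ hℓ1 hκℓ
  have hfun : (fun x => core 131072 x - (1 / (1 - t)) * w x - a₁ / (ℓ : ℝ) ^ 3)
      = fun x => pot (fun x => (1 + θ) * w x) x - κ := by
    funext x
    simp only [pot, h1θ]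
    rfl
  have hrq' : r ≤ (q : ℝ) := hrq
  have hupper := Pres_upper (A := 131072) (by norm_num) hwr hw.meas hw.nonneg ha hR0 (m := m)
    (q := (q : ℝ)) hq0 hrq' hm ν hregv (reg_pot_hat hw ha hR hcA) hℓcast htd ha₁d (by
      rw [hκ2, hfun]
      exact hXtop)
  rw [hκ2, hfun] at hupper
  have hPv : Pres (fun x => core 131072 x - w x) ν ≤ Real.exp (ν + 65536) := Pres_le_exp hregv ν
  have hlogK : 0 ≤ Real.log (((64 * ℓ ^ 3 + 1 : ℕ) : ℝ) + 2) := by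
    refine Real.log_nonneg ?_
    push_cast
    have : (0 : ℝ) ≤ 64 * (ℓ : ℝ) ^ 3 := by positivity
    linarith
  have hδ₁0 : 0 ≤ θ * (4096 * 64 + (a / 2) * 4096 + 65536 * 64 + 1) + ((a₁ - a) / 2) * 4096 := by
    have h1 : 0 ≤ a₁ - a := by linarith
    positivity
  exact hupper.trans (aux_upper ht0 ht1 hℓ3 hlogK (GG_nonneg _ _ _ _) hδ₁0 hlgX hPv)

/-- The ratio of volumes of a cube and its enlargement. -/
noncomputable def cc (ℓ : ℕ) : ℝ := ((ℓ : ℝ) / ((ℓ : ℝ) + 1)) ^ 3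

/-- The fraction of the mean field energy seen by the construction of the lower bound. -/
noncomputable def kap (ℓ : ℕ) (R : ℝ) : ℝ :=
  cc ℓ ^ 2 * (1 - (4 * (ℓ : ℝ) + 2) / R) ^ 3
    - (((ℓ : ℝ) ^ 6 / ((ℓ : ℝ) + 1) ^ 3) / omega) * (1 / R) ^ 3

/-- The lower bound of the approximation theorem, for one member of the family. -/
theorem lineV_le_Pres {w : ℝ → ℝ} {c a R : ℝ} (hw : Attr w c) (hc : c ≤ 65536) (ha : 0 ≤ a)
    (hR : 1 ≤ R) (hcA : c + 108 * a ≤ 65536) {ℓ N : ℕ} (hℓ : 1 ≤ ℓ) (hN : N ∈ famIdx ℓ)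
    (hRℓ : 4 * (ℓ : ℝ) + 2 ≤ R) (ν : ℝ) :
    lineV a (pot w) ℓ N ν
      ≤ Pres (fun x => core 131072 x - w x - hat a R x) ν
        + ((1 - cc ℓ) * Real.exp (ν + 65536) + (a / 2) * 4096 * |1 - kap ℓ R|) := by
  have hom := omega_pos
  have hℓ0 : (0 : ℝ) < ℓ := by exact_mod_cast hℓ
  have hℓ3 : (0 : ℝ) < (ℓ : ℝ) ^ 3 := by positivity
  have hℓ' : (0 : ℝ) < (ℓ : ℝ) + 1 := by positivity
  have hR0 : 0 < R := by linarith
  have hregv : Reg (pot w) 65536 := reg_pot' hw hc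
  have hlow := Pres_lower (ℓ := (ℓ : ℝ)) hregv (reg_pot_hat hw ha hR hcA) ha hℓ0 hRℓ N ν
  set P' := Pres (fun r => pot w r - hat a R r) ν with hP'
  set ρ := rh ℓ N with hρ
  have hρ0 : 0 ≤ ρ := rh_nonneg _ _
  have hρ1 : ρ ≤ 64 := rh_le hℓ hN
  have hN_eq : (N : ℝ) = ρ * (ℓ : ℝ) ^ 3 := by
    rw [hρ]
    unfold rh
    field_simp
  set lJ := lg (J (volume.restrict (cube (ℓ : ℝ) 0)) (Gib (rad (pot w)) 0) N) with hlJ
  have hlJ' : lJ = lg (Jc (pot w) (ℓ : ℝ) N) := rfl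
  set X := lJ / (ℓ : ℝ) ^ 3 + ν * ρ with hX
  have hXup : X ≤ Real.exp (ν + 65536) := by
    have h1 := term_le_lg_Zc hregv hℓ0 ν N
    have h2 := lg_Zc_le hregv hℓ0.le ν
    rw [hX, ← hlJ'] at *
    have h3 : lJ / (ℓ : ℝ) ^ 3 + ν * ρ = (ν * (N : ℝ) + lJ) / (ℓ : ℝ) ^ 3 := by
      rw [hN_eq]
      field_simp
      ring
    rw [h3, div_le_iff₀ hℓ3]
    linarith
  have hcc1 : cc ℓ ≤ 1 := by
    unfold cc
    refine pow_le_one₀ (by positivity) ?_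
    rw [div_le_one hℓ']
    linarith
  have h1 : (lJ + ν * N) / ((ℓ : ℝ) + 1) ^ 3 = cc ℓ * X := by
    unfold cc
    rw [hX, hN_eq, div_pow]
    field_simp
  have h2 : (a / (omega * R ^ 3)) / 2 * (N : ℝ) ^ 2
      * (omega * (R - 4 * (ℓ : ℝ) - 2) ^ 3 / ((ℓ : ℝ) + 1) ^ 3 - 1) / ((ℓ : ℝ) + 1) ^ 3
      = (a / 2) * ρ ^ 2 * kap ℓ R := by
    unfold kap cc
    rw [hN_eq, div_pow]
    field_simp
    ring
  rw [h1, h2] at hlow
  have h3 : lineV a (pot w) ℓ N ν = X + (a / 2) * ρ ^ 2 := rfl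
  rw [h3]
  have h4 : (1 - cc ℓ) * X ≤ (1 - cc ℓ) * Real.exp (ν + 65536) :=
    mul_le_mul_of_nonneg_left hXup (by linarith)
  have h5 : ρ ^ 2 ≤ 4096 := by nlinarith
  have h6 : (a / 2) * ρ ^ 2 * (1 - kap ℓ R) ≤ (a / 2) * 4096 * |1 - kap ℓ R| := by
    have h7 : 1 - kap ℓ R ≤ |1 - kap ℓ R| := le_abs_self _
    have h8 : 0 ≤ (a / 2) * ρ ^ 2 := by positivity
    have h9 : (a / 2) * ρ ^ 2 * (1 - kap ℓ R) ≤ (a / 2) * ρ ^ 2 * |1 - kap ℓ R| :=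
      mul_le_mul_of_nonneg_left h7 h8
    have h10 : (a / 2) * ρ ^ 2 ≤ (a / 2) * 4096 := mul_le_mul_of_nonneg_left h5 (by positivity)
    exact h9.trans (mul_le_mul_of_nonneg_right h10 (abs_nonneg _))
  have e : X + (a / 2) * ρ ^ 2 = cc ℓ * X + (a / 2) * ρ ^ 2 * kap ℓ R
      + (1 - cc ℓ) * X + (a / 2) * ρ ^ 2 * (1 - kap ℓ R) := by ring
  rw [e]
  linarith

theorem GG_le_Pres {w : ℝ → ℝ} {c a R : ℝ} (hw : Attr w c) (hc : c ≤ 65536) (ha : 0 ≤ a)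
    (hR : 1 ≤ R) (hcA : c + 108 * a ≤ 65536) {ℓ : ℕ} (hℓ : 1 ≤ ℓ)
    (hRℓ : 4 * (ℓ : ℝ) + 2 ≤ R) (ν : ℝ) :
    GG a (pot w) ℓ ν
      ≤ Pres (fun x => core 131072 x - w x - hat a R x) ν
        + ((1 - cc ℓ) * Real.exp (ν + 65536) + (a / 2) * 4096 * |1 - kap ℓ R|) :=
  Finset.sup'_le _ _ fun _ hN => lineV_le_Pres hw hc ha hR hcA hℓ hN hRℓ ν

/-- The envelope without mean field term, from above. -/
lemma GG0_le {w : ℝ → ℝ} {c : ℝ} (hw : Attr w c) (hc : c ≤ 65536) {ℓ : ℕ} (hℓ : 1 ≤ ℓ) (ν : ℝ) :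
    GG 0 (pot w) ℓ ν ≤ ((ℓ : ℝ) + 1) ^ 3 / (ℓ : ℝ) ^ 3 * Pres (pot w) ν := by
  have hℓ0 : (0 : ℝ) < ℓ := by exact_mod_cast hℓ
  have hℓ3 : (0 : ℝ) < (ℓ : ℝ) ^ 3 := by positivity
  have hregv : Reg (pot w) 65536 := reg_pot' hw hc
  refine Finset.sup'_le _ _ fun N _ => ?_
  have h1 := term_le_lg_Zc hregv hℓ0 ν N
  have h2 := lg_Zc_le_Pres hregv ν hℓ0
  have e : lineV 0 (pot w) ℓ N ν = (ν * (N : ℝ) + lg (Jc (pot w) (ℓ : ℝ) N)) / (ℓ : ℝ) ^ 3 := by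
    unfold lineV yy rh
    field_simp
    ring
  rw [e, div_le_iff₀ hℓ3]
  have e2 : ((ℓ : ℝ) + 1) ^ 3 / (ℓ : ℝ) ^ 3 * Pres (pot w) ν * (ℓ : ℝ) ^ 3
      = ((ℓ : ℝ) + 1) ^ 3 * Pres (pot w) ν := by
    field_simp
  rw [e2]
  linarith

/-- The envelope without mean field term, from below. -/
lemma lg_Zc_le_GG0 {w : ℝ → ℝ} {c : ℝ} (hw : Attr w c) (hc : c ≤ 32768) {ℓ : ℕ} (hℓ : 1 ≤ ℓ)
    {ν : ℝ} (hν : ν ≤ 4096) :
    lg (Zc (pot w) (ℓ : ℝ) ν)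
      ≤ Real.log (((64 * ℓ ^ 3 + 1 : ℕ) : ℝ) + 2) + (ℓ : ℝ) ^ 3 * GG 0 (pot w) ℓ ν := by
  have hℓ0 : (0 : ℝ) < ℓ := by exact_mod_cast hℓ
  have hℓ3 : (0 : ℝ) < (ℓ : ℝ) ^ 3 := by positivity
  have hregv : Reg (pot w) 65536 := reg_pot' hw (by linarith)
  have hsuper := pot_superstable hw hc
  have hg : 0 ≤ (ℓ : ℝ) ^ 3 * GG 0 (pot w) ℓ ν := mul_nonneg hℓ3.le (GG_nonneg _ _ _ _)
  have hXle := lg_X_le (κ := 0) hregv.meas hsuper hℓ hν (by simp) hg (fun N hN => by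
    have hNfam : N ∈ famIdx ℓ := by simp [famIdx, hN]
    have h1 := lineV_le_GG 0 (pot w) hNfam ν
    have e : lineV 0 (pot w) ℓ N ν = (ν * (N : ℝ) + lg (Jc (pot w) (ℓ : ℝ) N)) / (ℓ : ℝ) ^ 3 := by
      unfold lineV yy rh
      field_simp
      ring
    rw [e, div_le_iff₀ hℓ3] at h1
    linarith)
  have e0 : (fun x => pot w x - 0) = pot w := by
    funext x
    simp
  rw [e0] at hXle
  have e1 : ν + (0 : ℝ) / 2 = ν := by ring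
  rw [e1] at hXle
  have hK₂pos : 0 < ((64 * ℓ ^ 3 + 1 : ℕ) : ℝ) + 2 := by positivity
  have h1 := lg_le_lg hXle (lt_of_lt_of_le one_pos (one_le_Zc _ _ _)) ENNReal.ofReal_ne_top
  refine h1.trans (le_of_eq ?_)
  unfold lg
  rw [ENNReal.toReal_ofReal (by positivity), Real.log_mul hK₂pos.ne' (Real.exp_pos _).ne',
    Real.log_exp]

/-- The logarithmic correction is negligible. -/
lemma tendsto_logK : Tendsto (fun ℓ : ℕ => Real.log (((64 * ℓ ^ 3 + 1 : ℕ) : ℝ) + 2) / (ℓ : ℝ) ^ 3)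
    atTop (𝓝 0) := by
  have h1 := Real.tendsto_pow_log_div_mul_add_atTop 1 (-3) 1 one_ne_zero
  have hy : Tendsto (fun ℓ : ℕ => ((64 * ℓ ^ 3 + 1 : ℕ) : ℝ) + 2) atTop atTop := by
    refine tendsto_atTop_add_const_right _ _ ?_
    refine tendsto_natCast_atTop_atTop.comp ?_
    refine tendsto_atTop_mono (fun ℓ => ?_) tendsto_id
    simp only [id]
    have : ℓ ≤ ℓ ^ 3 := Nat.le_self_pow (by norm_num) ℓ
    omega
  have h2 := (h1.comp hy).const_mul 64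
  rw [mul_zero] at h2
  refine h2.congr' ?_
  filter_upwards [eventually_ge_atTop 1] with ℓ hℓ
  have hℓ0 : (0 : ℝ) < ℓ := by exact_mod_cast hℓ
  simp only [Function.comp, pow_one]
  have e : ((64 * ℓ ^ 3 + 1 : ℕ) : ℝ) + 2 = 64 * (ℓ : ℝ) ^ 3 + 3 := by
    push_cast
    ring
  rw [e]
  generalize Real.log (64 * (ℓ : ℝ) ^ 3 + 3) = Lg
  have e2 : 1 * (64 * (ℓ : ℝ) ^ 3 + 3) + -3 = 64 * (ℓ : ℝ) ^ 3 := by ring
  rw [e2]
  field_simp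

/-- The envelope without mean field term is close to the pressure. -/
theorem GG0_close {w : ℝ → ℝ} {c : ℝ} (hw : Attr w c) (hc : c ≤ 32768) {ν : ℝ} (hν : ν ≤ 4096)
    {ε : ℝ} (hε : 0 < ε) : ∀ᶠ ℓ : ℕ in atTop,
      GG 0 (pot w) ℓ ν ≤ Pres (pot w) ν + ε ∧ Pres (pot w) ν ≤ GG 0 (pot w) ℓ ν + ε := by
  have hregv : Reg (pot w) 65536 := reg_pot' hw (by linarith)
  have hP := Pres_tendsto hregv ν
  have hnat : Tendsto (fun ℓ : ℕ => (ℓ : ℝ)) atTop atTop := tendsto_natCast_atTop_atTop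
  have h1 := hP.comp hnat
  have h2 : Tendsto (fun ℓ : ℕ => ((ℓ : ℝ) + 1) ^ 3 / (ℓ : ℝ) ^ 3 * Pres (pot w) ν) atTop
      (𝓝 (1 * Pres (pot w) ν)) := by
    refine Tendsto.mul_const _ ?_
    have h3 : Tendsto (fun ℓ : ℕ => (1 + 1 / (ℓ : ℝ)) ^ 3) atTop (𝓝 ((1 + 0) ^ 3)) :=
      (tendsto_const_nhds.add tendsto_one_div_atTop_nhds_zero_nat).pow 3
    have h4 : ((1 : ℝ) + 0) ^ 3 = 1 := by norm_num
    rw [h4] at h3
    refine h3.congr' ?_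
    filter_upwards [eventually_ge_atTop 1] with ℓ hℓ
    have hℓ0 : (0 : ℝ) < ℓ := by exact_mod_cast hℓ
    field_simp
  rw [one_mul] at h2
  have h5 := h2.eventually (gt_mem_nhds (by linarith : Pres (pot w) ν < Pres (pot w) ν + ε))
  have h6 := h1.sub tendsto_logK
  rw [sub_zero] at h6
  have h7 := h6.eventually (lt_mem_nhds (by linarith : Pres (pot w) ν - ε < Pres (pot w) ν))
  filter_upwards [h5, h7, eventually_ge_atTop 1] with ℓ h8 h9 hℓ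
  have hℓ0 : (0 : ℝ) < ℓ := by exact_mod_cast hℓ
  have hℓ3 : (0 : ℝ) < (ℓ : ℝ) ^ 3 := by positivity
  constructor
  · exact (GG0_le hw (by linarith) hℓ ν).trans h8.le
  · have h10 := lg_Zc_le_GG0 hw hc hℓ hν
    simp only [Function.comp] at h9
    have h11 : lg (Zc (pot w) (ℓ : ℝ) ν) / (ℓ : ℝ) ^ 3
        ≤ Real.log (((64 * ℓ ^ 3 + 1 : ℕ) : ℝ) + 2) / (ℓ : ℝ) ^ 3 + GG 0 (pot w) ℓ ν := by
      rw [div_le_iff₀ hℓ3]
      have e : (Real.log (((64 * ℓ ^ 3 + 1 : ℕ) : ℝ) + 2) / (ℓ : ℝ) ^ 3 + GG 0 (pot w) ℓ ν)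
          * (ℓ : ℝ) ^ 3
          = Real.log (((64 * ℓ ^ 3 + 1 : ℕ) : ℝ) + 2) + (ℓ : ℝ) ^ 3 * GG 0 (pot w) ℓ ν := by
        field_simp
      rw [e]
      exact h10
    linarith

lemma tendsto_cc : Tendsto cc atTop (𝓝 1) := by
  have h := (tendsto_natCast_div_add_atTop (𝕜 := ℝ) (1 : ℝ)).pow 3
  rw [one_pow] at h
  exact h

lemma cc_nonneg (ℓ : ℕ) : 0 ≤ cc ℓ := by
  unfold cc; positivity

lemma cc_le_one (ℓ : ℕ) : cc ℓ ≤ 1 := by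
  unfold cc
  refine pow_le_one₀ (by positivity) ?_
  rw [div_le_one (by positivity)]
  linarith

lemma tendsto_kap (ℓ : ℕ) : Tendsto (kap ℓ) atTop (𝓝 (cc ℓ ^ 2)) := by
  have h1 : Tendsto (fun R : ℝ => (4 * (ℓ : ℝ) + 2) / R) atTop (𝓝 0) :=
    tendsto_const_nhds.div_atTop tendsto_id
  have h2 : Tendsto (fun R : ℝ => 1 / R) atTop (𝓝 0) :=
    tendsto_const_nhds.div_atTop tendsto_id
  have h3 : Tendsto (kap ℓ) atTop (𝓝 (cc ℓ ^ 2 * (1 - 0) ^ 3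
      - (((ℓ : ℝ) ^ 6 / ((ℓ : ℝ) + 1) ^ 3) / omega) * 0 ^ 3)) :=
    ((tendsto_const_nhds.sub h1).pow 3 |>.const_mul _).sub ((h2.pow 3).const_mul _)
  simpa using h3

/-- Error terms in the large radius limit, for a fixed cube. -/
lemma eventually_errors {a t ε ℓ' : ℝ} (ha : 0 ≤ a) (ha' : a ≤ 128) (ht : t ≤ 1 / 2)
    (hε : 0 < ε) (hℓ' : 0 ≤ ℓ') {ℓ : ℕ} :
    ∀ᶠ R : ℝ in atTop, (a * (1 + 4 * ℓ' / R) ^ 3 / (1 - t) - a / (1 - t)) * 2048 ≤ ε / 3 ∧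
      a * (1 + 4 * ℓ' / R) ^ 3 / (1 - t) ≤ 1024 ∧
      (a / 2) * 4096 * |1 - kap ℓ R| ≤ (a / 2) * 4096 * (1 - cc ℓ ^ 2) + ε / 3 := by
  have h1t : 0 < 1 - t := by linarith
  have h1 : Tendsto (fun R : ℝ => 4 * ℓ' / R) atTop (𝓝 0) :=
    tendsto_const_nhds.div_atTop tendsto_id
  have h2 : Tendsto (fun R : ℝ => a * (1 + 4 * ℓ' / R) ^ 3 / (1 - t)) atTop
      (𝓝 (a * (1 + 0) ^ 3 / (1 - t))) :=
    Tendsto.div_const (Tendsto.const_mul _ ((tendsto_const_nhds.add h1).pow 3)) _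
  have e : a * (1 + 0) ^ 3 / (1 - t) = a / (1 - t) := by ring_nf
  rw [e] at h2
  have h3 := (h2.sub_const (a / (1 - t))).mul_const 2048
  have e2 : (a / (1 - t) - a / (1 - t)) * 2048 = 0 := by ring
  rw [e2] at h3
  have h4 : a / (1 - t) < 1024 := by
    rw [div_lt_iff₀ h1t]
    nlinarith
  have h5 : Tendsto (fun R : ℝ => (a / 2) * 4096 * |1 - kap ℓ R|) atTop
      (𝓝 ((a / 2) * 4096 * |1 - cc ℓ ^ 2|)) :=
    ((tendsto_const_nhds.sub (tendsto_kap ℓ)).abs).const_mul _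
  have h6 : |1 - cc ℓ ^ 2| = 1 - cc ℓ ^ 2 := by
    refine abs_of_nonneg ?_
    have h7 := cc_le_one ℓ
    have h8 := cc_nonneg ℓ
    nlinarith
  rw [h6] at h5
  filter_upwards [h3.eventually (ge_mem_nhds (by positivity : 0 < ε / 3)),
    h2.eventually (ge_mem_nhds h4),
    h5.eventually (ge_mem_nhds (by linarith :
      (a / 2) * 4096 * (1 - cc ℓ ^ 2) < (a / 2) * 4096 * (1 - cc ℓ ^ 2) + ε / 3))] with R h7 h8 h9
  exact ⟨h7, h8, h9⟩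

/-- Algebra for the error of the upper bound. -/
lemma aux_err_upper {a a₁ t θ K₁ e₀ lT ε E : ℝ} (ha : 0 ≤ a) (ht0 : 0 < t) (ht1 : t ≤ 1 / 2)
    (hθd : θ = t / (1 - t)) (hK₁ : 0 ≤ K₁) (he₀ : E ≤ e₀)
    (h1 : (a₁ - a / (1 - t)) * 2048 ≤ ε / 3) (h2 : lT ≤ ε / 3)
    (h3 : t * (2 * K₁ + a * 4096 + e₀) ≤ ε / 3) :
    (θ * K₁ + ((a₁ - a) / 2) * 4096) + lT + t * E ≤ ε := by
  have h1t : 0 < 1 - t := by linarith
  have hθ2 : θ ≤ 2 * t := by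
    rw [hθd, div_le_iff₀ h1t]
    nlinarith
  have hθa : a / (1 - t) - a = a * θ := by
    rw [hθd]
    field_simp
    ring
  have h4 : θ * K₁ ≤ 2 * t * K₁ := mul_le_mul_of_nonneg_right hθ2 hK₁
  have h5 : a * θ ≤ a * (2 * t) := mul_le_mul_of_nonneg_left hθ2 ha
  have h6 : t * E ≤ t * e₀ := mul_le_mul_of_nonneg_left he₀ ht0.le
  have e : ((a₁ - a) / 2) * 4096 = (a₁ - a / (1 - t)) * 2048 + (a / (1 - t) - a) * 2048 := by ring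
  rw [e, hθa]
  nlinarith

/-- The approximation theorem. -/
theorem approx {w : ℝ → ℝ} {c r a : ℝ} (hw : Attr w c) (hc0 : 0 ≤ c) (hc : c ≤ 16384)
    (hwr : Rng w r) (ha : 0 ≤ a) (ha' : a ≤ 128) (hcA : c + 108 * a ≤ 65536) {ε : ℝ} (hε : 0 < ε) :
    ∃ m : ℕ, 6 ≤ m ∧ ∀ᶠ q : ℕ in atTop, ∃ R₀ : ℝ, ∀ R, R₀ ≤ R → 1 ≤ R ∧ ∀ ν, ν ≤ 4096 →
      Pres (fun x => core 131072 x - w x - hat a R x) ν ≤ GG a (pot w) (m * q) ν + ε ∧
      GG a (pot w) (m * q) ν ≤ Pres (fun x => core 131072 x - w x - hat a R x) ν + ε := by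
  set e₀ := Real.exp (4096 + 65536) with he₀
  have he₀pos : 0 < e₀ := Real.exp_pos _
  set K₁ : ℝ := 4096 * 64 + (a / 2) * 4096 + 65536 * 64 + 1 with hK₁
  have hK₁0 : 0 ≤ K₁ := by positivity
  set K₃ : ℝ := 2 * K₁ + a * 4096 + e₀ with hK₃
  have hK₃0 : 0 < K₃ := by positivity
  obtain ⟨m₀, hm₀⟩ := exists_nat_ge (9 * K₃ / ε)
  set m := max m₀ 6 with hm
  have hm6 : 6 ≤ m := le_max_right _ _
  have hm0 : (0 : ℝ) < m := by
    have : 0 < m := by omega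
    exact_mod_cast this
  have hmbig : 9 * K₃ / ε ≤ m := hm₀.trans (by exact_mod_cast le_max_left _ _)
  refine ⟨m, hm6, ?_⟩
  set t := 3 / (m : ℝ) with ht
  have ht0 : 0 < t := by positivity
  have ht1 : t ≤ 1 / 2 := by
    have : (6 : ℝ) ≤ m := by exact_mod_cast hm6
    rw [ht, div_le_iff₀ hm0]
    linarith
  have h1t : 0 < 1 - t := by linarith
  have htK : t * K₃ ≤ ε / 3 := by
    rw [ht, div_mul_eq_mul_div, div_le_iff₀ hm0]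
    rw [div_le_iff₀ hε] at hmbig
    linarith
  -- the limits in the side of the cube
  have hmq : Tendsto (fun q : ℕ => m * q) atTop atTop :=
    Tendsto.const_mul_atTop' (by omega) tendsto_id
  have hL1 := (tendsto_logK.comp hmq).eventually (ge_mem_nhds (by positivity : 0 < ε / 3))
  have hcc : Tendsto (fun q : ℕ => (1 - cc (m * q)) * e₀ + (a / 2) * 4096 * (1 - cc (m * q) ^ 2))
      atTop (𝓝 ((1 - 1) * e₀ + (a / 2) * 4096 * (1 - 1 ^ 2))) := by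
    have h1 := tendsto_cc.comp hmq
    exact ((tendsto_const_nhds.sub h1).mul_const _).add
      (Tendsto.const_mul _ (tendsto_const_nhds.sub (h1.pow 2)))
  have e1 : ((1 : ℝ) - 1) * e₀ + (a / 2) * 4096 * (1 - 1 ^ 2) = 0 := by ring
  rw [e1] at hcc
  have hL2 := hcc.eventually (ge_mem_nhds (by positivity : 0 < ε / 3))
  obtain ⟨q₁, hq₁⟩ := exists_nat_ge r
  filter_upwards [hL1, hL2, eventually_ge_atTop 1, eventually_ge_atTop q₁] with q h1 h2 hq hqr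
  have hrq : r ≤ (q : ℝ) := hq₁.trans (by exact_mod_cast hqr)
  have hℓ1 : 1 ≤ m * q := Nat.mul_pos (by omega) hq
  obtain ⟨R₁, hR₁⟩ := eventually_atTop.1 (eventually_errors (a := a) (t := t) (ε := ε)
    (ℓ' := ((m * q : ℕ) : ℝ)) (ℓ := m * q) ha ha' ht1 hε (Nat.cast_nonneg _))
  refine ⟨max (max R₁ 1) (4 * ((m * q : ℕ) : ℝ) + 2), fun R hR => ?_⟩
  have hR1 : R₁ ≤ R := (le_max_left _ _).trans ((le_max_left _ _).trans hR)
  have hR2 : 1 ≤ R := (le_max_right _ _).trans ((le_max_left _ _).trans hR)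
  have hR3 : 4 * ((m * q : ℕ) : ℝ) + 2 ≤ R := (le_max_right _ _).trans hR
  obtain ⟨h3, h4, h5⟩ := hR₁ R hR1
  refine ⟨hR2, fun ν hν => ?_⟩
  have hexp : Real.exp (ν + 65536) ≤ e₀ := Real.exp_le_exp.2 (by linarith)
  constructor
  · have hU := Pres_le_GG hw hc0 hc hwr ha hR2 hcA hm6 hq hrq hν ht rfl rfl h4
    refine hU.trans ?_
    have hlt : Real.log (((64 * (m * q) ^ 3 + 1 : ℕ) : ℝ) + 2) / (((m * q : ℕ) : ℝ)) ^ 3 ≤ ε / 3 := h1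
    have := aux_err_upper (ε := ε) (K₁ := K₁) (e₀ := e₀) ha ht0 ht1 rfl hK₁0 hexp h3 hlt htK
    rw [hK₁] at this
    linarith
  · have hL := GG_le_Pres hw (by linarith) ha hR2 hcA hℓ1 hR3 ν
    refine hL.trans ?_
    have h6 : (1 - cc (m * q)) * Real.exp (ν + 65536) ≤ (1 - cc (m * q)) * e₀ :=
      mul_le_mul_of_nonneg_left hexp (by linarith [cc_le_one (m * q)])
    have h7 : (1 - cc (m * q)) * e₀ + (a / 2) * 4096 * (1 - cc (m * q) ^ 2) ≤ ε / 3 := h2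
    linarith

end Vale.Agent.Lib.P171
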