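import Vale.Agent.Lib.P171.Pressure

/-!
Top hat attractions and their strengths.
-/

set_option linter.unusedSectionVars false
set_option linter.unusedSimpArgs false
set_option linter.unusedVariables false

open MeasureTheory Set Filter Topology
open scoped ENNReal BigOperators

namespace Vale.Agent.Lib.P171

/-- The top hat of total mass `a` and radius `R`. -/
noncomputable def hat (a R : ℝ) (r : ℝ) : ℝ := by
  classical
  exact if r ≤ R then a / (omega * R ^ 3) else 0

lemma measurable_hat (a R : ℝ) : Measurable (hat a R) := by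
  classical
  unfold hat
  exact Measurable.ite measurableSet_Iic measurable_const measurable_const

lemma hat_nonneg {a R : ℝ} (ha : 0 ≤ a) (hR : 0 ≤ R) (r : ℝ) : 0 ≤ hat a R r := by
  unfold hat
  have := omega_pos
  split_ifs
  · positivity
  · exact le_rfl

lemma hat_le {a R : ℝ} (ha : 0 ≤ a) (hR : 1 ≤ R) (r : ℝ) : hat a R r ≤ a / omega := by
  have hom := omega_pos
  unfold hat
  split_ifs
  · have h1 : (1 : ℝ) ≤ R ^ 3 := one_le_pow₀ hR
    refine div_le_div_of_nonneg_left ha hom ?_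
    nlinarith
  · positivity

lemma hat_of_gt {a R r : ℝ} (h : R < r) : hat a R r = 0 := by
  unfold hat
  rw [if_neg (not_le.2 h)]

lemma rad_hat (a R : ℝ) :
    rad (hat a R) = fun x y => (a / (omega * R ^ 3)) * ballK R x y := by
  funext x y
  unfold rad hat ballK
  split_ifs <;> simp

lemma symm_ballK (R : ℝ) : Symm (ballK R) := fun x y => by
  simp only [ballK, norm_sub_rev]

lemma ballK_nonneg (R : ℝ) (x y : E3) : 0 ≤ ballK R x y := by
  unfold ballK; split_ifs <;> norm_num

lemma ballK_self {R : ℝ} (hR : 0 ≤ R) (x : E3) : ballK R x x = 1 := by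
  simp [ballK, hR]

lemma P_ballK_eq {R : ℝ} (hR : 0 ≤ R) (s : Multiset E3) :
    P (ballK R) s = (pairSum (ballK R) s s - (Multiset.card s : ℝ)) / 2 := by
  unfold P
  simp [ballK_self hR]

/-- Schur bound for a top hat on a general grid: the pair energy of the attraction, in terms of the
number of pairs in common cells. -/
lemma P_hat_le {a R ℓ : ℝ} (ha : 0 ≤ a) (hR : 0 < R) (hℓ : 0 < ℓ) (o : ℝ) (s : Multiset E3) :
    P (rad (hat a R)) s
      ≤ (a * (1 + 4 * ℓ / R) ^ 3 / (2 * ℓ ^ 3)) * pairSum (sameK ℓ o) s s := by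
  have hom := omega_pos
  rw [rad_hat, P_const_mul (symm_ballK R), P_ballK_eq hR.le]
  have h1 := pairSum_ballK_le hℓ hR.le o s
  have h2 : (0 : ℝ) ≤ (Multiset.card s : ℝ) := Nat.cast_nonneg _
  have h3 : 0 ≤ a / (omega * R ^ 3) := by positivity
  calc a / (omega * R ^ 3) * ((pairSum (ballK R) s s - (Multiset.card s : ℝ)) / 2)
      ≤ a / (omega * R ^ 3) * ((omega * (R + 4 * ℓ) ^ 3 / ℓ ^ 3) * pairSum (sameK ℓ o) s s / 2) := by
        refine mul_le_mul_of_nonneg_left ?_ h3
        linarith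
    _ = _ := by
        have : (1 + 4 * ℓ / R) = (R + 4 * ℓ) / R := by field_simp
        rw [this, div_pow]
        field_simp

/-- Strength of a top hat. -/
lemma Attr_hat {a R : ℝ} (ha : 0 ≤ a) (hR : 1 ≤ R) : Attr (hat a R) (108 * a) := by
  have hR0 : 0 < R := by linarith
  refine ⟨measurable_hat a R, hat_nonneg ha hR0.le, fun s => ?_⟩
  have h1 := P_hat_le ha hR0 (by norm_num : (0 : ℝ) < 1 / 2) 0 s
  refine h1.trans ?_
  unfold Bs
  refine mul_le_mul_of_nonneg_right ?_ (pairSum_nonneg' (sameK_nonneg _ _) s s)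
  have h2 : 1 + 4 * (1 / 2 : ℝ) / R ≤ 3 := by
    have : 2 / R ≤ 2 := by
      rw [div_le_iff₀ hR0]
      linarith
    have e : 4 * (1 / 2 : ℝ) / R = 2 / R := by ring
    rw [e]
    linarith
  have h3 : (1 + 4 * (1 / 2 : ℝ) / R) ^ 3 ≤ 3 ^ 3 :=
    pow_le_pow_left₀ (by positivity) h2 3
  have e : a * (1 + 4 * (1 / 2 : ℝ) / R) ^ 3 / (2 * (1 / 2 : ℝ) ^ 3)
      = 4 * a * (1 + 4 * (1 / 2 : ℝ) / R) ^ 3 := by ring
  rw [e]
  nlinarith

lemma Attr.add {w w' : ℝ → ℝ} {c c' : ℝ} (h : Attr w c) (h' : Attr w' c') :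
    Attr (fun r => w r + w' r) (c + c') := by
  refine ⟨h.meas.add h'.meas, fun r => add_nonneg (h.nonneg r) (h'.nonneg r), fun s => ?_⟩
  have e : rad (fun r => w r + w' r) = fun a b => rad w a b + rad w' a b := rfl
  rw [e, P_add_kernel (symm_rad _) (symm_rad _)]
  have h1 := h.bound s
  have h2 := h'.bound s
  linarith

lemma Attr.const_mul {w : ℝ → ℝ} {c κ : ℝ} (h : Attr w c) (hκ : 0 ≤ κ) :
    Attr (fun r => κ * w r) (κ * c) := by
  refine ⟨h.meas.const_mul κ, fun r => mul_nonneg hκ (h.nonneg r), fun s => ?_⟩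
  have e : rad (fun r => κ * w r) = fun a b => κ * rad w a b := rfl
  rw [e, P_const_mul (symm_rad _), mul_assoc]
  exact mul_le_mul_of_nonneg_left (h.bound s) hκ

lemma Attr_zero : Attr (fun _ => 0) 0 := by
  refine ⟨measurable_const, fun _ => le_rfl, fun s => ?_⟩
  have e : rad (fun _ => (0 : ℝ)) = fun a b : E3 => (0 : ℝ) * rad (fun _ => (0 : ℝ)) a b := by
    funext a b
    simp [rad]
  rw [e, P_const_mul (symm_rad _)]
  simp

/-- Finite range. -/
def Rng (w : ℝ → ℝ) (r : ℝ) : Prop := ∀ x, r < x → w x = 0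

lemma Rng.add {w w' : ℝ → ℝ} {r r' : ℝ} (h : Rng w r) (h' : Rng w' r') :
    Rng (fun x => w x + w' x) (max r r') := fun x hx => by
  show w x + w' x = 0
  rw [h x (lt_of_le_of_lt (le_max_left _ _) hx), h' x (lt_of_le_of_lt (le_max_right _ _) hx),
    add_zero]

lemma Rng.mono {w : ℝ → ℝ} {r r' : ℝ} (h : Rng w r) (hr : r ≤ r') : Rng w r' :=
  fun x hx => h x (lt_of_le_of_lt hr hx)

lemma Rng.const_mul {w : ℝ → ℝ} {r : ℝ} (h : Rng w r) (κ : ℝ) :
    Rng (fun x => κ * w x) r := fun x hx => by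
  show κ * w x = 0
  rw [h x hx, mul_zero]

lemma Rng_hat (a R : ℝ) : Rng (hat a R) R := fun _ hx => hat_of_gt hx

/-- Limits of functions in multiset sums. -/
lemma tendsto_ms_sum {E : Type} {f : ℕ → E → ℝ} {g : E → ℝ}
    (h : ∀ a, Tendsto (fun n => f n a) atTop (𝓝 (g a))) (t : Multiset E) :
    Tendsto (fun n => (t.map (f n)).sum) atTop (𝓝 (t.map g).sum) := by
  induction t using Multiset.induction_on with
  | empty => simp
  | cons b t ih =>
    simp only [Multiset.map_cons, Multiset.sum_cons]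
    exact (h b).add ih

/-- Limits of kernels in the pair functional. -/
lemma tendsto_P {E : Type} {u : ℕ → E → E → ℝ} {u' : E → E → ℝ}
    (h : ∀ a b, Tendsto (fun n => u n a b) atTop (𝓝 (u' a b))) (s : Multiset E) :
    Tendsto (fun n => P (u n) s) atTop (𝓝 (P u' s)) := by
  unfold P pairSum
  refine Tendsto.div_const (Tendsto.sub ?_ ?_) _
  · exact tendsto_ms_sum (fun a => tendsto_ms_sum (fun b => h a b) s) s
  · exact tendsto_ms_sum (fun a => h a a) s

/-- Strength passes to pointwise limits. -/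
lemma Attr_of_limit {W : ℕ → ℝ → ℝ} {w : ℝ → ℝ} {c : ℝ} (hW : ∀ n, Attr (W n) c)
    (hlim : ∀ r, Tendsto (fun n => W n r) atTop (𝓝 (w r))) : Attr w c := by
  refine ⟨measurable_of_tendsto_metrizable (fun n => (hW n).meas) (tendsto_pi_nhds.2 hlim),
    fun r => ge_of_tendsto' (hlim r) fun n => (hW n).nonneg r, fun s => ?_⟩
  refine le_of_tendsto' (tendsto_P (u := fun n => rad (W n)) (u' := rad w)
    (fun a b => hlim _) s) fun n => (hW n).bound s

end Vale.Agent.Lib.P171
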