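import Vale.Agent.Lib.P171.Step

/-!
The base case of the induction: the first attraction creates a jump of the density from the purely
repulsive potential.
-/

set_option linter.unusedSectionVars false
set_option linter.unusedSimpArgs false
set_option linter.unusedVariables false

open MeasureTheory Set Filter Topology
open scoped ENNReal BigOperators

namespace Vale.Agent.Lib.P171

lemma J_restrict_mono {E : Type} [MeasurableSpace E] {μ : Measure E} [SigmaFinite μ] {A B : Set E}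
    (hAB : A ⊆ B) (F : Multiset E → ℝ≥0∞) (N : ℕ) :
    J (μ.restrict A) F N ≤ J (μ.restrict B) F N := by
  unfold J
  refine mul_le_mul' le_rfl ?_
  rw [← Measure.restrict_pi_pi (fun _ : Fin N => μ) (fun _ => A),
    ← Measure.restrict_pi_pi (fun _ : Fin N => μ) (fun _ => B)]
  refine lintegral_mono_set ?_
  exact Set.pi_mono fun _ _ => hAB

/-- The zero attraction. -/
abbrev w₀ : ℝ → ℝ := fun _ => 0

lemma Rng_w₀ : Rng w₀ 0 := fun _ _ => rfl

lemma Jc_le_of_bound_s {φ : ℝ → ℝ} {ℓ : ℝ} (hℓ : 0 ≤ ℓ) (N : ℕ) (c : ℝ) {σ : ℝ} (hσ : 0 < σ)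
    (h : ∀ s : Multiset E3, (∀ a ∈ s, a ∈ cube ℓ 0) → Multiset.card s = N → -P (rad φ) s ≤ c) :
    Jc φ ℓ N ≤ ENNReal.ofReal (Real.exp (c + (N : ℝ) * Real.log (1 / σ) + ℓ ^ 3 * σ)) := by
  have h1 : Jc φ ℓ N ≤ J (volume.restrict (cube ℓ 0)) (fun _ => ENNReal.ofReal (Real.exp c)) N := by
    refine J_mono_on (measurableSet_cube _ _) fun s hs hc => ?_
    unfold Gib
    refine ENNReal.ofReal_le_ofReal (Real.exp_le_exp.2 ?_)
    have := h s hs hc
    linarith
  refine h1.trans ?_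
  rw [J_const, restrict_cube_univ hℓ]
  have h2 := fact_mul_le (x := ℓ ^ 3 * σ) (by positivity) N (c + (N : ℝ) * Real.log (1 / σ))
  refine le_trans (le_of_eq ?_) h2
  congr 1
  have hℓ3 : 0 ≤ ℓ ^ 3 := by positivity
  rw [← ENNReal.ofReal_pow hℓ3, ← ENNReal.ofReal_pow (by positivity),
    ← ENNReal.ofReal_mul (Real.exp_pos _).le, ← ENNReal.ofReal_mul (Real.exp_pos _).le]
  congr 1
  rw [Real.exp_add, mul_assoc]
  congr 1
  have h3 : Real.exp ((N : ℝ) * Real.log (1 / σ)) = (1 / σ) ^ N := by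
    rw [Real.exp_nat_mul, Real.exp_log (by positivity)]
  have h4 : (1 / σ) ^ N * σ ^ N = 1 := by
    rw [← mul_pow, one_div, inv_mul_cancel₀ hσ.ne', one_pow]
  rw [h3, mul_pow]
  calc (ℓ ^ 3) ^ N = (ℓ ^ 3) ^ N * ((1 / σ) ^ N * σ ^ N) := by rw [h4, mul_one]
    _ = _ := by ring

lemma P_rad_core_nonneg (s : Multiset E3) : 0 ≤ P (rad (pot w₀)) s := by
  have h1 := P_mono (u := fun _ _ => (0 : ℝ)) (u' := rad (pot w₀)) (symm_const 0) (symm_rad _)
    (fun a b => by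
      simp only [rad, pot]
      have := core_nonneg (A := 131072) (by norm_num) ‖a - b‖
      linarith) s
  rw [P_const] at h1
  simpa using h1

lemma lg_Jc_core_le {ℓ : ℕ} (hℓ : 1 ≤ ℓ) (N : ℕ) :
    lg (Jc (pot w₀) (ℓ : ℝ) N) ≤ (N : ℝ) * Real.log 256 + (ℓ : ℝ) ^ 3 * (1 / 256) := by
  have hℓ0 : (0 : ℝ) < ℓ := by exact_mod_cast hℓ
  have hmeas : Measurable (pot w₀) := (reg_pot' Attr_zero (by norm_num)).meas
  have h1 := Jc_le_of_bound_s (φ := pot w₀) hℓ0.le N 0 (σ := 1 / 256) (by norm_num)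
    (fun s _ _ => by
      have := P_rad_core_nonneg s
      linarith)
  have h2 := lg_le_lg h1 (pos_iff_ne_zero.2 (Jc_ne_zero hmeas hℓ0 N)) ENNReal.ofReal_ne_top
  rw [lg_ofReal_exp] at h2
  have e : (1 : ℝ) / (1 / 256) = 256 := by norm_num
  rw [e] at h2
  linarith

lemma P_singleton {E : Type} (u : E → E → ℝ) (a : E) : P u {a} = 0 := by
  simp [P, pairSum]

/-- A sparse configuration in separated unit cells: the canonical partition function at density one
eighth is at least one. -/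
lemma one_le_Jc_packing {k : ℕ} (hk : 1 ≤ k) :
    1 ≤ Jc (pot w₀) ((2 * k : ℕ) : ℝ) (k ^ 3) := by
  classical
  have hreg : Reg (pot w₀) 65536 := reg_pot' Attr_zero (by norm_num)
  have hmain := J_biUnion_ge (μ := (volume : Measure E3)) (gridIdx k)
    (fun δ => cube 1 (off 1 δ)) (fun δ _ => measurableSet_cube _ _)
    (fun δ _ δ' _ hne => off_disjoint (by norm_num) hne)
    (F := Gib (rad (pot w₀)) 0) (G := fun _ => 1)
    (measF_Gib (measurable_rad hreg.meas) 0) (fun _ => measurable_const) 1 1 (by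
      intro ss hss
      simp only [Finset.prod_const_one, mul_one]
      have hP : P (rad (pot w₀)) (∑ δ ∈ gridIdx k, ss δ) ≤ 0 := by
        have h1 := P_sum_formula (gridIdx k) ss (rad (pot w₀))
        have h2 : ∀ δ ∈ gridIdx k, P (rad (pot w₀)) (ss δ) = 0 := by
          intro δ hδ
          obtain ⟨a, ha⟩ := Multiset.card_eq_one.1 (hss δ hδ).2
          rw [ha, P_singleton]
        have h3 : ∑ δ ∈ gridIdx k, ∑ δ' ∈ (gridIdx k).erase δ,
            pairSum (rad (pot w₀)) (ss δ) (ss δ') ≤ 0 := by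
          refine Finset.sum_nonpos fun δ hδ => Finset.sum_nonpos fun δ' hδ' => ?_
          obtain ⟨hne, hδ'k⟩ := Finset.mem_erase.1 hδ'
          have h4 := pairSum_le_const (u := rad (pot w₀)) (s := ss δ) (t := ss δ') (κ := 0)
            (fun x hx y hy => by
              have hsep : 1 ≤ ‖x - y‖ := off_separated (by norm_num) (Ne.symm hne)
                ((hss δ hδ).1 x hx) ((hss δ' hδ'k).1 y hy)
              simp only [rad, pot]
              rw [core_of_ge hsep]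
              norm_num)
          simpa using h4
        rw [Finset.sum_eq_zero h2] at h1
        linarith
      unfold Gib
      have h5 : (1 : ℝ≥0∞) = ENNReal.ofReal (Real.exp 0) := by simp
      rw [h5]
      refine ENNReal.ofReal_le_ofReal (Real.exp_le_exp.2 ?_)
      simp only [zero_mul, add_zero]
      linarith)
  have hone : ∀ δ ∈ gridIdx k, J (volume.restrict (cube 1 (off 1 δ))) (fun _ => (1 : ℝ≥0∞)) 1 = 1 := by
    intro δ _
    rw [J_const, restrict_cube_univ (by norm_num)]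
    simp
  rw [Finset.prod_eq_one hone, one_mul, card_gridIdx, mul_one] at hmain
  refine hmain.trans ?_
  have hsub : (⋃ δ ∈ gridIdx k, cube 1 (off 1 δ)) ⊆ cube ((2 * k : ℕ) : ℝ) 0 := by
    refine iUnion₂_subset fun δ hδ => ?_
    have := cube_off_subset (L := 1) (by norm_num) hδ
    have e : ((2 * k : ℕ) : ℝ) = (k : ℝ) * (1 + 1) := by
      push_cast
      ring
    rw [e]
    exact this
  exact J_restrict_mono hsub _ _

/-- Numerical bound on the logarithm. -/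
lemma log_256_le : Real.log 256 ≤ 5.6 := by
  have h1 : Real.log 256 = 8 * Real.log 2 := by
    have : (256 : ℝ) = 2 ^ 8 := by norm_num
    rw [this, Real.log_pow]
    norm_num
  rw [h1]
  have := Real.log_two_lt_d9
  norm_num at this ⊢
  linarith

/-- The density bound on the free energy. -/
lemma yy_core_le {ℓ : ℕ} (hℓ : 1 ≤ ℓ) (N : ℕ) :
    yy (pot w₀) ℓ N ≤ 1 / 256 + rh ℓ N * 5.6 := by
  have hℓ0 : (0 : ℝ) < ℓ := by exact_mod_cast hℓ
  have hℓ3 : (0 : ℝ) < (ℓ : ℝ) ^ 3 := by positivity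
  unfold yy rh
  rw [div_le_iff₀ hℓ3]
  have h1 := lg_Jc_core_le hℓ N
  have h2 : (N : ℝ) * Real.log 256 ≤ (N : ℝ) * 5.6 :=
    mul_le_mul_of_nonneg_left log_256_le (Nat.cast_nonneg _)
  have e : (1 / 256 + (N : ℝ) / (ℓ : ℝ) ^ 3 * 5.6) * (ℓ : ℝ) ^ 3
      = (ℓ : ℝ) ^ 3 * (1 / 256) + (N : ℝ) * 5.6 := by
    field_simp
  rw [e]
  linarith

/-- The family for the base case. -/
theorem base_family {k : ℕ} (hk : 1 ≤ k) :
    ∃ ν_c, ν_c ≤ 0 ∧ ∀ h' : ℝ, 0 < h' → NJ (GG 128 (pot w₀) (2 * k)) ν_c h' (1 / 256) (1 / 64) := by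
  classical
  set ℓ := 2 * k with hℓd
  have hℓ : 1 ≤ ℓ := by omega
  have hk0 : (0 : ℝ) < k := by exact_mod_cast hk
  have hℓ0 : (0 : ℝ) < ℓ := by exact_mod_cast hℓ
  have hreg : Reg (pot w₀) 65536 := reg_pot' Attr_zero (by norm_num)
  set S := famIdx ℓ with hS
  have hSn : S.Nonempty := famIdx_nonempty ℓ
  set y := yy (pot w₀) ℓ with hy
  set ρ := rh ℓ with hρ
  set N₀ := k ^ 3 with hN₀
  have hN₀S : N₀ ∈ S := by
    simp only [hS, famIdx, Finset.mem_range, hN₀, hℓd]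
    have : 8 * k ^ 3 = (2 * k) ^ 3 := by ring
    omega
  have h0S : 0 ∈ S := by simp [hS, famIdx]
  have hρN₀ : ρ N₀ = 1 / 8 := by
    simp only [hρ, rh, hN₀, hℓd]
    push_cast
    field_simp
    norm_num
  have hρ0 : ρ 0 = 0 := by simp [hρ, rh]
  have hy0 : y 0 = 0 := by simp [hy, yy, lg_one]
  have hyN₀ : 0 ≤ y N₀ := by
    simp only [hy, yy]
    have h1 := one_le_Jc_packing hk
    refine div_nonneg (lg_nonneg h1 (Jc_ne_top hreg.stable hℓ0.le _)) (by positivity)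
  have hyle : ∀ N, y N ≤ 1 / 256 + ρ N * 5.6 := fun N => yy_core_le hℓ N
  have hρnn : ∀ N, 0 ≤ ρ N := fun N => rh_nonneg ℓ N
  have hρle : ∀ N ∈ S, ρ N ≤ 64 := fun N hN => rh_le hℓ hN
  set T₁ := S.filter fun N => ρ N < 1 / 256 with hT₁d
  set T₂ := S.filter fun N => 1 / 64 < ρ N with hT₂d
  have h0T : 0 ∈ T₁ := Finset.mem_filter.2 ⟨h0S, by rw [hρ0]; norm_num⟩
  have hN₀T : N₀ ∈ T₂ := Finset.mem_filter.2 ⟨hN₀S, by rw [hρN₀]; norm_num⟩
  have hT₁ : T₁.Nonempty := ⟨0, h0T⟩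
  have hT₂ : T₂.Nonempty := ⟨N₀, hN₀T⟩
  have hG₁0 : ∀ ν, 0 ≤ env 128 y ρ T₁ hT₁ ν := by
    intro ν
    have h1 := ln_le_env (a := 128) (y := y) (ρ := ρ) hT₁ h0T ν
    have e : ln 128 y ρ 0 ν = 0 := by
      unfold ln
      rw [hy0, hρ0]
      ring
    rwa [e] at h1
  have hG₂1 : ∀ ν, ν / 8 + 1 ≤ env 128 y ρ T₂ hT₂ ν := by
    intro ν
    have h1 := ln_le_env (a := 128) (y := y) (ρ := ρ) hT₂ hN₀T ν
    refine le_trans ?_ h1
    unfold ln
    rw [hρN₀]
    linarith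
  have hdom : ∀ N ∈ S, ∀ ν, ln 128 y ρ N ν ≤ max (env 128 y ρ T₁ hT₁ ν) (env 128 y ρ T₂ hT₂ ν) := by
    intro N hN ν
    by_cases hN1 : ρ N < 1 / 256
    · exact (ln_le_env hT₁ (Finset.mem_filter.2 ⟨hN, hN1⟩) ν).trans (le_max_left _ _)
    by_cases hN2 : 1 / 64 < ρ N
    · exact (ln_le_env hT₂ (Finset.mem_filter.2 ⟨hN, hN2⟩) ν).trans (le_max_right _ _)
    push Not at hN1 hN2
    have h3 : ln 128 y ρ N ν ≤ ρ N * (8 + ν) := by
      unfold ln
      have h4 := hyle N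
      nlinarith
    by_cases h8 : 8 + ν ≤ 0
    · refine le_trans ?_ (le_max_of_le_left (hG₁0 ν))
      refine h3.trans ?_
      nlinarith
    · push Not at h8
      refine le_trans ?_ (le_max_of_le_right (hG₂1 ν))
      refine h3.trans ?_
      nlinarith
  have hplus : env 128 y ρ T₁ hT₁ 0 ≤ env 128 y ρ T₂ hT₂ 0 := by
    have h1 := hG₂1 0
    refine le_trans (env_le fun N hN => ?_) h1
    obtain ⟨hNS, hNρ⟩ := Finset.mem_filter.1 hN
    have h4 := hyle N
    have h5 := hρnn N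
    unfold ln
    nlinarith
  have hminus : env 128 y ρ T₂ hT₂ (-4102) ≤ env 128 y ρ T₁ hT₁ (-4102) := by
    refine le_trans (env_le fun N hN => ?_) (hG₁0 _)
    obtain ⟨hNS, hNρ⟩ := Finset.mem_filter.1 hN
    have h4 := hyle N
    have h6 := hρle N hNS
    unfold ln
    nlinarith
  obtain ⟨ν_c, hν_c, hcorner⟩ := crossing (a := 128) (y := y) (ρ := ρ) (ρ₁ := 1 / 256) (ρ₂ := 1 / 64)
    hSn hT₁ hT₂ (Finset.filter_subset _ _) (Finset.filter_subset _ _)
    (fun N hN => (Finset.mem_filter.1 hN).2.le) (fun N hN => (Finset.mem_filter.1 hN).2.le) hdom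
    (by norm_num : (-4102 : ℝ) ≤ 0) hminus hplus
  exact ⟨ν_c, hν_c.2, fun h' hh' => hcorner h' hh'⟩

/-- The base case of the induction. -/
theorem base {h' η : ℝ} (hh' : 0 < h') (hh'1 : h' ≤ 1) (hη : 0 < η) :
    ∃ R : ℝ, 1 ≤ R ∧ ∃ ν', ν' ≤ 0 ∧
      NJ (Pres (fun x => core 131072 x - w₀ x - hat 128 R x)) ν' h' (1 / 256 + η) (1 / 64 - η) := by
  have hε : 0 < h' * η / 2 := by positivity
  obtain ⟨m, hm, hev⟩ := approx (w := w₀) (a := 128) Attr_zero le_rfl (by norm_num) Rng_w₀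
    (by norm_num) le_rfl (by norm_num) hε
  obtain ⟨Q, hQ⟩ := eventually_atTop.1 hev
  obtain ⟨R₀, hR₀⟩ := hQ (2 * (Q + 1)) (by omega)
  obtain ⟨hR1, hRbd⟩ := hR₀ (max R₀ 1) (le_max_left _ _)
  have e : m * (2 * (Q + 1)) = 2 * (m * (Q + 1)) := by ring
  rw [e] at hRbd
  have hk : 1 ≤ m * (Q + 1) := Nat.mul_pos (by omega) (by omega)
  obtain ⟨ν_c, hν_c, hcorner⟩ := base_family hk
  refine ⟨max R₀ 1, hR1, ν_c, hν_c, ?_⟩
  have h1 : ν_c ≤ 4096 := by linarith
  have h2 : ν_c + h' ≤ 4096 := by linarith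
  have h3 : ν_c - h' ≤ 4096 := by linarith
  exact NJ_of_close (hcorner h' hh') (hRbd _ h1).1 (hRbd _ h1).2 (hRbd _ h2).1 (hRbd _ h2).2
    (hRbd _ h3).1 (hRbd _ h3).2 hh' (by linarith)

end Vale.Agent.Lib.P171
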