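import Vale.Agent.Lib.P171.Upper

/-!
Canonical partition functions in a cube: bounds, the tail in the number of particles, and the bound
for the grand partition function of a cube.
-/

set_option linter.unusedSectionVars false
set_option linter.unusedSimpArgs false
set_option linter.unusedVariables false

open MeasureTheory Set Filter Topology
open scoped ENNReal BigOperators

namespace Vale.Agent.Lib.P171

/-- The canonical partition function in the cube of side `ℓ`. -/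
noncomputable def Jc (φ : ℝ → ℝ) (ℓ : ℝ) (N : ℕ) : ℝ≥0∞ :=
  J (volume.restrict (cube ℓ 0)) (Gib (rad φ) 0) N

lemma Jc_ne_zero {φ : ℝ → ℝ} (hφ : Measurable φ) {ℓ : ℝ} (hℓ : 0 < ℓ) (N : ℕ) : Jc φ ℓ N ≠ 0 :=
  J_Gib_ne_zero (measurable_rad hφ) 0 N (restrict_cube_ne_zero hℓ 0)

lemma Jc_ne_top {φ : ℝ → ℝ} {B : ℝ} (h : ∀ s : Multiset E3, -P (rad φ) s ≤ B * (Multiset.card s : ℝ))
    {ℓ : ℝ} (hℓ : 0 ≤ ℓ) (N : ℕ) : Jc φ ℓ N ≠ ∞ :=
  J_Gib_ne_top h 0 N (restrict_cube_ne_top hℓ 0)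

lemma ofReal_exp_lg {x : ℝ≥0∞} (h0 : x ≠ 0) (h1 : x ≠ ∞) : ENNReal.ofReal (Real.exp (lg x)) = x := by
  unfold lg
  rw [Real.exp_log (ENNReal.toReal_pos h0 h1), ENNReal.ofReal_toReal h1]

lemma fact_mul_le {x : ℝ} (hx : 0 ≤ x) (N : ℕ) (c : ℝ) :
    (N.factorial : ℝ≥0∞)⁻¹ * (ENNReal.ofReal (Real.exp c) * (ENNReal.ofReal x) ^ N)
      ≤ ENNReal.ofReal (Real.exp (c + x)) := by
  have hf : (0 : ℝ) < N.factorial := by positivity
  have e1 : (N.factorial : ℝ≥0∞)⁻¹ = ENNReal.ofReal ((N.factorial : ℝ)⁻¹) := by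
    rw [ENNReal.ofReal_inv_of_pos hf, ENNReal.ofReal_natCast]
  rw [e1, ← ENNReal.ofReal_pow hx, ← ENNReal.ofReal_mul (Real.exp_pos _).le,
    ← ENNReal.ofReal_mul (by positivity)]
  refine ENNReal.ofReal_le_ofReal ?_
  have h1 := Real.pow_div_factorial_le_exp x hx N
  rw [Real.exp_add]
  calc (N.factorial : ℝ)⁻¹ * (Real.exp c * x ^ N) = Real.exp c * (x ^ N / (N.factorial : ℝ)) := by
        field_simp
    _ ≤ Real.exp c * Real.exp x := mul_le_mul_of_nonneg_left h1 (Real.exp_pos _).le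

/-- A canonical partition function is bounded when the Gibbs weight is bounded on the cube. -/
lemma Jc_le_of_bound {φ : ℝ → ℝ} {ℓ : ℝ} (hℓ : 0 ≤ ℓ) (N : ℕ) (c : ℝ)
    (h : ∀ s : Multiset E3, (∀ a ∈ s, a ∈ cube ℓ 0) → Multiset.card s = N → -P (rad φ) s ≤ c) :
    Jc φ ℓ N ≤ ENNReal.ofReal (Real.exp (c + ℓ ^ 3)) := by
  have h1 : Jc φ ℓ N ≤ J (volume.restrict (cube ℓ 0)) (fun _ => ENNReal.ofReal (Real.exp c)) N := by
    refine J_mono_on (measurableSet_cube _ _) fun s hs hc => ?_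
    unfold Gib
    refine ENNReal.ofReal_le_ofReal (Real.exp_le_exp.2 ?_)
    have := h s hs hc
    linarith
  refine h1.trans ?_
  rw [J_const, restrict_cube_univ hℓ]
  exact fact_mul_le (by positivity) N c

lemma lg_Jc_le {φ : ℝ → ℝ} {B : ℝ} (hφ : Measurable φ)
    (h : ∀ s : Multiset E3, -P (rad φ) s ≤ B * (Multiset.card s : ℝ))
    {ℓ : ℝ} (hℓ : 0 < ℓ) (N : ℕ) : lg (Jc φ ℓ N) ≤ B * (N : ℝ) + ℓ ^ 3 := by
  have h1 := Jc_le_of_bound (φ := φ) hℓ.le N (B * (N : ℝ)) fun s _ hc => by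
    have := h s
    rwa [hc] at this
  have h2 := lg_le_lg h1 (pos_iff_ne_zero.2 (Jc_ne_zero hφ hℓ N)) ENNReal.ofReal_ne_top
  simpa using h2

@[simp] lemma Jc_zero (φ : ℝ → ℝ) (ℓ : ℝ) : Jc φ ℓ 0 = 1 := by
  unfold Jc
  rw [J_zero, Gib_zero]

lemma lg_one : lg 1 = 0 := by simp [lg]

/-- Points in a cube: the occupation energy is at least the mean field value. -/
lemma card_sq_le_Bs {ℓ : ℕ} (s : Multiset E3) (hs : ∀ x ∈ s, x ∈ cube (ℓ : ℝ) 0) :
    (Multiset.card s : ℝ) ^ 2 ≤ 8 * (ℓ : ℝ) ^ 3 * Bs s := by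
  classical
  set B : Finset (Fin 3 → ℤ) := Fintype.piFinset fun _ => Finset.Ico (0 : ℤ) (2 * ℓ) with hB
  have hcard : (B.card : ℝ) = 8 * (ℓ : ℝ) ^ 3 := by
    have : B.card = (2 * ℓ) ^ 3 := by
      simp only [hB, Fintype.card_piFinset, Finset.prod_const, Finset.card_univ, Fintype.card_fin,
        Int.card_Ico]
      congr 1
    rw [this]
    push_cast
    ring
  have hmem : ∀ x ∈ s.map (cellOf (1 / 2) 0), x ∈ B := by
    intro τ hτ
    obtain ⟨x, hx, rfl⟩ := Multiset.mem_map.1 hτ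
    simp only [hB, Fintype.mem_piFinset, Finset.mem_Ico]
    intro k
    have h1 := hs x hx k
    simp only [Pi.zero_apply, zero_add] at h1
    rw [cellOf_coord]
    constructor
    · refine Int.floor_nonneg.2 ?_
      rw [sub_zero]
      exact div_nonneg h1.1 (by norm_num)
    · rw [Int.floor_lt]
      rw [sub_zero, div_lt_iff₀ (by norm_num : (0 : ℝ) < 1 / 2)]
      push_cast
      linarith [h1.2]
  have h2 := card_sq_le_pairSum_eq (s.map (cellOf (1 / 2) 0)) B hmem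
  rw [← pairSum_sameK_eq, hcard, Multiset.card_map] at h2
  exact h2

/-- The tail of the grand partition sum. -/
lemma term_tail {φ : ℝ → ℝ}
    (hsuper : ∀ s : Multiset E3, 32768 * Bs s - 65536 * (Multiset.card s : ℝ) ≤ P (rad φ) s)
    {ℓ : ℕ} (hℓ : 1 ≤ ℓ) {ν κ : ℝ} (hν : ν ≤ 4096) (hκ : κ * (ℓ : ℝ) ^ 3 ≤ 1024)
    {N : ℕ} (hN : 64 * ℓ ^ 3 ≤ N) :
    ENNReal.ofReal (Real.exp (ν * (N : ℝ) + κ * (N : ℝ) ^ 2 / 2)) * Jc φ (ℓ : ℝ) N
      ≤ ENNReal.ofReal (Real.exp (-(N : ℝ))) := by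
  have hℓ0 : (0 : ℝ) < ℓ := by exact_mod_cast hℓ
  have hℓ3 : (0 : ℝ) < (ℓ : ℝ) ^ 3 := by positivity
  have hN' : 64 * (ℓ : ℝ) ^ 3 ≤ N := by exact_mod_cast hN
  have hN0 : (0 : ℝ) ≤ N := Nat.cast_nonneg _
  set Y : ℝ := (N : ℝ) ^ 2 / (ℓ : ℝ) ^ 3 with hY
  have hY1 : 64 * (N : ℝ) ≤ Y := by
    rw [hY, le_div_iff₀ hℓ3]
    nlinarith
  have h1 := Jc_le_of_bound (φ := φ) hℓ0.le N (-(4096 * Y) + 65536 * (N : ℝ)) (by
    intro s hs hc
    have h2 := hsuper s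
    have h3 := card_sq_le_Bs s hs
    rw [hc] at h2 h3
    have h4 : Y ≤ 8 * Bs s := by
      rw [hY, div_le_iff₀ hℓ3]
      nlinarith
    linarith)
  calc ENNReal.ofReal (Real.exp (ν * (N : ℝ) + κ * (N : ℝ) ^ 2 / 2)) * Jc φ (ℓ : ℝ) N
      ≤ ENNReal.ofReal (Real.exp (ν * (N : ℝ) + κ * (N : ℝ) ^ 2 / 2))
        * ENNReal.ofReal (Real.exp (-(4096 * Y) + 65536 * (N : ℝ) + (ℓ : ℝ) ^ 3)) :=
        mul_le_mul' le_rfl h1
    _ = ENNReal.ofReal (Real.exp (ν * (N : ℝ) + κ * (N : ℝ) ^ 2 / 2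
          + (-(4096 * Y) + 65536 * (N : ℝ) + (ℓ : ℝ) ^ 3))) := by
        rw [← ENNReal.ofReal_mul (Real.exp_pos _).le, ← Real.exp_add]
    _ ≤ _ := by
        refine ENNReal.ofReal_le_ofReal (Real.exp_le_exp.2 ?_)
        have h5 : κ * (N : ℝ) ^ 2 / 2 ≤ 512 * Y := by
          have h6 : κ * (N : ℝ) ^ 2 = (κ * (ℓ : ℝ) ^ 3) * Y := by
            rw [hY]
            field_simp
          rw [h6]
          have hY0 : 0 ≤ Y := by positivity
          nlinarith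
        have h7 : ν * (N : ℝ) ≤ 4096 * N := mul_le_mul_of_nonneg_right hν hN0
        nlinarith

/-- Summing a finite block and an exponentially small tail. -/
lemma tsum_le_of_block {term : ℕ → ℝ≥0∞} {K : ℕ} {g : ℝ} (hg : 0 ≤ g)
    (h1 : ∀ N, N < K → term N ≤ ENNReal.ofReal (Real.exp g))
    (h2 : ∀ N, K ≤ N → term N ≤ ENNReal.ofReal (Real.exp (-(N : ℝ)))) :
    ∑' N, term N ≤ ENNReal.ofReal (((K : ℝ) + 2) * Real.exp g) := by
  classical
  have hpt : ∀ N, term N ≤ (if N < K then ENNReal.ofReal (Real.exp g) else 0)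
      + ENNReal.ofReal (Real.exp (-(N : ℝ))) := by
    intro N
    by_cases hN : N < K
    · rw [if_pos hN]
      exact (h1 N hN).trans le_self_add
    · rw [if_neg hN, zero_add]
      exact h2 N (not_lt.1 hN)
  refine (ENNReal.tsum_le_tsum hpt).trans ?_
  rw [ENNReal.tsum_add]
  have hfin : ∑' N : ℕ, (if N < K then ENNReal.ofReal (Real.exp g) else 0)
      = (K : ℝ≥0∞) * ENNReal.ofReal (Real.exp g) := by
    rw [tsum_eq_sum (s := Finset.range K) (fun N hN => by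
      rw [if_neg (by simpa using hN)])]
    rw [Finset.sum_congr rfl fun N hN => if_pos (Finset.mem_range.1 hN)]
    simp
  have hgeo : ∑' N : ℕ, ENNReal.ofReal (Real.exp (-(N : ℝ))) ≤ 2 := by
    have hr0 : 0 ≤ Real.exp (-1) := (Real.exp_pos _).le
    have hr1 : Real.exp (-1) ≤ 1 / 2 := by
      rw [Real.exp_neg, one_div]
      refine inv_anti₀ (by norm_num) ?_
      have := Real.add_one_le_exp (1 : ℝ)
      linarith
    have hr2 : Real.exp (-1) < 1 := by linarith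
    have e : ∀ N : ℕ, Real.exp (-(N : ℝ)) = Real.exp (-1) ^ N := by
      intro N
      rw [← Real.exp_nat_mul]
      congr 1
      ring
    simp_rw [e]
    have hs := summable_geometric_of_lt_one hr0 hr2
    rw [← ENNReal.ofReal_tsum_of_nonneg (fun N => by positivity) hs,
      tsum_geometric_of_lt_one hr0 hr2]
    have h3 : (1 - Real.exp (-1))⁻¹ ≤ 2 := by
      rw [inv_le_comm₀ (by linarith) (by norm_num)]
      linarith
    calc ENNReal.ofReal (1 - Real.exp (-1))⁻¹ ≤ ENNReal.ofReal 2 := ENNReal.ofReal_le_ofReal h3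
      _ = 2 := by simp
  rw [hfin]
  have hexp : (1 : ℝ) ≤ Real.exp g := Real.one_le_exp hg
  have e2 : ENNReal.ofReal (((K : ℝ) + 2) * Real.exp g)
      = (K : ℝ≥0∞) * ENNReal.ofReal (Real.exp g) + ENNReal.ofReal (2 * Real.exp g) := by
    rw [add_mul, ENNReal.ofReal_add (by positivity) (by positivity),
      ENNReal.ofReal_mul (Nat.cast_nonneg _), ENNReal.ofReal_natCast]
  rw [e2]
  refine add_le_add le_rfl (hgeo.trans ?_)
  have h3 : ENNReal.ofReal 2 ≤ ENNReal.ofReal (2 * Real.exp g) :=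
    ENNReal.ofReal_le_ofReal (by linarith)
  simpa using h3

/-- The grand partition function of a cube with a mean field term. -/
lemma Zc_shift {φ : ℝ → ℝ} (hφ : Measurable φ) (ℓ κ ν : ℝ) :
    Zc (fun x => φ x - κ) ℓ (ν + κ / 2)
      = ∑' N : ℕ, ENNReal.ofReal (Real.exp (ν * (N : ℝ) + κ * (N : ℝ) ^ 2 / 2)) * Jc φ ℓ N := by
  unfold Zc I
  refine tsum_congr fun N => ?_
  unfold Jc
  rw [← J_const_mul _ (measF_Gib (measurable_rad hφ) 0)]
  refine J_congr_on (measurableSet_cube _ _) fun s _ hc => ?_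
  unfold Gib
  rw [← ENNReal.ofReal_mul (Real.exp_pos _).le, ← Real.exp_add, hc]
  congr 2
  have e : rad (fun x => φ x - κ) = fun a b => rad φ a b - (fun _ _ => κ) a b := rfl
  rw [e, P_sub_kernel (symm_rad φ) (symm_const κ), P_const, hc]
  ring

/-- Bound for the grand partition function of a cube given a bound on the terms. -/
theorem lg_X_le {φ : ℝ → ℝ} (hφ : Measurable φ)
    (hsuper : ∀ s : Multiset E3, 32768 * Bs s - 65536 * (Multiset.card s : ℝ) ≤ P (rad φ) s)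
    {ℓ : ℕ} (hℓ : 1 ≤ ℓ) {ν κ : ℝ} (hν : ν ≤ 4096) (hκ : κ * (ℓ : ℝ) ^ 3 ≤ 1024) {g : ℝ} (hg : 0 ≤ g)
    (hterm : ∀ N, N < 64 * ℓ ^ 3 + 1 →
      ν * (N : ℝ) + κ * (N : ℝ) ^ 2 / 2 + lg (Jc φ (ℓ : ℝ) N) ≤ g) :
    Zc (fun x => φ x - κ) (ℓ : ℝ) (ν + κ / 2)
        ≤ ENNReal.ofReal ((((64 * ℓ ^ 3 + 1 : ℕ) : ℝ) + 2) * Real.exp g) := by
  have hℓ0 : (0 : ℝ) < ℓ := by exact_mod_cast hℓ
  have hstab : ∀ s : Multiset E3, -P (rad φ) s ≤ 65536 * (Multiset.card s : ℝ) := by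
    intro s
    have h1 := hsuper s
    have h2 := Bs_nonneg s
    linarith
  rw [Zc_shift hφ]
  refine tsum_le_of_block hg (fun N hN => ?_) (fun N hN => ?_)
  · have h0 := Jc_ne_zero hφ hℓ0 N
    have h1 := Jc_ne_top hstab hℓ0.le N
    conv_lhs => rw [← ofReal_exp_lg h0 h1]
    rw [← ENNReal.ofReal_mul (Real.exp_pos _).le, ← Real.exp_add]
    exact ENNReal.ofReal_le_ofReal (Real.exp_le_exp.2 (hterm N hN))
  · refine term_tail hsuper hℓ hν hκ ?_
    omega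

end Vale.Agent.Lib.P171
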