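import Mathlib

/-!
Configuration integrals: the grand-canonical functional `I ρ F = ∑ N, (1/N!) ∫ F(x₁,…,x_N) dρ^N`
for functions of multisets, and its factorization under addition of measures.
-/

set_option linter.unusedSectionVars false
set_option linter.unusedSimpArgs false
set_option linter.unusedVariables false

open MeasureTheory Set
open scoped ENNReal BigOperators

namespace Vale.Agent.Lib.P171

variable {E : Type} [MeasurableSpace E]

/-- The multiset of the points of a tuple. -/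
def ms {N : ℕ} (x : Fin N → E) : Multiset E := Multiset.map x Finset.univ.val

@[simp] lemma ms_zero (x : Fin 0 → E) : ms x = 0 := by
  simp [ms]

lemma ms_cons {N : ℕ} (a : E) (x : Fin N → E) :
    ms (Fin.cons a x : Fin (N + 1) → E) = a ::ₘ ms x := by
  classical
  have h : (Finset.univ : Finset (Fin (N + 1))).val
      = (0 : Fin (N + 1)) ::ₘ (Finset.univ.val.map Fin.succ) := by
    rw [Fin.univ_succ]
    simp
  unfold ms
  rw [h]
  simp [Multiset.map_map, Function.comp_def]

@[simp] lemma card_ms {N : ℕ} (x : Fin N → E) : Multiset.card (ms x) = N := by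
  simp [ms]

lemma exists_ms (s : Multiset E) : ∃ (N : ℕ) (x : Fin N → E), s = ms x := by
  induction s using Multiset.induction_on with
  | empty => exact ⟨0, Fin.elim0, by simp⟩
  | cons a s ih =>
    obtain ⟨N, x, rfl⟩ := ih
    exact ⟨N + 1, Fin.cons a x, (ms_cons a x).symm⟩

lemma mem_ms {N : ℕ} {x : Fin N → E} {a : E} : a ∈ ms x ↔ ∃ i, x i = a := by
  simp [ms]

lemma measurable_finCons {N : ℕ} :
    Measurable fun p : E × (Fin N → E) => (Fin.cons p.1 p.2 : Fin (N + 1) → E) := by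
  refine measurable_pi_iff.2 fun i => ?_
  refine Fin.cases ?_ (fun j => ?_) i
  · simpa using measurable_fst
  · simp only [Fin.cons_succ]
    exact (measurable_pi_apply j).comp measurable_snd

/-- Joint measurability of a family of functions of multisets, tested on tuples. -/
def MeasP {X : Type} [MeasurableSpace X] (G : X → Multiset E → ℝ≥0∞) : Prop :=
  ∀ N, Measurable fun p : X × (Fin N → E) => G p.1 (ms p.2)

/-- Measurability of a function of multisets, tested on tuples. -/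
def MeasF (F : Multiset E → ℝ≥0∞) : Prop :=
  ∀ N, Measurable fun x : Fin N → E => F (ms x)

lemma MeasF.measP {F : Multiset E → ℝ≥0∞} (hF : MeasF F) {X : Type} [MeasurableSpace X] :
    MeasP (fun _ : X => F) := fun N => (hF N).comp measurable_snd

lemma MeasP.slice {X : Type} [MeasurableSpace X] {G : X → Multiset E → ℝ≥0∞} (hG : MeasP G)
    (x : X) : MeasF (G x) := fun N => (hG N).comp (measurable_const.prodMk measurable_id)

lemma MeasP.cons {X : Type} [MeasurableSpace X] {G : X → Multiset E → ℝ≥0∞} (hG : MeasP G) :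
    MeasP (fun (q : X × E) s => G q.1 (q.2 ::ₘ s)) := by
  intro N
  have h := (hG (N + 1)).comp
    ((measurable_fst.fst).prodMk
      ((measurable_finCons (E := E) (N := N)).comp ((measurable_fst.snd).prodMk measurable_snd)))
  have e : ((fun p : X × (Fin (N + 1) → E) => G p.1 (ms p.2)) ∘
      fun a : (X × E) × (Fin N → E) => (a.1.1, (Fin.cons a.1.2 a.2 : Fin (N + 1) → E)))
      = fun p : (X × E) × (Fin N → E) => G p.1.1 (p.1.2 ::ₘ ms p.2) := by
    funext a
    simp [ms_cons]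
  rw [← e]
  exact h

/-- Adding a tuple: joint measurability. -/
lemma MeasP.add {X : Type} [MeasurableSpace X] {G : X → Multiset E → ℝ≥0∞} (hG : MeasP G) (k : ℕ) :
    MeasP (fun (q : X × (Fin k → E)) t => G q.1 (ms q.2 + t)) := by
  induction k generalizing X G with
  | zero =>
    intro N
    have h : Measurable (fun a : (X × (Fin 0 → E)) × (Fin N → E) => G a.1.1 (ms a.2)) :=
      (hG N).comp (f := fun a : (X × (Fin 0 → E)) × (Fin N → E) => (a.1.1, a.2))
        ((measurable_fst.fst).prodMk measurable_snd)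
    have e : (fun a : (X × (Fin 0 → E)) × (Fin N → E) => G a.1.1 (ms a.2))
        = fun p : (X × (Fin 0 → E)) × (Fin N → E) => G p.1.1 (ms p.1.2 + ms p.2) := by
      funext a
      simp
    rw [← e]
    exact h
  | succ k ih =>
    intro N
    have hc := ih (MeasP.cons hG) N
    -- hc : measurable in (((x, a), y), z) ↦ G x (a ::ₘ (ms y + ms z))
    have hm : Measurable fun a : (X × (Fin (k + 1) → E)) × (Fin N → E) =>
        (((a.1.1, a.1.2 0), (Fin.tail a.1.2 : Fin k → E)), a.2) := by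
      refine ((measurable_fst.fst.prodMk ?_).prodMk ?_).prodMk measurable_snd
      · exact (measurable_pi_apply 0).comp measurable_fst.snd
      · refine measurable_pi_iff.2 fun j => ?_
        exact (measurable_pi_apply j.succ).comp measurable_fst.snd
    have h := hc.comp hm
    have e : ((fun p : ((X × E) × (Fin k → E)) × (Fin N → E) =>
        G p.1.1.1 (p.1.1.2 ::ₘ (ms p.1.2 + ms p.2))) ∘
        fun a : (X × (Fin (k + 1) → E)) × (Fin N → E) =>
        (((a.1.1, a.1.2 0), (Fin.tail a.1.2 : Fin k → E)), a.2))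
        = fun p : (X × (Fin (k + 1) → E)) × (Fin N → E) => G p.1.1 (ms p.1.2 + ms p.2) := by
      funext a
      have : ms a.1.2 = a.1.2 0 ::ₘ ms (Fin.tail a.1.2) := by
        conv_lhs => rw [← Fin.cons_self_tail a.1.2]
        rw [ms_cons]
      simp [this, Multiset.cons_add]
    rw [← e]
    exact h

/-- The `N`-particle term. -/
noncomputable def J (ρ : Measure E) (F : Multiset E → ℝ≥0∞) (N : ℕ) : ℝ≥0∞ :=
  (N.factorial : ℝ≥0∞)⁻¹ * ∫⁻ x, F (ms x) ∂(Measure.pi fun _ : Fin N => ρ)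

/-- The grand-canonical functional. -/
noncomputable def I (ρ : Measure E) (F : Multiset E → ℝ≥0∞) : ℝ≥0∞ := ∑' N, J ρ F N

lemma J_congr {ρ : Measure E} {F G : Multiset E → ℝ≥0∞} (h : ∀ s, F s = G s) (N : ℕ) :
    J ρ F N = J ρ G N := by
  simp only [J, funext h]

section Sigma

variable {ρ ρ₁ ρ₂ : Measure E} [SigmaFinite ρ] [SigmaFinite ρ₁] [SigmaFinite ρ₂]

lemma J_zero (F : Multiset E → ℝ≥0∞) : J ρ F 0 = F 0 := by
  simp [J, ms_zero, Measure.pi_of_empty]

lemma MeasP.measJ {X : Type} [MeasurableSpace X] {G : X → Multiset E → ℝ≥0∞} (hG : MeasP G) (N : ℕ) :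
    Measurable fun x => J ρ (G x) N := by
  unfold Vale.Agent.Lib.P171.J
  exact ((hG N).lintegral_prod_right').const_mul _

lemma MeasP.Jadd {X : Type} [MeasurableSpace X] {G : X → Multiset E → ℝ≥0∞} (hG : MeasP G)
    (l : ℕ) : MeasP (fun x s => J ρ (fun t => G x (s + t)) l) := by
  intro N
  unfold Vale.Agent.Lib.P171.J
  have h := MeasP.add hG N l
  -- measurable in ((x, y), z) ↦ G x (ms y + ms z)
  exact (h.lintegral_prod_right').const_mul _

lemma MeasF.add {F : Multiset E → ℝ≥0∞} (hF : MeasF F) (s : Multiset E) :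
    MeasF (fun t => F (s + t)) := by
  obtain ⟨N, x, rfl⟩ := exists_ms s
  have h := MeasP.add (MeasF.measP hF (X := Unit)) N
  exact MeasP.slice h ((), x)

lemma MeasF.cons {F : Multiset E → ℝ≥0∞} (hF : MeasF F) (a : E) :
    MeasF (fun t => F (a ::ₘ t)) :=
  MeasP.slice (MeasP.cons (MeasF.measP hF (X := Unit))) ((), a)

lemma MeasF.Jadd {F : Multiset E → ℝ≥0∞} (hF : MeasF F) (l : ℕ) :
    MeasF (fun s => J ρ (fun t => F (s + t)) l) :=
  (MeasP.slice (MeasP.Jadd (MeasF.measP hF (X := Unit)) l) ())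

lemma J_const_mul (c : ℝ≥0∞) {F : Multiset E → ℝ≥0∞} (hF : MeasF F) (N : ℕ) :
    J ρ (fun s => c * F s) N = c * J ρ F N := by
  unfold J
  rw [lintegral_const_mul _ (hF N)]
  ring

lemma J_swap {X : Type} [MeasurableSpace X] (σ : Measure X) [SFinite σ]
    {G : X → Multiset E → ℝ≥0∞} (hG : MeasP G) (N : ℕ) :
    ∫⁻ a, J ρ (G a) N ∂σ = J ρ (fun s => ∫⁻ a, G a s ∂σ) N := by
  unfold J
  rw [lintegral_const_mul _ (hG N).lintegral_prod_right']
  congr 1
  exact lintegral_lintegral_swap ((hG N).aemeasurable)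

/-- The recursion in the number of particles. -/
lemma J_succ {F : Multiset E → ℝ≥0∞} (hF : MeasF F) (N : ℕ) :
    ((N + 1 : ℕ) : ℝ≥0∞) * J ρ F (N + 1) = ∫⁻ a, J ρ (fun s => F (a ::ₘ s)) N ∂ρ := by
  have hmp := (measurePreserving_piFinSuccAbove (fun _ : Fin (N + 1) => ρ) 0).symm
  have h1 : ∫⁻ x, F (ms x) ∂(Measure.pi fun _ : Fin (N + 1) => ρ)
      = ∫⁻ p, F (p.1 ::ₘ ms p.2) ∂(ρ.prod (Measure.pi fun _ : Fin N => ρ)) := by
    rw [← hmp.lintegral_comp (hF (N + 1))]
    refine lintegral_congr fun p => ?_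
    have : (MeasurableEquiv.piFinSuccAbove (fun _ : Fin (N + 1) => E) 0).symm p
        = (Fin.cons p.1 p.2 : Fin (N + 1) → E) := by
      funext i
      refine Fin.cases ?_ (fun j => ?_) i <;> simp [MeasurableEquiv.piFinSuccAbove]
    rw [this, ms_cons]
  have hm : Measurable fun p : E × (Fin N → E) => F (p.1 ::ₘ ms p.2) :=
    (MeasP.cons (MeasF.measP hF (X := Unit)) N).comp (f := fun p : E × (Fin N → E) => (((), p.1), p.2))
      ((measurable_const.prodMk measurable_fst).prodMk measurable_snd)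
  have h2 : ∫⁻ a, J ρ (fun s => F (a ::ₘ s)) N ∂ρ
      = (N.factorial : ℝ≥0∞)⁻¹ * ∫⁻ p, F (p.1 ::ₘ ms p.2) ∂(ρ.prod (Measure.pi fun _ : Fin N => ρ)) := by
    unfold J
    rw [lintegral_const_mul _ hm.lintegral_prod_right', lintegral_prod _ hm.aemeasurable]
  rw [h2]
  unfold J
  rw [h1, ← mul_assoc]
  congr 1
  rw [Nat.factorial_succ, Nat.cast_mul, ENNReal.mul_inv (by simp) (by simp)]
  rw [← mul_assoc, ENNReal.mul_inv_cancel (by simp) (by simp), one_mul]

/-- Superposition at a fixed number of particles. -/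
theorem J_superpose {F : Multiset E → ℝ≥0∞} (hF : MeasF F) (N : ℕ) :
    J (ρ₁ + ρ₂) F N = ∑ p ∈ Finset.HasAntidiagonal.antidiagonal N,
      J ρ₁ (fun s => J ρ₂ (fun t => F (s + t)) p.2) p.1 := by
  induction N generalizing F with
  | zero =>
    simp [J_zero]
  | succ N ih =>
    -- measurability bookkeeping
    have hG : MeasP (fun (a : E) (s : Multiset E) => F (a ::ₘ s)) := by
      have := MeasP.cons (MeasF.measP hF (X := Unit))
      intro M
      exact (this M).comp (f := fun p : E × (Fin M → E) => (((), p.1), p.2))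
        ((measurable_const.prodMk measurable_fst).prodMk measurable_snd)
    have hcast : ((N + 1 : ℕ) : ℝ≥0∞) ≠ 0 := by simp
    have hcast' : ((N + 1 : ℕ) : ℝ≥0∞) ≠ ∞ := by simp
    rw [← ENNReal.mul_right_inj hcast hcast', J_succ hF N]
    have hT : ∀ (σ : Measure E) [SFinite σ],
        ∫⁻ a, J (ρ₁ + ρ₂) (fun s => F (a ::ₘ s)) N ∂σ
        = ∑ p ∈ Finset.HasAntidiagonal.antidiagonal N,
          ∫⁻ a, J ρ₁ (fun s => J ρ₂ (fun t => F (a ::ₘ (s + t))) p.2) p.1 ∂σ := by
      intro σ _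
      have : ∀ a, J (ρ₁ + ρ₂) (fun s => F (a ::ₘ s)) N = ∑ p ∈ Finset.HasAntidiagonal.antidiagonal N,
          J ρ₁ (fun s => J ρ₂ (fun t => F (a ::ₘ (s + t))) p.2) p.1 := fun a => ih (MeasF.cons hF a)
      simp_rw [this]
      rw [lintegral_finsetSum]
      intro p _
      exact MeasP.measJ (MeasP.Jadd hG p.2) p.1
    rw [lintegral_add_measure, hT ρ₁, hT ρ₂, ← Finset.sum_add_distrib]
    -- first and second kinds of terms
    have h1 : ∀ p : ℕ × ℕ, ∫⁻ a, J ρ₁ (fun s => J ρ₂ (fun t => F (a ::ₘ (s + t))) p.2) p.1 ∂ρ₁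
        = ((p.1 + 1 : ℕ) : ℝ≥0∞) * J ρ₁ (fun s => J ρ₂ (fun t => F (s + t)) p.2) (p.1 + 1) := by
      intro p
      rw [J_succ (MeasF.Jadd hF p.2) p.1]
      refine lintegral_congr fun a => ?_
      refine J_congr (fun s => ?_) _
      refine J_congr (fun t => ?_) _
      rw [Multiset.cons_add]
    have h2 : ∀ p : ℕ × ℕ, ∫⁻ a, J ρ₁ (fun s => J ρ₂ (fun t => F (a ::ₘ (s + t))) p.2) p.1 ∂ρ₂
        = ((p.2 + 1 : ℕ) : ℝ≥0∞) * J ρ₁ (fun s => J ρ₂ (fun t => F (s + t)) (p.2 + 1)) p.1 := by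
      intro p
      rw [J_swap ρ₂ (MeasP.Jadd hG p.2) p.1, ← J_const_mul _ (MeasF.Jadd hF _)]
      refine J_congr (fun s => ?_) _
      rw [J_succ (MeasF.add hF s) p.2]
      refine lintegral_congr fun a => ?_
      refine J_congr (fun t => ?_) _
      rw [Multiset.add_cons]
    simp_rw [h1, h2]
    rw [Finset.sum_add_distrib, Finset.mul_sum]
    -- the Pascal identity on antidiagonals
    set T : ℕ → ℕ → ℝ≥0∞ := fun k l => J ρ₁ (fun s => J ρ₂ (fun t => F (s + t)) l) k with hTdef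
    have e1 : ∑ p ∈ Finset.HasAntidiagonal.antidiagonal (N + 1), ((p.1 : ℕ) : ℝ≥0∞) * T p.1 p.2
        = ∑ p ∈ Finset.HasAntidiagonal.antidiagonal N, ((p.1 + 1 : ℕ) : ℝ≥0∞) * T (p.1 + 1) p.2 := by
      rw [Finset.Nat.sum_antidiagonal_succ]
      simp
    have e2 : ∑ p ∈ Finset.HasAntidiagonal.antidiagonal (N + 1), ((p.2 : ℕ) : ℝ≥0∞) * T p.1 p.2
        = ∑ p ∈ Finset.HasAntidiagonal.antidiagonal N, ((p.2 + 1 : ℕ) : ℝ≥0∞) * T p.1 (p.2 + 1) := by
      rw [Finset.Nat.sum_antidiagonal_succ']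
      simp
    rw [← e1, ← e2, ← Finset.sum_add_distrib]
    refine Finset.sum_congr rfl fun p hp => ?_
    have : ((N + 1 : ℕ) : ℝ≥0∞) = (p.1 : ℝ≥0∞) + (p.2 : ℝ≥0∞) := by
      have := Finset.HasAntidiagonal.mem_antidiagonal.1 hp
      rw [← this]; push_cast; ring
    rw [this, add_mul]

/-- Superposition of two independent Poisson-type functionals. -/
theorem I_superpose {F : Multiset E → ℝ≥0∞} (hF : MeasF F) :
    I (ρ₁ + ρ₂) F = I ρ₁ (fun s => I ρ₂ (fun t => F (s + t))) := by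
  unfold I
  simp_rw [J_superpose hF]
  have h1 : ∀ k, J ρ₁ (fun s => ∑' l, J ρ₂ (fun t => F (s + t)) l) k
      = ∑' l, J ρ₁ (fun s => J ρ₂ (fun t => F (s + t)) l) k := by
    intro k
    unfold J
    simp_rw [ENNReal.tsum_mul_left]
    congr 1
    rw [lintegral_tsum]
    intro l
    exact (MeasF.Jadd (ρ := ρ₂) hF l k).aemeasurable
  simp_rw [h1]
  rw [← ENNReal.tsum_prod (f := fun k l => J ρ₁ (fun s => J ρ₂ (fun t => F (s + t)) l) k)]
  rw [← (Finset.HasAntidiagonal.sigmaAntidiagonalEquivProd (A := ℕ)).tsum_eq]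
  rw [ENNReal.tsum_sigma']
  refine tsum_congr fun N => ?_
  rw [tsum_fintype]
  rw [← Finset.sum_coe_sort (Finset.HasAntidiagonal.antidiagonal N)]
  rfl

end Sigma

end Vale.Agent.Lib.P171
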