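import Mathlib

/-!
The objects in the statement of the continuum phase transition problem.
-/

open MeasureTheory Filter Topology

namespace Vale.Agent.Lib.P171.Defs

/-- Euclidean three-space. -/
abbrev R3 : Type := EuclideanSpace ℝ (Fin 3)

/-- The interaction energy `U_N = ∑_{i<j} φ(|x_i - x_j|)` of a configuration. -/
noncomputable def energy (φ : ℝ → ℝ) {N : ℕ} (x : Fin N → R3) : ℝ :=
  ∑ i, ∑ j ∈ Finset.univ.filter (fun j => i < j), φ ‖x i - x j‖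

/-- The closed box `[0,L]^3`. -/
def box (L : ℝ) : Set R3 := {x | ∀ k, 0 ≤ x k ∧ x k ≤ L}

/-- The canonical partition function `Z_{L,N}(β)`; for `N = 0` it equals `1`. -/
noncomputable def canonicalZ (φ : ℝ → ℝ) (β L : ℝ) (N : ℕ) : ℝ :=
  ((N.factorial : ℝ))⁻¹ *
    ∫ x in Set.pi Set.univ (fun _ : Fin N => box L), Real.exp (-(β * energy φ x))

/-- Stability: `U_N ≥ -B N` for all `N` and all configurations. -/
def IsStable (φ : ℝ → ℝ) : Prop :=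
  ∃ B : ℝ, ∀ (N : ℕ) (x : Fin N → R3), -(B * (N : ℝ)) ≤ energy φ x

/-- Temperedness: `φ(r) ≤ C r^(-3-ε)` for all `r ≥ R₀`. -/
def IsTempered (φ : ℝ → ℝ) : Prop :=
  ∃ C ε R₀ : ℝ, 0 < C ∧ 0 < ε ∧ 0 < R₀ ∧ ∀ r : ℝ, R₀ ≤ r → φ r ≤ C * r ^ (-3 - ε)

/-- The finite volume quantity `L^(-3) log ∑_N z^N Z_{L,N}(β)`. -/
noncomputable def finiteVolumePressure (φ : ℝ → ℝ) (β L z : ℝ) : ℝ :=
  (L ^ 3)⁻¹ * Real.log (∑' N : ℕ, z ^ N * canonicalZ φ β L N)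

end Vale.Agent.Lib.P171.Defs
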