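import Vale.Agent.Lib.P171.Limit
import Vale.Agent.Lib.P171.Defs

/-!
From the pressure in half-open cubes to the statement of the problem.
-/

set_option linter.unusedSectionVars false
set_option linter.unusedSimpArgs false
set_option linter.unusedVariables false

open MeasureTheory Set Filter Topology
open scoped ENNReal BigOperators
open Vale.Agent.Lib.P171.Defs

namespace Vale.Agent.Lib.P171

/-- The energy is the pair functional of the configuration. -/
lemma energy_eq (φ : ℝ → ℝ) {N : ℕ} (x : Fin N → E3) : energy φ x = P (rad φ) (ms x) := by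
  classical
  have hP : P (rad φ) (ms x) = (∑ i, ∑ j, rad φ (x i) (x j) - ∑ i, rad φ (x i) (x i)) / 2 := by
    simp only [P, pairSum_ms, diag_ms]
  rw [hP]
  unfold energy
  have h1 : ∀ i : Fin N, ∑ j, rad φ (x i) (x j)
      = ∑ j ∈ Finset.univ.filter (fun j => i < j), rad φ (x i) (x j) + rad φ (x i) (x i)
        + ∑ j ∈ Finset.univ.filter (fun j => j < i), rad φ (x i) (x j) := by
    intro i
    have e : (Finset.univ : Finset (Fin N)) = (Finset.univ.filter (fun j => i < j)) ∪ {i}
        ∪ (Finset.univ.filter (fun j => j < i)) := by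
      ext j
      simp only [Finset.mem_univ, Finset.mem_union, Finset.mem_filter, true_and,
        Finset.mem_singleton, true_iff]
      rcases lt_trichotomy i j with h | h | h
      · exact Or.inl (Or.inl h)
      · exact Or.inl (Or.inr h.symm)
      · exact Or.inr h
    conv_lhs => rw [e]
    rw [Finset.sum_union, Finset.sum_union, Finset.sum_singleton]
    · rw [Finset.disjoint_singleton_right]
      simp
    · rw [Finset.disjoint_union_left]
      constructor
      · rw [Finset.disjoint_left]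
        intro j hj hj'
        simp only [Finset.mem_filter, Finset.mem_univ, true_and] at hj hj'
        exact lt_asymm hj hj'
      · rw [Finset.disjoint_singleton_left]
        simp
  have h2 : ∑ i, ∑ j ∈ Finset.univ.filter (fun j => j < i), rad φ (x i) (x j)
      = ∑ i, ∑ j ∈ Finset.univ.filter (fun j => i < j), rad φ (x i) (x j) := by
    simp only [Finset.sum_filter]
    rw [Finset.sum_comm]
    refine Finset.sum_congr rfl fun i _ => Finset.sum_congr rfl fun j _ => ?_
    rw [symm_rad φ (x j) (x i)]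
  simp only [h1, Finset.sum_add_distrib]
  rw [h2]
  simp only [rad]
  ring

lemma cube_subset_box (L : ℝ) : cube L 0 ⊆ box L := by
  intro x hx k
  have := hx k
  simp only [Pi.zero_apply, zero_add] at this
  exact ⟨this.1, this.2.le⟩

lemma box_subset_cube (L : ℝ) : box L ⊆ cube (L + 1) 0 := by
  intro x hx k
  have := hx k
  simp only [Pi.zero_apply, zero_add]
  exact ⟨this.1, by linarith [this.2]⟩

lemma volume_box_ne_top (L : ℝ) (hL : 0 ≤ L) : volume (box L) ≠ ∞ := by
  refine ne_top_of_le_ne_top ?_ (measure_mono (box_subset_cube L))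
  rw [volume_cube (by linarith)]
  exact ENNReal.ofReal_ne_top

/-- The term of the series in the statement, as a real number. -/
lemma term_eq {φ : ℝ → ℝ} (hφ : Measurable φ) {L z : ℝ} (hz : 0 < z) (N : ℕ) :
    z ^ N * canonicalZ φ 1 L N
      = (J (volume.restrict (box L)) (Gib (rad φ) (Real.log z)) N).toReal := by
  unfold canonicalZ J
  rw [← Measure.restrict_pi_pi (fun _ : Fin N => (volume : Measure E3)) (fun _ => box L)]
  have hvol : (volume : Measure (Fin N → R3)) = Measure.pi fun _ => (volume : Measure E3) := rfl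
  rw [hvol]
  set μ := (Measure.pi fun _ : Fin N => (volume : Measure E3)).restrict
    (Set.pi Set.univ fun _ : Fin N => box L) with hμ
  have hmeas : Measurable fun x : Fin N → E3 => P (rad φ) (ms x) :=
    measurable_P_ms (measurable_rad hφ) N
  have hint : ∫ x, Real.exp (-(1 * energy φ x)) ∂μ
      = (∫⁻ x, ENNReal.ofReal (Real.exp (-P (rad φ) (ms x))) ∂μ).toReal := by
    rw [integral_eq_lintegral_of_nonneg_ae]
    · congr 2
      funext x
      rw [one_mul, energy_eq]
    · exact Eventually.of_forall fun x => (Real.exp_pos _).le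
    · refine Measurable.aestronglyMeasurable ?_
      have : (fun x : Fin N → E3 => Real.exp (-(1 * energy φ x)))
          = fun x => Real.exp (-P (rad φ) (ms x)) := by
        funext x
        rw [one_mul, energy_eq]
      rw [this]
      exact Real.measurable_exp.comp hmeas.neg
  have hGib : ∀ x : Fin N → E3, Gib (rad φ) (Real.log z) (ms x)
      = ENNReal.ofReal (z ^ N) * ENNReal.ofReal (Real.exp (-P (rad φ) (ms x))) := by
    intro x
    unfold Gib
    rw [card_ms, ← ENNReal.ofReal_mul (by positivity), Real.exp_add, mul_comm]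
    congr 2
    rw [mul_comm, Real.exp_nat_mul, Real.exp_log hz]
  simp only [hGib]
  have hm2 : Measurable fun x : Fin N → E3 => ENNReal.ofReal (Real.exp (-P (rad φ) (ms x))) :=
    ENNReal.measurable_ofReal.comp (Real.measurable_exp.comp hmeas.neg)
  rw [hint, lintegral_const_mul _ hm2]
  rw [ENNReal.toReal_mul, ENNReal.toReal_mul, ENNReal.toReal_ofReal (by positivity),
    ENNReal.toReal_inv, ENNReal.toReal_natCast]
  ring

/-- The grand partition function in the closed box. -/
noncomputable def Zb (φ : ℝ → ℝ) (L ν : ℝ) : ℝ≥0∞ := I (volume.restrict (box L)) (Gib (rad φ) ν)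

lemma Zb_bounds (φ : ℝ → ℝ) (L ν : ℝ) : Zc φ L ν ≤ Zb φ L ν ∧ Zb φ L ν ≤ Zc φ (L + 1) ν :=
  ⟨I_restrict_mono (cube_subset_box L) _, I_restrict_mono (box_subset_cube L) _⟩

lemma Zb_ne_top {φ : ℝ → ℝ} {B : ℝ} (h : Reg φ B) {L : ℝ} (hL : 0 ≤ L) (ν : ℝ) : Zb φ L ν ≠ ∞ :=
  ne_top_of_le_ne_top (Zc_ne_top h (by linarith) ν) (Zb_bounds φ L ν).2

lemma J_box_ne_top {φ : ℝ → ℝ} {B : ℝ} (h : Reg φ B) {L : ℝ} (hL : 0 ≤ L) (ν : ℝ) (N : ℕ) :
    J (volume.restrict (box L)) (Gib (rad φ) ν) N ≠ ∞ :=
  ne_top_of_le_ne_top (Zb_ne_top h hL ν) (I_ge_J _ N)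

lemma summable_terms {φ : ℝ → ℝ} {B : ℝ} (h : Reg φ B) {L z : ℝ} (hL : 0 ≤ L) (hz : 0 < z) :
    Summable fun N : ℕ => z ^ N * canonicalZ φ 1 L N := by
  simp only [term_eq h.meas hz]
  exact ENNReal.summable_toReal (Zb_ne_top h hL _)

lemma tsum_terms {φ : ℝ → ℝ} {B : ℝ} (h : Reg φ B) {L z : ℝ} (hL : 0 ≤ L) (hz : 0 < z) :
    ∑' N : ℕ, z ^ N * canonicalZ φ 1 L N = (Zb φ L (Real.log z)).toReal := by
  simp only [term_eq h.meas hz]
  unfold Zb I
  rw [ENNReal.tsum_toReal_eq fun N => J_box_ne_top h hL _ N]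

/-- The limit in the closed boxes. -/
lemma tendsto_finiteVolumePressure {φ : ℝ → ℝ} {B : ℝ} (h : Reg φ B) {z : ℝ} (hz : 0 < z) :
    Tendsto (fun L => finiteVolumePressure φ 1 L z) atTop (𝓝 (Pres φ (Real.log z))) := by
  set ν := Real.log z with hν
  have h1 := Pres_tendsto h ν
  have hshift : Tendsto (fun L : ℝ => L + 1) atTop atTop := tendsto_atTop_add_const_right _ _ tendsto_id
  have h2 := h1.comp hshift
  have hratio : Tendsto (fun L : ℝ => (1 + 1 / L) ^ 3) atTop (𝓝 ((1 + 0) ^ 3)) := by
    have : Tendsto (fun L : ℝ => 1 / L) atTop (𝓝 0) := by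
      simpa using tendsto_inv_atTop_zero (𝕜 := ℝ)
    exact (tendsto_const_nhds.add this).pow 3
  have h3 := hratio.mul h2
  have e : ((1 : ℝ) + 0) ^ 3 * Pres φ ν = Pres φ ν := by ring
  rw [e] at h3
  refine tendsto_of_tendsto_of_tendsto_of_le_of_le' h1 h3 ?_ ?_
  · filter_upwards [eventually_gt_atTop (0 : ℝ)] with L hL
    unfold finiteVolumePressure
    rw [tsum_terms h hL.le hz, inv_mul_eq_div]
    refine div_le_div_of_nonneg_right ?_ (by positivity)
    exact lg_le_lg (Zb_bounds φ L ν).1 (lt_of_lt_of_le one_pos (one_le_Zc _ _ _)) (Zb_ne_top h hL.le ν)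
  · filter_upwards [eventually_gt_atTop (0 : ℝ)] with L hL
    unfold finiteVolumePressure
    rw [tsum_terms h hL.le hz, inv_mul_eq_div]
    simp only [Function.comp]
    have h4 : Real.log (Zb φ L ν).toReal ≤ lg (Zc φ (L + 1) ν) :=
      lg_le_lg (Zb_bounds φ L ν).2 (lt_of_lt_of_le one_pos
        ((one_le_Zc _ _ _).trans (Zb_bounds φ L ν).1)) (Zc_ne_top h (by linarith) ν)
    rw [div_le_iff₀ (by positivity)]
    refine h4.trans (le_of_eq ?_)
    generalize lg (Zc φ (L + 1) ν) = X
    field_simp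

/-- Stability and integrability in the closed boxes. -/
lemma integrable_boltzmann {φ : ℝ → ℝ} {B : ℝ} (h : Reg φ B) {L : ℝ} (hL : 0 ≤ L) (N : ℕ) :
    Integrable (fun x : Fin N → R3 => Real.exp (-(1 * energy φ x)))
      (volume.restrict (Set.pi Set.univ fun _ : Fin N => box L)) := by
  have hvol : (volume : Measure (Fin N → R3)) = Measure.pi fun _ => (volume : Measure E3) := rfl
  rw [hvol, Measure.restrict_pi_pi]
  haveI : IsFiniteMeasure (volume.restrict (box L) : Measure E3) :=
    ⟨by
      rw [Measure.restrict_apply_univ]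
      exact lt_top_iff_ne_top.2 (volume_box_ne_top L hL)⟩
  have hmeas : Measurable fun x : Fin N → E3 => P (rad φ) (ms x) :=
    measurable_P_ms (measurable_rad h.meas) N
  have hfun : (fun x : Fin N → E3 => Real.exp (-(1 * energy φ x)))
      = fun x => Real.exp (-P (rad φ) (ms x)) := by
    funext x
    rw [one_mul, energy_eq]
  rw [hfun]
  refine Integrable.of_bound (C := Real.exp (B * (N : ℝ)))
    (Real.measurable_exp.comp hmeas.neg).aestronglyMeasurable ?_
  refine Eventually.of_forall fun x => ?_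
  rw [Real.norm_eq_abs, abs_of_pos (Real.exp_pos _)]
  refine Real.exp_le_exp.2 ?_
  have := h.stable (ms x)
  rwa [card_ms] at this

/-- The partial attractions have finite range. -/
lemma wPart_range {Rb : ℝ} {R : ℕ → ℝ} (n : ℕ) : ∃ r, Rng (wPart Rb R n) r := by
  induction n with
  | zero =>
    refine ⟨Rb, ?_⟩
    intro x hx
    simp [wPart, hat_of_gt hx]
  | succ n ih =>
    obtain ⟨r, hr⟩ := ih
    refine ⟨max r (R n), ?_⟩
    have h := hr.add (Rng_hat (aT n) (R n))
    intro x hx
    have e : wPart Rb R (n + 1) x = wPart Rb R n x + hat (aT n) (R n) x := by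
      simp only [wPart, Finset.sum_range_succ]
      ring
    rw [e]
    exact h x hx

lemma tailW_le {R : ℕ → ℝ} (hR : ∀ n, 1 ≤ R n) (n : ℕ) (x : ℝ) :
    tailW R n x ≤ (1 / 2) ^ (n + 30) / omega := by
  have hom := omega_pos
  refine (summable_hat hR n x).tsum_le_of_sum_range_le fun m => ?_
  have h3 : ∑ k ∈ Finset.range m, hat (aT (k + n)) (R (k + n)) x
      ≤ ∑ k ∈ Finset.range m, aT (k + n) / omega :=
    Finset.sum_le_sum fun k _ => hat_le (aT_pos _).le (hR _) x
  refine h3.trans ?_
  rw [← Finset.sum_div]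
  exact div_le_div_of_nonneg_right (sum_aT_le n m) hom.le

/-- The full attraction vanishes at infinity. -/
lemma tendsto_wLim {Rb : ℝ} {R : ℕ → ℝ} (hRb : 1 ≤ Rb) (hR : ∀ n, 1 ≤ R n) :
    Tendsto (wLim Rb R) atTop (𝓝 0) := by
  have hom := omega_pos
  rw [Metric.tendsto_atTop]
  intro ε hε
  have hlim : Tendsto (fun n : ℕ => ((1 : ℝ) / 2) ^ (n + 30) / omega) atTop (𝓝 (0 / omega)) :=
    (tendsto_half_pow 30).div_const omega
  rw [zero_div] at hlim
  obtain ⟨n, hn⟩ := (hlim.eventually (gt_mem_nhds hε)).exists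
  obtain ⟨r, hr⟩ := wPart_range (Rb := Rb) (R := R) n
  refine ⟨r + 1, fun x hx => ?_⟩
  have h1 := wLim_eq (Rb := Rb) hR n x
  rw [hr x (by linarith), zero_add] at h1
  have h2 := tailW_le hR n x
  have h3 := tailW_nonneg hR n x
  rw [Real.dist_eq, sub_zero, h1, abs_of_nonneg h3]
  linarith

/-- The answer to the question: a stable, tempered, bounded radial potential whose pressure is not
differentiable in the activity. -/
theorem main :
    ∃ φ : ℝ → ℝ, Measurable φ ∧ (∃ M : ℝ, ∀ r : ℝ, 0 < r → |φ r| ≤ M) ∧ IsStable φ ∧ IsTempered φ ∧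
      (∀ r : ℝ, 1 ≤ r → φ r ≤ 0) ∧ Tendsto φ atTop (𝓝 0) ∧
      (∀ (L : ℝ) (N : ℕ), 0 ≤ L → Integrable (fun x : Fin N → R3 => Real.exp (-(1 * energy φ x)))
        (volume.restrict (Set.pi Set.univ fun _ : Fin N => box L))) ∧
      (∀ L z : ℝ, 0 ≤ L → 0 < z → Summable fun N : ℕ => z ^ N * canonicalZ φ 1 L N) ∧
      ∃ Pz : ℝ → ℝ,
        (∀ z : ℝ, 0 < z → Tendsto (fun L => finiteVolumePressure φ 1 L z) atTop (𝓝 (Pz z))) ∧
        ∃ z₀ : ℝ, 0 < z₀ ∧ ¬ DifferentiableAt ℝ Pz z₀ := by
  obtain ⟨Rb, R, ν, hRb, hR, hkink⟩ := exists_kink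
  have hreg := reg_wLim hRb hR
  set w := wLim Rb R with hw
  have hA := attr_wLim hRb hR
  refine ⟨pot w, hreg.meas, ⟨131072 + 129 / omega, fun r _ => ?_⟩, ⟨65536, fun N x => ?_⟩,
    ⟨1, 1, 1, one_pos, one_pos, one_pos, fun r hr => ?_⟩, hreg.tail, ?_,
    fun L N hL => integrable_boltzmann hreg hL N,
    fun L z hL hz => summable_terms hreg hL hz, fun z => Pres (pot w) (Real.log z),
    fun z hz => tendsto_finiteVolumePressure hreg hz, Real.exp ν, Real.exp_pos ν, ?_⟩
  · have h1 := wLim_le hRb hR r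
    have h2 := hA.nonneg r
    have h3 := core_nonneg (A := 131072) (by norm_num) r
    have h4 : core 131072 r ≤ 131072 := by
      unfold core
      split_ifs <;> norm_num
    have h5 : 0 ≤ 129 / omega := by
      have := omega_pos
      positivity
    simp only [pot]
    rw [abs_le]
    constructor <;> linarith
  · have := hreg.stable (ms x)
    rw [card_ms] at this
    rw [energy_eq]
    linarith
  · have h1 := hreg.tail r hr
    have h2 : 0 ≤ (1 : ℝ) * r ^ ((-3 : ℝ) - 1) := by
      have : 0 ≤ r := by linarith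
      positivity
    linarith
  · have h1 := tendsto_wLim hRb hR
    have h2 : Tendsto (fun r => -wLim Rb R r) atTop (𝓝 (-0)) := h1.neg
    rw [neg_zero] at h2
    refine h2.congr' ?_
    filter_upwards [eventually_ge_atTop (1 : ℝ)] with r hr
    simp only [pot]
    rw [core_of_ge hr, zero_sub]
  · intro hdiff
    have hcomp : DifferentiableAt ℝ (fun x => Pres (pot w) (Real.log (Real.exp x))) ν :=
      DifferentiableAt.comp (f := Real.exp) (g := fun z => Pres (pot w) (Real.log z)) ν hdiff
        Real.differentiableAt_exp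
    simp only [Real.log_exp] at hcomp
    exact not_differentiable_of_kink (by norm_num : (5 / 1024 : ℝ) < 15 / 1024) hkink hcomp

end Vale.Agent.Lib.P171
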