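import Vale.Agent.Lib.P171.Gibbs

/-!
Euclidean three-space: coordinates, half-open cubes, lattice counts in balls, and the Schur bound
for pair counts.
-/

set_option linter.unusedSectionVars false
set_option linter.unusedSimpArgs false
set_option linter.unusedVariables false

open MeasureTheory Set
open scoped ENNReal BigOperators

namespace Vale.Agent.Lib.P171

/-- Euclidean three-space. -/
abbrev E3 := EuclideanSpace ℝ (Fin 3)

lemma abs_coord_le (x : E3) (k : Fin 3) : |x k| ≤ ‖x‖ := by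
  have := PiLp.norm_apply_le x k
  simpa using this

lemma norm_sq_eq (x : E3) : ‖x‖ ^ 2 = ∑ k, (x k) ^ 2 := by
  rw [EuclideanSpace.norm_eq, Real.sq_sqrt (Finset.sum_nonneg fun _ _ => by positivity)]
  simp

lemma norm_le_of_coord (x : E3) {c : ℝ} (hc : 0 ≤ c) (h : ∀ k, |x k| ≤ c) : ‖x‖ ≤ 2 * c := by
  have h1 : ‖x‖ ^ 2 ≤ (2 * c) ^ 2 := by
    rw [norm_sq_eq, Fin.sum_univ_three]
    have h2 : ∀ k, (x k) ^ 2 ≤ c ^ 2 := fun k => by
      rw [← sq_abs (x k)]
      exact pow_le_pow_left₀ (abs_nonneg _) (h k) 2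
    nlinarith [h2 0, h2 1, h2 2, sq_nonneg c]
  exact abs_le_of_sq_le_sq' h1 (by positivity) |>.2

lemma norm_lt_one_of_coord (x : E3) (h : ∀ k, |x k| < 1 / 2) : ‖x‖ < 1 := by
  have h1 : ‖x‖ ^ 2 < 1 ^ 2 := by
    rw [norm_sq_eq, Fin.sum_univ_three]
    have h2 : ∀ k, (x k) ^ 2 < (1 / 2) ^ 2 := fun k => by
      rw [← sq_abs (x k)]
      exact pow_lt_pow_left₀ (h k) (abs_nonneg _) (by norm_num)
    nlinarith [h2 0, h2 1, h2 2]
  exact lt_of_pow_lt_pow_left₀ 2 (by norm_num) h1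

lemma measurable_coord (k : Fin 3) : Measurable fun x : E3 => x k := by
  fun_prop

/-- The vector with prescribed coordinates. -/
noncomputable def vec (f : Fin 3 → ℝ) : E3 := WithLp.toLp 2 f

@[simp] lemma vec_apply (f : Fin 3 → ℝ) (k : Fin 3) : vec f k = f k := by
  simp [vec]

/-- Half-open cube with corner `o` and side `ℓ`. -/
def cube (ℓ : ℝ) (o : Fin 3 → ℝ) : Set E3 := {x | ∀ k, o k ≤ x k ∧ x k < o k + ℓ}

lemma measurableSet_cube (ℓ : ℝ) (o : Fin 3 → ℝ) : MeasurableSet (cube ℓ o) := by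
  have : cube ℓ o = ⋂ k, ({x : E3 | o k ≤ x k} ∩ {x : E3 | x k < o k + ℓ}) := by
    ext x
    simp [cube]
  rw [this]
  refine MeasurableSet.iInter fun k => ?_
  exact (measurableSet_le measurable_const (measurable_coord k)).inter
    (measurableSet_lt (measurable_coord k) measurable_const)

lemma volume_cube {ℓ : ℝ} (hℓ : 0 ≤ ℓ) (o : Fin 3 → ℝ) :
    volume (cube ℓ o) = ENNReal.ofReal (ℓ ^ 3) := by
  have hmp := EuclideanSpace.volume_preserving_symm_measurableEquiv_toLp (Fin 3)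
  have hs : MeasurableSet (Set.pi univ fun k : Fin 3 => Ico (o k) (o k + ℓ)) :=
    MeasurableSet.univ_pi fun _ => measurableSet_Ico
  have : cube ℓ o = (MeasurableEquiv.toLp 2 (Fin 3 → ℝ)).symm ⁻¹'
      (Set.pi univ fun k : Fin 3 => Ico (o k) (o k + ℓ)) := by
    ext x
    simp [cube, Set.mem_pi]
  rw [this, hmp.measure_preimage hs.nullMeasurableSet, Real.volume_pi_Ico]
  simp only [add_sub_cancel_left, Finset.prod_const, Finset.card_univ, Fintype.card_fin]
  rw [ENNReal.ofReal_pow hℓ]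

/-- The volume of the unit ball of `E3`. -/
noncomputable def omega : ℝ := (volume (Metric.ball (0 : E3) 1)).toReal

lemma omega_pos : 0 < omega := by
  unfold omega
  refine ENNReal.toReal_pos ?_ ?_
  · exact (Metric.measure_ball_pos volume _ one_pos).ne'
  · exact measure_ball_lt_top.ne

lemma volume_closedBall {r : ℝ} (hr : 0 ≤ r) :
    volume (Metric.closedBall (0 : E3) r) = ENNReal.ofReal (omega * r ^ 3) := by
  rw [Measure.addHaar_closedBall volume _ hr]
  have : Module.finrank ℝ E3 = 3 := by simp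
  rw [this, ENNReal.ofReal_mul omega_pos.le, mul_comm]
  congr 1
  unfold omega
  rw [ENNReal.ofReal_toReal measure_ball_lt_top.ne]

/-- Integer vectors scaled by `ℓ`. -/
noncomputable def lat (ℓ : ℝ) (δ : Fin 3 → ℤ) : E3 := vec fun k => ℓ * (δ k : ℝ)

@[simp] lemma lat_apply (ℓ : ℝ) (δ : Fin 3 → ℤ) (k : Fin 3) : lat ℓ δ k = ℓ * (δ k : ℝ) := by
  simp [lat]

lemma cube_lat_subset {ℓ R' : ℝ} (hℓ : 0 < ℓ) {δ : Fin 3 → ℤ} (h : ‖lat ℓ δ‖ ≤ R') :
    cube ℓ (fun k => ℓ * (δ k : ℝ)) ⊆ Metric.closedBall (0 : E3) (R' + 2 * ℓ) := by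
  intro x hx
  rw [mem_closedBall_zero_iff]
  have h1 : ‖x - lat ℓ δ‖ ≤ 2 * ℓ := by
    refine norm_le_of_coord _ hℓ.le fun k => ?_
    have := hx k
    simp only [PiLp.sub_apply, lat_apply]
    rw [abs_le]
    constructor <;> linarith [this.1, this.2]
  calc ‖x‖ = ‖(x - lat ℓ δ) + lat ℓ δ‖ := by simp
    _ ≤ ‖x - lat ℓ δ‖ + ‖lat ℓ δ‖ := norm_add_le _ _
    _ ≤ R' + 2 * ℓ := by linarith

lemma cube_lat_disjoint {ℓ : ℝ} (hℓ : 0 < ℓ) {δ δ' : Fin 3 → ℤ} (h : δ ≠ δ') :
    Disjoint (cube ℓ (fun k => ℓ * (δ k : ℝ))) (cube ℓ (fun k => ℓ * (δ' k : ℝ))) := by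
  rw [Set.disjoint_left]
  intro x hx hx'
  apply h
  funext k
  have h1 := hx k
  have h2 := hx' k
  have h3 : (δ k : ℝ) < (δ' k : ℝ) + 1 := by
    by_contra hc
    push Not at hc
    have : ℓ * ((δ' k : ℝ) + 1) ≤ ℓ * (δ k : ℝ) := mul_le_mul_of_nonneg_left hc hℓ.le
    linarith [h1.1, h2.2]
  have h4 : (δ' k : ℝ) < (δ k : ℝ) + 1 := by
    by_contra hc
    push Not at hc
    have : ℓ * ((δ k : ℝ) + 1) ≤ ℓ * (δ' k : ℝ) := mul_le_mul_of_nonneg_left hc hℓ.le
    linarith [h2.1, h1.2]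
  have h5 : δ k < δ' k + 1 := by exact_mod_cast h3
  have h6 : δ' k < δ k + 1 := by exact_mod_cast h4
  omega

/-- Upper lattice count: few lattice points in a ball. -/
lemma lattice_count_le {ℓ R' : ℝ} (hℓ : 0 < ℓ) (hR' : 0 ≤ R') (D : Finset (Fin 3 → ℤ))
    (hD : ∀ δ ∈ D, ‖lat ℓ δ‖ ≤ R') :
    (D.card : ℝ) * ℓ ^ 3 ≤ omega * (R' + 2 * ℓ) ^ 3 := by
  have hsub : (⋃ δ ∈ D, cube ℓ (fun k => ℓ * (δ k : ℝ)))
      ⊆ Metric.closedBall (0 : E3) (R' + 2 * ℓ) :=
    iUnion₂_subset fun δ hδ => cube_lat_subset hℓ (hD δ hδ)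
  have h1 : volume (⋃ δ ∈ D, cube ℓ (fun k => ℓ * (δ k : ℝ)))
      = (D.card : ℝ≥0∞) * ENNReal.ofReal (ℓ ^ 3) := by
    rw [measure_biUnion_finset (fun δ _ δ' _ hne => cube_lat_disjoint hℓ hne)
      (fun δ _ => measurableSet_cube _ _)]
    simp [volume_cube hℓ.le]
  have h2 := measure_mono (μ := volume) hsub
  rw [h1, volume_closedBall (by positivity)] at h2
  have h3 : ENNReal.ofReal ((D.card : ℝ) * ℓ ^ 3) ≤ ENNReal.ofReal (omega * (R' + 2 * ℓ) ^ 3) := by
    rw [ENNReal.ofReal_mul (by positivity)]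
    simpa using h2
  exact (ENNReal.ofReal_le_ofReal_iff (mul_nonneg omega_pos.le (by positivity))).1 h3

/-- The cell index of a point in the grid of side `ℓ` with diagonal offset `o`. -/
noncomputable def cellOf (ℓ o : ℝ) (x : E3) : Fin 3 → ℤ := fun k => ⌊(x k - o) / ℓ⌋

lemma measurable_cellOf (ℓ o : ℝ) : Measurable (cellOf ℓ o) := by
  refine measurable_pi_iff.2 fun k => ?_
  exact Int.measurable_floor.comp (((measurable_coord k).sub_const o).div_const ℓ)

lemma cellOf_spec {ℓ : ℝ} (hℓ : 0 < ℓ) (o : ℝ) (x : E3) (k : Fin 3) :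
    ℓ * (cellOf ℓ o x k : ℝ) + o ≤ x k ∧ x k < ℓ * (cellOf ℓ o x k : ℝ) + o + ℓ := by
  have h1 := Int.floor_le ((x k - o) / ℓ)
  have h2 := Int.lt_floor_add_one ((x k - o) / ℓ)
  simp only [cellOf]
  rw [le_div_iff₀ hℓ] at h1
  rw [div_lt_iff₀ hℓ] at h2
  constructor <;> nlinarith

/-- If two points are within distance `R`, their cells differ by a short lattice vector. -/
lemma lat_cell_diff_le {ℓ R : ℝ} (hℓ : 0 < ℓ) (o : ℝ) {a b : E3} (h : ‖a - b‖ ≤ R) :
    ‖lat ℓ (cellOf ℓ o b - cellOf ℓ o a)‖ ≤ R + 2 * ℓ := by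
  have h1 : ‖lat ℓ (cellOf ℓ o b - cellOf ℓ o a) - (b - a)‖ ≤ 2 * ℓ := by
    refine norm_le_of_coord _ hℓ.le fun k => ?_
    have ha := cellOf_spec hℓ o a k
    have hb := cellOf_spec hℓ o b k
    simp only [PiLp.sub_apply, lat_apply, Pi.sub_apply, Int.cast_sub]
    rw [abs_le]
    constructor <;> nlinarith [ha.1, ha.2, hb.1, hb.2]
  have h2 : ‖b - a‖ ≤ R := by rwa [norm_sub_rev]
  calc ‖lat ℓ (cellOf ℓ o b - cellOf ℓ o a)‖
      = ‖(lat ℓ (cellOf ℓ o b - cellOf ℓ o a) - (b - a)) + (b - a)‖ := by simp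
    _ ≤ _ := norm_add_le _ _
    _ ≤ R + 2 * ℓ := by linarith

/-- The same-cell kernel. -/
noncomputable def sameK (ℓ o : ℝ) (a b : E3) : ℝ := by
  classical
  exact if cellOf ℓ o a = cellOf ℓ o b then 1 else 0

/-- A general Schur test for a double sum over a multiset with multiplicities. -/
lemma gen_schur {α : Type} [DecidableEq α] (t : Multiset α) (g : α → α → ℝ)
    (hg0 : ∀ x y, 0 ≤ g x y) (hgs : ∀ x y, g x y = g y x) (n : ℝ)
    (hn : ∀ x, ∑ y ∈ t.toFinset, g x y ≤ n) :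
    pairSum g t t ≤ n * pairSum (fun x y => if x = y then (1 : ℝ) else 0) t t := by
  classical
  set S := t.toFinset with hS
  set c : α → ℝ := fun x => (t.count x : ℝ) with hc
  have hexp : ∀ u : α → α → ℝ, pairSum u t t = ∑ x ∈ S, ∑ y ∈ S, c x * (c y * u x y) := by
    intro u
    unfold pairSum
    rw [Finset.sum_multiset_map_count]
    refine Finset.sum_congr rfl fun x _ => ?_
    rw [Finset.sum_multiset_map_count, nsmul_eq_mul, Finset.mul_sum]
    refine Finset.sum_congr rfl fun y _ => ?_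
    rw [nsmul_eq_mul]
  have hdiag : pairSum (fun x y => if x = y then (1 : ℝ) else 0) t t = ∑ x ∈ S, c x ^ 2 := by
    rw [hexp]
    refine Finset.sum_congr rfl fun x hx => ?_
    rw [Finset.sum_eq_single x]
    · simp; ring
    · intro y _ hy
      simp [Ne.symm hy]
    · intro h; exact absurd hx h
  rw [hexp, hdiag]
  have hc0 : ∀ x, 0 ≤ c x := fun x => Nat.cast_nonneg _
  have h1 : ∑ x ∈ S, ∑ y ∈ S, c x * (c y * g x y)
      ≤ ∑ x ∈ S, ∑ y ∈ S, (c x ^ 2 * g x y + c y ^ 2 * g x y) / 2 := by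
    refine Finset.sum_le_sum fun x _ => Finset.sum_le_sum fun y _ => ?_
    have := mul_nonneg (sq_nonneg (c x - c y)) (hg0 x y)
    nlinarith
  have h2 : ∑ x ∈ S, ∑ y ∈ S, (c x ^ 2 * g x y + c y ^ 2 * g x y) / 2
      = ∑ x ∈ S, c x ^ 2 * ∑ y ∈ S, g x y := by
    have e1 : ∑ x ∈ S, ∑ y ∈ S, c y ^ 2 * g x y = ∑ x ∈ S, ∑ y ∈ S, c x ^ 2 * g x y := by
      rw [Finset.sum_comm]
      refine Finset.sum_congr rfl fun x _ => Finset.sum_congr rfl fun y _ => ?_
      rw [hgs]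
    simp only [add_div, Finset.sum_add_distrib, Finset.mul_sum]
    simp only [← Finset.sum_div]
    rw [e1]
    simp only [Finset.sum_div]
    rw [← Finset.sum_add_distrib]
    refine Finset.sum_congr rfl fun x _ => ?_
    rw [← Finset.sum_add_distrib]
    refine Finset.sum_congr rfl fun y _ => ?_
    ring
  rw [h2] at h1
  refine h1.trans ?_
  rw [Finset.mul_sum]
  refine Finset.sum_le_sum fun x _ => ?_
  have := hn x
  nlinarith [mul_le_mul_of_nonneg_left this (sq_nonneg (c x))]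

/-- Cauchy-Schwarz for occupation numbers. -/
lemma card_sq_le_pairSum_eq {α : Type} [DecidableEq α] (t : Multiset α) (B : Finset α)
    (ht : ∀ x ∈ t, x ∈ B) :
    ((Multiset.card t : ℕ) : ℝ) ^ 2
      ≤ (B.card : ℝ) * pairSum (fun x y => if x = y then (1 : ℝ) else 0) t t := by
  classical
  set S := t.toFinset with hS
  set c : α → ℝ := fun x => (t.count x : ℝ) with hc
  have hexp : ∀ u : α → α → ℝ, pairSum u t t = ∑ x ∈ S, ∑ y ∈ S, c x * (c y * u x y) := by
    intro u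
    unfold pairSum
    rw [Finset.sum_multiset_map_count]
    refine Finset.sum_congr rfl fun x _ => ?_
    rw [Finset.sum_multiset_map_count, nsmul_eq_mul, Finset.mul_sum]
    refine Finset.sum_congr rfl fun y _ => ?_
    rw [nsmul_eq_mul]
  have hdiag : pairSum (fun x y => if x = y then (1 : ℝ) else 0) t t = ∑ x ∈ S, c x ^ 2 := by
    rw [hexp]
    refine Finset.sum_congr rfl fun x hx => ?_
    rw [Finset.sum_eq_single x]
    · simp; ring
    · intro y _ hy
      simp [Ne.symm hy]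
    · intro h; exact absurd hx h
  have hcard : ((Multiset.card t : ℕ) : ℝ) = ∑ x ∈ S, c x := by
    have := Multiset.toFinset_sum_count_eq t
    simp only [hc, hS]
    exact_mod_cast this.symm
  rw [hdiag, hcard]
  have hSB : S ⊆ B := fun x hx => ht x (Multiset.mem_toFinset.1 hx)
  have h1 := sq_sum_le_card_mul_sum_sq (s := S) (f := c)
  have h2 : (S.card : ℝ) ≤ B.card := by exact_mod_cast Finset.card_le_card hSB
  have h3 : 0 ≤ ∑ x ∈ S, c x ^ 2 := Finset.sum_nonneg fun _ _ => sq_nonneg _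
  nlinarith

lemma pairSum_mono_on {E : Type} {u u' : E → E → ℝ} {s t : Multiset E}
    (h : ∀ a ∈ s, ∀ b ∈ t, u a b ≤ u' a b) : pairSum u s t ≤ pairSum u' s t := by
  unfold pairSum
  refine Multiset.sum_map_le_sum_map _ _ fun a ha => ?_
  exact Multiset.sum_map_le_sum_map _ _ fun b hb => h a ha b hb

lemma pairSum_map {E α : Type} (κ : E → α) (g : α → α → ℝ) (s : Multiset E) :
    pairSum g (s.map κ) (s.map κ) = pairSum (fun a b => g (κ a) (κ b)) s s := by
  simp [pairSum, Multiset.map_map, Function.comp_def]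

lemma pairSum_sameK_eq (ℓ o : ℝ) (s : Multiset E3) :
    pairSum (sameK ℓ o) s s
      = pairSum (fun x y : Fin 3 → ℤ => if x = y then (1 : ℝ) else 0)
          (s.map (cellOf ℓ o)) (s.map (cellOf ℓ o)) := by
  rw [pairSum_map]
  rfl

/-- The indicator kernel of distance at most `R`. -/
noncomputable def ballK (R : ℝ) (a b : E3) : ℝ := by
  classical
  exact if ‖a - b‖ ≤ R then 1 else 0

/-- Schur bound: the number of close pairs is controlled by the sum of squares of the occupation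
numbers of the cells of a grid. -/
theorem pairSum_ballK_le {ℓ R : ℝ} (hℓ : 0 < ℓ) (hR : 0 ≤ R) (o : ℝ) (s : Multiset E3) :
    pairSum (ballK R) s s ≤ (omega * (R + 4 * ℓ) ^ 3 / ℓ ^ 3) * pairSum (sameK ℓ o) s s := by
  classical
  set g : (Fin 3 → ℤ) → (Fin 3 → ℤ) → ℝ :=
    fun τ τ' => if ‖lat ℓ (τ' - τ)‖ ≤ R + 2 * ℓ then 1 else 0 with hg
  have h1 : pairSum (ballK R) s s ≤ pairSum (fun a b => g (cellOf ℓ o a) (cellOf ℓ o b)) s s := by
    refine pairSum_mono_on fun a _ b _ => ?_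
    unfold ballK
    by_cases hab : ‖a - b‖ ≤ R
    · simp only [hab, if_true, hg]
      rw [if_pos (lat_cell_diff_le hℓ o hab)]
    · simp only [hab, if_false, hg]
      split_ifs <;> norm_num
  refine h1.trans ?_
  rw [← pairSum_map, pairSum_sameK_eq]
  refine gen_schur _ g (fun x y => ?_) (fun x y => ?_) _ (fun τ => ?_)
  · simp only [hg]; split_ifs <;> norm_num
  · simp only [hg]
    have : ‖lat ℓ (y - x)‖ = ‖lat ℓ (x - y)‖ := by
      rw [← norm_neg (lat ℓ (y - x))]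
      congr 1
      ext k
      simp only [PiLp.neg_apply, lat_apply, Pi.sub_apply, Int.cast_sub]
      ring
    rw [this]
  · -- counting
    set S := (s.map (cellOf ℓ o)).toFinset
    set D := (S.filter fun y => ‖lat ℓ (y - τ)‖ ≤ R + 2 * ℓ).image (fun y => y - τ) with hD
    have hsum : ∑ y ∈ S, g τ y = (D.card : ℝ) := by
      simp only [hg]
      rw [Finset.sum_ite, Finset.sum_const_zero, add_zero, Finset.sum_const, nsmul_eq_mul, mul_one]
      rw [hD, Finset.card_image_of_injective]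
      intro x y hxy
      simpa using hxy
    rw [hsum]
    have hcount := lattice_count_le hℓ (by positivity : 0 ≤ R + 2 * ℓ) D (by
      intro δ hδ
      obtain ⟨y, hy, rfl⟩ := Finset.mem_image.1 hδ
      exact (Finset.mem_filter.1 hy).2)
    rw [le_div_iff₀ (by positivity)]
    have e : R + 2 * ℓ + 2 * ℓ = R + 4 * ℓ := by ring
    rwa [e] at hcount

/-- Lower lattice count: many lattice points in a ball. -/
lemma lattice_count_ge {ℓ r : ℝ} (hℓ : 0 < ℓ) (hr : 0 ≤ r) (D : Finset (Fin 3 → ℤ))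
    (hD : ∀ δ : Fin 3 → ℤ, ‖lat ℓ δ‖ ≤ r + 2 * ℓ → δ ∈ D) :
    omega * r ^ 3 ≤ (D.card : ℝ) * ℓ ^ 3 := by
  have hsub : Metric.closedBall (0 : E3) r ⊆ ⋃ δ ∈ D, cube ℓ (fun k => ℓ * (δ k : ℝ)) := by
    intro x hx
    rw [mem_closedBall_zero_iff] at hx
    simp only [mem_iUnion]
    refine ⟨cellOf ℓ 0 x, hD _ ?_, ?_⟩
    · have h1 : ‖lat ℓ (cellOf ℓ 0 x) - x‖ ≤ 2 * ℓ := by
        refine norm_le_of_coord _ hℓ.le fun k => ?_
        have := cellOf_spec hℓ 0 x k
        simp only [PiLp.sub_apply, lat_apply]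
        rw [abs_le]
        constructor <;> linarith [this.1, this.2]
      calc ‖lat ℓ (cellOf ℓ 0 x)‖ = ‖(lat ℓ (cellOf ℓ 0 x) - x) + x‖ := by simp
        _ ≤ _ := norm_add_le _ _
        _ ≤ r + 2 * ℓ := by linarith
    · intro k
      have := cellOf_spec hℓ 0 x k
      constructor <;> linarith [this.1, this.2]
  have h2 := measure_mono (μ := volume) hsub
  have h1 : volume (⋃ δ ∈ D, cube ℓ (fun k => ℓ * (δ k : ℝ)))
      = (D.card : ℝ≥0∞) * ENNReal.ofReal (ℓ ^ 3) := by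
    rw [measure_biUnion_finset (fun δ _ δ' _ hne => cube_lat_disjoint hℓ hne)
      (fun δ _ => measurableSet_cube _ _)]
    simp [volume_cube hℓ.le]
  rw [h1, volume_closedBall hr] at h2
  have h3 : ENNReal.ofReal (omega * r ^ 3) ≤ ENNReal.ofReal ((D.card : ℝ) * ℓ ^ 3) := by
    rw [ENNReal.ofReal_mul (Nat.cast_nonneg _)]
    simpa using h2
  exact (ENNReal.ofReal_le_ofReal_iff (by positivity)).1 h3

end Vale.Agent.Lib.P171
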