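import Vale.Agent.Lib.P171.Config

/-!
Pair functionals of multisets and Gibbs weights.
-/

set_option linter.unusedSectionVars false
set_option linter.unusedSimpArgs false
set_option linter.unusedVariables false

open MeasureTheory Set
open scoped ENNReal BigOperators

namespace Vale.Agent.Lib.P171

variable {E : Type}

/-- Double sum of a kernel over two multisets. -/
noncomputable def pairSum (u : E → E → ℝ) (s t : Multiset E) : ℝ :=
  (s.map fun a => (t.map (u a)).sum).sum

/-- The pair functional: the sum of `u` over unordered pairs of a multiset. -/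
noncomputable def P (u : E → E → ℝ) (s : Multiset E) : ℝ :=
  (pairSum u s s - (s.map fun a => u a a).sum) / 2

/-- Symmetry of a kernel. -/
def Symm (u : E → E → ℝ) : Prop := ∀ a b, u a b = u b a

@[simp] lemma pairSum_zero_left (u : E → E → ℝ) (t : Multiset E) : pairSum u 0 t = 0 := by
  simp [pairSum]

@[simp] lemma pairSum_zero_right (u : E → E → ℝ) (s : Multiset E) : pairSum u s 0 = 0 := by
  simp [pairSum]

lemma pairSum_cons_left (u : E → E → ℝ) (a : E) (s t : Multiset E) :
    pairSum u (a ::ₘ s) t = (t.map (u a)).sum + pairSum u s t := by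
  simp [pairSum]

lemma pairSum_add_left (u : E → E → ℝ) (s s' t : Multiset E) :
    pairSum u (s + s') t = pairSum u s t + pairSum u s' t := by
  simp [pairSum]

lemma pairSum_cons_right (u : E → E → ℝ) (a : E) (s t : Multiset E) :
    pairSum u s (a ::ₘ t) = (s.map fun b => u b a).sum + pairSum u s t := by
  simp [pairSum, Multiset.sum_map_add]

lemma pairSum_add_right (u : E → E → ℝ) (s t t' : Multiset E) :
    pairSum u s (t + t') = pairSum u s t + pairSum u s t' := by
  simp [pairSum, Multiset.sum_map_add]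

lemma pairSum_comm {u : E → E → ℝ} (hu : Symm u) (s t : Multiset E) :
    pairSum u s t = pairSum u t s := by
  induction s using Multiset.induction_on with
  | empty => simp
  | cons a s ih =>
    rw [pairSum_cons_left, pairSum_cons_right, ih]
    congr 2
    exact Multiset.map_congr rfl fun b _ => hu a b

@[simp] lemma P_zero (u : E → E → ℝ) : P u 0 = 0 := by simp [P]

lemma P_cons {u : E → E → ℝ} (hu : Symm u) (a : E) (s : Multiset E) :
    P u (a ::ₘ s) = P u s + (s.map (u a)).sum := by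
  unfold P
  rw [pairSum_cons_left, pairSum_cons_right]
  have : (s.map fun b => u b a) = s.map (u a) := Multiset.map_congr rfl fun b _ => hu b a
  rw [this]
  simp only [Multiset.map_cons, Multiset.sum_cons]
  ring

lemma P_add {u : E → E → ℝ} (hu : Symm u) (s t : Multiset E) :
    P u (s + t) = P u s + P u t + pairSum u s t := by
  induction s using Multiset.induction_on with
  | empty => simp
  | cons a s ih =>
    rw [Multiset.cons_add, P_cons hu, ih, P_cons hu, pairSum_cons_left]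
    simp only [Multiset.map_add, Multiset.sum_add]
    ring

lemma P_mono_on {u u' : E → E → ℝ} (hu : Symm u) (hu' : Symm u') {s : Multiset E}
    (h : ∀ a ∈ s, ∀ b ∈ s, u a b ≤ u' a b) : P u s ≤ P u' s := by
  induction s using Multiset.induction_on with
  | empty => simp
  | cons a s ih =>
    rw [P_cons hu, P_cons hu']
    refine add_le_add (ih fun x hx y hy => h x (Multiset.mem_cons_of_mem hx) y
      (Multiset.mem_cons_of_mem hy)) ?_
    exact Multiset.sum_map_le_sum_map _ _ fun b hb => h a (Multiset.mem_cons_self a s) b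
      (Multiset.mem_cons_of_mem hb)

lemma P_mono {u u' : E → E → ℝ} (hu : Symm u) (hu' : Symm u') (h : ∀ a b, u a b ≤ u' a b)
    (s : Multiset E) : P u s ≤ P u' s :=
  P_mono_on hu hu' fun a _ b _ => h a b

lemma P_congr_on {u u' : E → E → ℝ} (hu : Symm u) (hu' : Symm u') {s : Multiset E}
    (h : ∀ a ∈ s, ∀ b ∈ s, u a b = u' a b) : P u s = P u' s :=
  le_antisymm (P_mono_on hu hu' fun a ha b hb => (h a ha b hb).le)
    (P_mono_on hu' hu fun a ha b hb => (h a ha b hb).ge)

lemma Symm.add {u u' : E → E → ℝ} (hu : Symm u) (hu' : Symm u') :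
    Symm (fun a b => u a b + u' a b) := fun a b => by
  show u a b + u' a b = u b a + u' b a
  rw [hu a b, hu' a b]

lemma Symm.const_mul {u : E → E → ℝ} (hu : Symm u) (c : ℝ) :
    Symm (fun a b => c * u a b) := fun a b => by
  show c * u a b = c * u b a
  rw [hu a b]

lemma symm_const (c : ℝ) : Symm (fun _ _ : E => c) := fun _ _ => rfl

lemma P_add_kernel {u u' : E → E → ℝ} (hu : Symm u) (hu' : Symm u') (s : Multiset E) :
    P (fun a b => u a b + u' a b) s = P u s + P u' s := by
  induction s using Multiset.induction_on with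
  | empty => simp
  | cons a s ih =>
    rw [P_cons (hu.add hu'), P_cons hu, P_cons hu', ih, Multiset.sum_map_add]
    ring

lemma P_const_mul {u : E → E → ℝ} (hu : Symm u) (c : ℝ) (s : Multiset E) :
    P (fun a b => c * u a b) s = c * P u s := by
  induction s using Multiset.induction_on with
  | empty => simp
  | cons a s ih =>
    rw [P_cons (hu.const_mul c), P_cons hu, ih, Multiset.sum_map_mul_left]
    ring

lemma P_const (c : ℝ) (s : Multiset E) :
    P (fun _ _ => c) s = c * ((Multiset.card s : ℝ) * ((Multiset.card s : ℝ) - 1) / 2) := by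
  induction s using Multiset.induction_on with
  | empty => simp
  | cons a s ih =>
    rw [P_cons (symm_const c), ih]
    simp only [Multiset.map_const', Multiset.sum_replicate, Multiset.card_cons, nsmul_eq_mul]
    push_cast
    ring

lemma P_finset_sum {ι : Type*} (S : Finset ι) (c : ι → ℝ) (u : ι → E → E → ℝ)
    (hu : ∀ i ∈ S, Symm (u i)) (s : Multiset E) :
    P (fun a b => ∑ i ∈ S, c i * u i a b) s = ∑ i ∈ S, c i * P (u i) s := by
  classical
  induction S using Finset.induction_on with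
  | empty =>
    have : P (fun _ _ : E => (0 : ℝ)) s = 0 := by
      rw [P_const]; ring
    simpa using this
  | insert i S hi ih =>
    have hS : ∀ j ∈ S, Symm (u j) := fun j hj => hu j (Finset.mem_insert_of_mem hj)
    have hsum : Symm (fun a b => ∑ j ∈ S, c j * u j a b) := fun a b =>
      Finset.sum_congr rfl fun j hj => by rw [hS j hj a b]
    simp only [Finset.sum_insert hi]
    rw [P_add_kernel ((hu i (Finset.mem_insert_self _ _)).const_mul _) hsum,
      P_const_mul (hu i (Finset.mem_insert_self _ _)), ih hS]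

/-- `pairSum` of a kernel equals twice the pair functional plus the diagonal. -/
lemma pairSum_self (u : E → E → ℝ) (s : Multiset E) :
    pairSum u s s = 2 * P u s + (s.map fun a => u a a).sum := by
  unfold P; ring

section Measurability

variable [MeasurableSpace E]

lemma pairSum_ms {N : ℕ} (u : E → E → ℝ) (x : Fin N → E) :
    pairSum u (ms x) (ms x) = ∑ i, ∑ j, u (x i) (x j) := by
  simp only [pairSum, ms, Multiset.map_map, Function.comp_def]
  rfl

lemma diag_ms {N : ℕ} (u : E → E → ℝ) (x : Fin N → E) :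
    ((ms x).map fun a => u a a).sum = ∑ i, u (x i) (x i) := by
  simp only [ms, Multiset.map_map, Function.comp_def]
  rfl

lemma measurable_P_ms {u : E → E → ℝ} (hu : Measurable (Function.uncurry u)) (N : ℕ) :
    Measurable fun x : Fin N → E => P u (ms x) := by
  have h1 : ∀ i j : Fin N, Measurable fun x : Fin N → E => u (x i) (x j) := fun i j =>
    hu.comp (f := fun x : Fin N → E => (x i, x j))
      ((measurable_pi_apply i).prodMk (measurable_pi_apply j))
  have : (fun x : Fin N → E => P u (ms x))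
      = fun x => (∑ i, ∑ j, u (x i) (x j) - ∑ i, u (x i) (x i)) / 2 := by
    funext x
    simp only [P, pairSum_ms, diag_ms]
  rw [this]
  refine Measurable.div_const (Measurable.sub ?_ ?_) _
  · exact Finset.measurable_sum _ fun i _ => Finset.measurable_sum _ fun j _ => h1 i j
  · exact Finset.measurable_sum _ fun i _ => h1 i i

/-- Gibbs weight with kernel `u` and chemical potential `ν`. -/
noncomputable def Gib (u : E → E → ℝ) (ν : ℝ) (s : Multiset E) : ℝ≥0∞ :=
  ENNReal.ofReal (Real.exp (-P u s + ν * (Multiset.card s : ℝ)))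

lemma measF_Gib {u : E → E → ℝ} (hu : Measurable (Function.uncurry u)) (ν : ℝ) :
    MeasF (Gib u ν) := by
  intro N
  unfold Gib
  simp only [card_ms]
  exact ENNReal.measurable_ofReal.comp
    (Real.measurable_exp.comp (((measurable_P_ms hu N).neg).add_const _))

lemma Gib_pos (u : E → E → ℝ) (ν : ℝ) (s : Multiset E) : Gib u ν s ≠ 0 := by
  simp [Gib, Real.exp_pos]

lemma Gib_ne_top (u : E → E → ℝ) (ν : ℝ) (s : Multiset E) : Gib u ν s ≠ ∞ := by
  simp [Gib]

lemma Gib_zero (u : E → E → ℝ) (ν : ℝ) : Gib u ν 0 = 1 := by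
  simp [Gib]

lemma Gib_add {u : E → E → ℝ} (hu : Symm u) (ν : ℝ) (s t : Multiset E) :
    Gib u ν (s + t)
      = Gib u ν s * Gib u ν t * ENNReal.ofReal (Real.exp (-pairSum u s t)) := by
  unfold Gib
  rw [← ENNReal.ofReal_mul (Real.exp_pos _).le, ← ENNReal.ofReal_mul
    (mul_nonneg (Real.exp_pos _).le (Real.exp_pos _).le), ← Real.exp_add, ← Real.exp_add, P_add hu]
  congr 2
  simp only [Multiset.card_add]
  push_cast
  ring

variable {ρ ρ₁ ρ₂ : Measure E} [SigmaFinite ρ] [SigmaFinite ρ₁] [SigmaFinite ρ₂]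

lemma I_const_mul (c : ℝ≥0∞) {F : Multiset E → ℝ≥0∞} (hF : MeasF F) :
    I ρ (fun s => c * F s) = c * I ρ F := by
  unfold I
  simp_rw [J_const_mul c hF]
  exact ENNReal.tsum_mul_left

lemma I_mul_const (c : ℝ≥0∞) {F : Multiset E → ℝ≥0∞} (hF : MeasF F) :
    I ρ (fun s => F s * c) = I ρ F * c := by
  simpa [mul_comm] using I_const_mul (ρ := ρ) c hF

omit [SigmaFinite ρ] in
lemma J_mono {F G : Multiset E → ℝ≥0∞} (h : ∀ s, F s ≤ G s) (N : ℕ) : J ρ F N ≤ J ρ G N := by
  unfold J
  gcongr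
  exact h _

omit [SigmaFinite ρ] in
lemma I_mono {F G : Multiset E → ℝ≥0∞} (h : ∀ s, F s ≤ G s) : I ρ F ≤ I ρ G :=
  ENNReal.tsum_le_tsum fun N => J_mono h N

lemma I_ge_J (F : Multiset E → ℝ≥0∞) (N : ℕ) : J ρ F N ≤ I ρ F :=
  ENNReal.le_tsum N

lemma one_le_I_Gib (u : E → E → ℝ) (ν : ℝ) : 1 ≤ I ρ (Gib u ν) := by
  have := I_ge_J (ρ := ρ) (Gib u ν) 0
  rwa [J_zero, Gib_zero] at this

/-- Hölder's inequality for `I`. -/
lemma I_holder {ι : Type*} (S : Finset ι) {g : ι → Multiset E → ℝ≥0∞}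
    (hg : ∀ i ∈ S, MeasF (g i)) {p : ι → ℝ} (hp : ∑ i ∈ S, p i = 1) (h2p : ∀ i ∈ S, 0 ≤ p i) :
    I ρ (fun s => ∏ i ∈ S, g i s ^ p i) ≤ ∏ i ∈ S, (I ρ (g i)) ^ p i := by
  have hJ : ∀ N, J ρ (fun s => ∏ i ∈ S, g i s ^ p i) N ≤ ∏ i ∈ S, (J ρ (g i) N) ^ p i := by
    intro N
    have hscale : ∀ F : Multiset E → ℝ≥0∞, J ρ F N
        = ∫⁻ x, F (ms x) ∂(((N.factorial : ℝ≥0∞)⁻¹) • Measure.pi fun _ : Fin N => ρ) := by
      intro F
      rw [lintegral_smul_measure]
      rfl
    simp only [hscale]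
    exact ENNReal.lintegral_prod_norm_pow_le S (fun i hi => (hg i hi N).aemeasurable) hp h2p
  calc I ρ (fun s => ∏ i ∈ S, g i s ^ p i)
      ≤ ∑' N, ∏ i ∈ S, (J ρ (g i) N) ^ p i := ENNReal.tsum_le_tsum hJ
    _ = ∫⁻ N, ∏ i ∈ S, (J ρ (g i) N) ^ p i ∂(Measure.count : Measure ℕ) := by
        rw [lintegral_count]
    _ ≤ ∏ i ∈ S, (∫⁻ N, J ρ (g i) N ∂(Measure.count : Measure ℕ)) ^ p i :=
        ENNReal.lintegral_prod_norm_pow_le S
          (fun i _ => (measurable_of_countable _).aemeasurable) hp h2p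
    _ = ∏ i ∈ S, (I ρ (g i)) ^ p i := by
        simp only [lintegral_count, I]

/-- Hölder at a fixed number of particles. -/
lemma J_holder {ι : Type*} (S : Finset ι) {g : ι → Multiset E → ℝ≥0∞}
    (hg : ∀ i ∈ S, MeasF (g i)) {p : ι → ℝ} (hp : ∑ i ∈ S, p i = 1) (h2p : ∀ i ∈ S, 0 ≤ p i)
    (N : ℕ) :
    J ρ (fun s => ∏ i ∈ S, g i s ^ p i) N ≤ ∏ i ∈ S, (J ρ (g i) N) ^ p i := by
  have hscale : ∀ F : Multiset E → ℝ≥0∞, J ρ F N
      = ∫⁻ x, F (ms x) ∂(((N.factorial : ℝ≥0∞)⁻¹) • Measure.pi fun _ : Fin N => ρ) := by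
    intro F
    rw [lintegral_smul_measure]
    rfl
  simp only [hscale]
  exact ENNReal.lintegral_prod_norm_pow_le S (fun i hi => (hg i hi N).aemeasurable) hp h2p

end Measurability

section Restrict

variable [MeasurableSpace E] {μ : Measure E} [SigmaFinite μ]

lemma ae_mem_restrict {A : Set E} (hA : MeasurableSet A) (N : ℕ) :
    ∀ᵐ x ∂(Measure.pi fun _ : Fin N => μ.restrict A), ∀ a ∈ ms x, a ∈ A := by
  have e : (Measure.pi fun _ : Fin N => μ.restrict A)
      = (Measure.pi fun _ : Fin N => μ).restrict (Set.pi univ fun _ => A) :=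
    (Measure.restrict_pi_pi (fun _ : Fin N => μ) (fun _ => A)).symm
  rw [e]
  have hm : MeasurableSet (Set.pi univ fun _ : Fin N => A) :=
    MeasurableSet.univ_pi fun _ => hA
  filter_upwards [ae_restrict_mem hm] with x hx a ha
  obtain ⟨i, rfl⟩ := mem_ms.1 ha
  exact hx i (mem_univ i)

lemma J_mono_on {A : Set E} (hA : MeasurableSet A) {F G : Multiset E → ℝ≥0∞} {N : ℕ}
    (h : ∀ s, (∀ a ∈ s, a ∈ A) → Multiset.card s = N → F s ≤ G s) :
    J (μ.restrict A) F N ≤ J (μ.restrict A) G N := by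
  unfold J
  refine mul_le_mul' le_rfl ?_
  refine lintegral_mono_ae ?_
  filter_upwards [ae_mem_restrict (μ := μ) hA N] with x hx
  exact h _ hx (card_ms x)

lemma J_congr_on {A : Set E} (hA : MeasurableSet A) {F G : Multiset E → ℝ≥0∞} {N : ℕ}
    (h : ∀ s, (∀ a ∈ s, a ∈ A) → Multiset.card s = N → F s = G s) :
    J (μ.restrict A) F N = J (μ.restrict A) G N :=
  le_antisymm (J_mono_on hA fun s hs hc => (h s hs hc).le)
    (J_mono_on hA fun s hs hc => (h s hs hc).ge)

lemma I_mono_on {A : Set E} (hA : MeasurableSet A) {F G : Multiset E → ℝ≥0∞}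
    (h : ∀ s, (∀ a ∈ s, a ∈ A) → F s ≤ G s) :
    I (μ.restrict A) F ≤ I (μ.restrict A) G :=
  ENNReal.tsum_le_tsum fun N => J_mono_on hA fun s hs _ => h s hs

lemma I_congr_on {A : Set E} (hA : MeasurableSet A) {F G : Multiset E → ℝ≥0∞}
    (h : ∀ s, (∀ a ∈ s, a ∈ A) → F s = G s) :
    I (μ.restrict A) F = I (μ.restrict A) G :=
  le_antisymm (I_mono_on hA fun s hs => (h s hs).le) (I_mono_on hA fun s hs => (h s hs).ge)

lemma I_restrict_mono {A B : Set E} (hAB : A ⊆ B) (F : Multiset E → ℝ≥0∞) :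
    I (μ.restrict A) F ≤ I (μ.restrict B) F := by
  refine ENNReal.tsum_le_tsum fun N => ?_
  unfold J
  refine mul_le_mul' le_rfl ?_
  rw [← Measure.restrict_pi_pi (fun _ : Fin N => μ) (fun _ => A),
    ← Measure.restrict_pi_pi (fun _ : Fin N => μ) (fun _ => B)]
  exact lintegral_mono_set fun x hx i hi => hAB (hx i hi)

lemma pairSum_nonneg_on {u : E → E → ℝ} {A B : Set E} {s t : Multiset E}
    (h : ∀ a ∈ A, ∀ b ∈ B, 0 ≤ u a b) (hs : ∀ a ∈ s, a ∈ A) (ht : ∀ a ∈ t, a ∈ B) :
    0 ≤ pairSum u s t := by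
  refine Multiset.sum_nonneg ?_
  intro x hx
  obtain ⟨a, ha, rfl⟩ := Multiset.mem_map.1 hx
  refine Multiset.sum_nonneg ?_
  intro y hy
  obtain ⟨b, hb, rfl⟩ := Multiset.mem_map.1 hy
  exact h a (hs a ha) b (ht b hb)

lemma ms_sum_nonpos {m : Multiset ℝ} (h : ∀ x ∈ m, x ≤ 0) : m.sum ≤ 0 := by
  simpa using Multiset.sum_le_card_nsmul m 0 h

lemma pairSum_nonpos_on {u : E → E → ℝ} {A B : Set E} {s t : Multiset E}
    (h : ∀ a ∈ A, ∀ b ∈ B, u a b ≤ 0) (hs : ∀ a ∈ s, a ∈ A) (ht : ∀ a ∈ t, a ∈ B) :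
    pairSum u s t ≤ 0 := by
  refine ms_sum_nonpos ?_
  intro x hx
  obtain ⟨a, ha, rfl⟩ := Multiset.mem_map.1 hx
  refine ms_sum_nonpos ?_
  intro y hy
  obtain ⟨b, hb, rfl⟩ := Multiset.mem_map.1 hy
  exact h a (hs a ha) b (ht b hb)

/-- Two disjoint regions with nonnegative cross interaction: submultiplicativity. -/
lemma I_Gib_union_le {A B : Set E} (hA : MeasurableSet A) (hB : MeasurableSet B)
    (hd : Disjoint A B) {u : E → E → ℝ} (hu : Symm u)
    (hum : Measurable (Function.uncurry u)) (ν : ℝ)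
    (hcross : ∀ a ∈ A, ∀ b ∈ B, 0 ≤ u a b) :
    I (μ.restrict (A ∪ B)) (Gib u ν)
      ≤ I (μ.restrict A) (Gib u ν) * I (μ.restrict B) (Gib u ν) := by
  rw [Measure.restrict_union hd hB, I_superpose (measF_Gib hum ν)]
  rw [← I_mul_const _ (measF_Gib hum ν)]
  refine I_mono_on hA fun s hs => ?_
  rw [← I_const_mul _ (measF_Gib hum ν)]
  refine I_mono_on hB fun t ht => ?_
  rw [Gib_add hu]
  have : ENNReal.ofReal (Real.exp (-pairSum u s t)) ≤ 1 := by
    rw [ENNReal.ofReal_le_one, Real.exp_le_one_iff]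
    have := pairSum_nonneg_on hcross hs ht
    linarith
  calc Gib u ν s * Gib u ν t * ENNReal.ofReal (Real.exp (-pairSum u s t))
      ≤ Gib u ν s * Gib u ν t * 1 := mul_le_mul' le_rfl this
    _ = Gib u ν s * Gib u ν t := mul_one _

/-- Two disjoint regions with nonpositive cross interaction: supermultiplicativity. -/
lemma I_Gib_union_ge {A B : Set E} (hA : MeasurableSet A) (hB : MeasurableSet B)
    (hd : Disjoint A B) {u : E → E → ℝ} (hu : Symm u)
    (hum : Measurable (Function.uncurry u)) (ν : ℝ)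
    (hcross : ∀ a ∈ A, ∀ b ∈ B, u a b ≤ 0) :
    I (μ.restrict A) (Gib u ν) * I (μ.restrict B) (Gib u ν)
      ≤ I (μ.restrict (A ∪ B)) (Gib u ν) := by
  rw [Measure.restrict_union hd hB, I_superpose (measF_Gib hum ν)]
  rw [← I_mul_const _ (measF_Gib hum ν)]
  refine I_mono_on hA fun s hs => ?_
  rw [← I_const_mul _ (measF_Gib hum ν)]
  refine I_mono_on hB fun t ht => ?_
  rw [Gib_add hu]
  have : 1 ≤ ENNReal.ofReal (Real.exp (-pairSum u s t)) := by
    rw [ENNReal.one_le_ofReal, Real.one_le_exp_iff]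
    have := pairSum_nonpos_on hcross hs ht
    linarith
  calc Gib u ν s * Gib u ν t = Gib u ν s * Gib u ν t * 1 := (mul_one _).symm
    _ ≤ _ := mul_le_mul' le_rfl this


omit [SigmaFinite μ] in
lemma J_zero_measure_succ (F : Multiset E → ℝ≥0∞) (M : ℕ) : J (0 : Measure E) F (M + 1) = 0 := by
  have h : (Measure.pi fun _ : Fin (M + 1) => (0 : Measure E)) = 0 := by
    rw [← Measure.measure_univ_eq_zero]
    have := Measure.pi_pi (fun _ : Fin (M + 1) => (0 : Measure E)) (fun _ => (univ : Set E))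
    simpa using this
  simp [J, h]

omit [SigmaFinite μ] in
lemma I_zero_measure (F : Multiset E → ℝ≥0∞) : I (0 : Measure E) F = F 0 := by
  unfold I
  rw [tsum_eq_single 0]
  · exact J_zero F
  · intro N hN
    obtain ⟨M, rfl⟩ := Nat.exists_eq_succ_of_ne_zero hN
    exact J_zero_measure_succ F M

lemma measurableSet_biUnion_finset {ι : Type*} (T : Finset ι) {c : ι → Set E}
    (hc : ∀ τ ∈ T, MeasurableSet (c τ)) : MeasurableSet (⋃ τ ∈ T, c τ) :=
  Finset.measurableSet_biUnion T hc

lemma disjoint_biUnion_of {ι : Type*} [DecidableEq ι] {T : Finset ι} {c : ι → Set E} {τ : ι}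
    (hτ : τ ∉ T) (hd : ∀ σ ∈ T, τ ≠ σ → Disjoint (c τ) (c σ)) :
    Disjoint (c τ) (⋃ σ ∈ T, c σ) := by
  rw [Set.disjoint_iUnion₂_right]
  intro σ hσ
  exact hd σ hσ (fun h => hτ (h ▸ hσ))

/-- Finite family of pairwise disjoint regions with nonnegative cross interaction. -/
lemma I_Gib_biUnion_le {ι : Type*} [DecidableEq ι] (T : Finset ι) (c : ι → Set E)
    (hc : ∀ τ ∈ T, MeasurableSet (c τ))
    (hd : ∀ τ ∈ T, ∀ σ ∈ T, τ ≠ σ → Disjoint (c τ) (c σ))
    {u : E → E → ℝ} (hu : Symm u) (hum : Measurable (Function.uncurry u)) (ν : ℝ)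
    (hcross : ∀ τ ∈ T, ∀ σ ∈ T, τ ≠ σ → ∀ a ∈ c τ, ∀ b ∈ c σ, 0 ≤ u a b) :
    I (μ.restrict (⋃ τ ∈ T, c τ)) (Gib u ν) ≤ ∏ τ ∈ T, I (μ.restrict (c τ)) (Gib u ν) := by
  induction T using Finset.induction_on with
  | empty =>
    simp [I_zero_measure, Gib_zero]
  | insert τ T hτ ih =>
    rw [Finset.set_biUnion_insert, Finset.prod_insert hτ]
    have hT : ∀ σ ∈ T, σ ∈ insert τ T := fun σ hσ => Finset.mem_insert_of_mem hσ
    have hself := Finset.mem_insert_self τ T
    have h1 := I_Gib_union_le (μ := μ) (hc τ hself)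
      (measurableSet_biUnion_finset T fun σ hσ => hc σ (hT σ hσ))
      (disjoint_biUnion_of hτ fun σ hσ hne => hd τ hself σ (hT σ hσ) hne) hu hum ν
      (fun a ha b hb => by
        simp only [mem_iUnion] at hb
        obtain ⟨σ, hσ, hb⟩ := hb
        exact hcross τ hself σ (hT σ hσ) (fun h => hτ (h ▸ hσ)) a ha b hb)
    refine h1.trans (mul_le_mul' le_rfl ?_)
    exact ih (fun σ hσ => hc σ (hT σ hσ))
      (fun σ hσ σ' hσ' hne => hd σ (hT σ hσ) σ' (hT σ' hσ') hne)
      (fun σ hσ σ' hσ' hne => hcross σ (hT σ hσ) σ' (hT σ' hσ') hne)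

/-- Finite family of pairwise disjoint regions with nonpositive cross interaction. -/
lemma I_Gib_biUnion_ge {ι : Type*} [DecidableEq ι] (T : Finset ι) (c : ι → Set E)
    (hc : ∀ τ ∈ T, MeasurableSet (c τ))
    (hd : ∀ τ ∈ T, ∀ σ ∈ T, τ ≠ σ → Disjoint (c τ) (c σ))
    {u : E → E → ℝ} (hu : Symm u) (hum : Measurable (Function.uncurry u)) (ν : ℝ)
    (hcross : ∀ τ ∈ T, ∀ σ ∈ T, τ ≠ σ → ∀ a ∈ c τ, ∀ b ∈ c σ, u a b ≤ 0) :
    ∏ τ ∈ T, I (μ.restrict (c τ)) (Gib u ν) ≤ I (μ.restrict (⋃ τ ∈ T, c τ)) (Gib u ν) := by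
  induction T using Finset.induction_on with
  | empty =>
    simp [I_zero_measure, Gib_zero]
  | insert τ T hτ ih =>
    rw [Finset.set_biUnion_insert, Finset.prod_insert hτ]
    have hT : ∀ σ ∈ T, σ ∈ insert τ T := fun σ hσ => Finset.mem_insert_of_mem hσ
    have hself := Finset.mem_insert_self τ T
    have h1 := I_Gib_union_ge (μ := μ) (hc τ hself)
      (measurableSet_biUnion_finset T fun σ hσ => hc σ (hT σ hσ))
      (disjoint_biUnion_of hτ fun σ hσ hne => hd τ hself σ (hT σ hσ) hne) hu hum ν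
      (fun a ha b hb => by
        simp only [mem_iUnion] at hb
        obtain ⟨σ, hσ, hb⟩ := hb
        exact hcross τ hself σ (hT σ hσ) (fun h => hτ (h ▸ hσ)) a ha b hb)
    refine le_trans (mul_le_mul' le_rfl ?_) h1
    exact ih (fun σ hσ => hc σ (hT σ hσ))
      (fun σ hσ σ' hσ' hne => hd σ (hT σ hσ) σ' (hT σ' hσ') hne)
      (fun σ hσ σ' hσ' hne => hcross σ (hT σ hσ) σ' (hT σ' hσ') hne)

/-- Canonical lower bound with prescribed occupation numbers in a finite family of regions. -/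
lemma J_biUnion_ge {ι : Type*} [DecidableEq ι] (T : Finset ι) (c : ι → Set E)
    (hc : ∀ τ ∈ T, MeasurableSet (c τ))
    (hd : ∀ τ ∈ T, ∀ σ ∈ T, τ ≠ σ → Disjoint (c τ) (c σ))
    {F G : Multiset E → ℝ≥0∞} (hF : MeasF F) (hG : MeasF G) (N : ℕ) (C : ℝ≥0∞)
    (h : ∀ ss : ι → Multiset E, (∀ τ ∈ T, (∀ a ∈ ss τ, a ∈ c τ) ∧ Multiset.card (ss τ) = N) →
      C * ∏ τ ∈ T, G (ss τ) ≤ F (∑ τ ∈ T, ss τ)) :
    C * ∏ τ ∈ T, J (μ.restrict (c τ)) G N ≤ J (μ.restrict (⋃ τ ∈ T, c τ)) F (T.card * N) := by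
  induction T using Finset.induction_on generalizing F C with
  | empty =>
    have := h (fun _ => 0) (by simp)
    simpa [J_zero] using this
  | insert τ T hτ ih =>
    have hT : ∀ σ ∈ T, σ ∈ insert τ T := fun σ hσ => Finset.mem_insert_of_mem hσ
    have hself := Finset.mem_insert_self τ T
    have hA := hc τ hself
    have hB : MeasurableSet (⋃ σ ∈ T, c σ) :=
      measurableSet_biUnion_finset T fun σ hσ => hc σ (hT σ hσ)
    rw [Finset.set_biUnion_insert, Finset.prod_insert hτ, Finset.card_insert_of_notMem hτ]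
    rw [Measure.restrict_union (disjoint_biUnion_of hτ fun σ hσ hne =>
      hd τ hself σ (hT σ hσ) hne) hB]
    have hcard : (T.card + 1) * N = N + T.card * N := by ring
    rw [hcard, J_superpose hF]
    have hmem : ((N, T.card * N) : ℕ × ℕ) ∈ Finset.HasAntidiagonal.antidiagonal (N + T.card * N) :=
      Finset.HasAntidiagonal.mem_antidiagonal.2 rfl
    refine le_trans ?_ (Finset.single_le_sum (f := fun p : ℕ × ℕ =>
      J (μ.restrict (c τ)) (fun s => J (μ.restrict (⋃ σ ∈ T, c σ)) (fun t => F (s + t)) p.2) p.1)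
      (fun _ _ => zero_le) hmem)
    -- the inner bound
    set Pi0 := ∏ σ ∈ T, J (μ.restrict (c σ)) G N with hPi0
    have hinner : ∀ s, (∀ a ∈ s, a ∈ c τ) → Multiset.card s = N →
        (C * Pi0) * G s ≤ J (μ.restrict (⋃ σ ∈ T, c σ)) (fun t => F (s + t)) (T.card * N) := by
      intro s hs hcs
      have := ih (F := fun t => F (s + t)) (C := C * G s)
        (fun σ hσ => hc σ (hT σ hσ))
        (fun σ hσ σ' hσ' hne => hd σ (hT σ hσ) σ' (hT σ' hσ') hne)
        (MeasF.add hF s)
        (fun ss hss => by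
          have key := h (Function.update ss τ s) (by
            intro σ hσ
            rcases Finset.mem_insert.1 hσ with rfl | hσ'
            · simpa using ⟨hs, hcs⟩
            · have hne : σ ≠ τ := fun e => hτ (e ▸ hσ')
              simpa [Function.update_of_ne hne] using hss σ hσ')
          rw [Finset.prod_insert hτ, Finset.sum_insert hτ, Function.update_self] at key
          have e1 : ∏ σ ∈ T, G (Function.update ss τ s σ) = ∏ σ ∈ T, G (ss σ) :=
            Finset.prod_congr rfl fun σ hσ => by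
              have hne : σ ≠ τ := fun e => hτ (e ▸ hσ)
              rw [Function.update_of_ne hne]
          have e2 : ∑ σ ∈ T, Function.update ss τ s σ = ∑ σ ∈ T, ss σ :=
            Finset.sum_congr rfl fun σ hσ => by
              have hne : σ ≠ τ := fun e => hτ (e ▸ hσ)
              rw [Function.update_of_ne hne]
          rw [e1, e2] at key
          calc C * G s * ∏ σ ∈ T, G (ss σ) = C * (G s * ∏ σ ∈ T, G (ss σ)) := by ring
            _ ≤ _ := key)
      calc (C * Pi0) * G s = C * G s * Pi0 := by ring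
        _ ≤ _ := this
    have hmono := J_mono_on (μ := μ) hA (F := fun s => (C * Pi0) * G s)
      (G := fun s => J (μ.restrict (⋃ σ ∈ T, c σ)) (fun t => F (s + t)) (T.card * N)) (N := N)
      hinner
    rw [J_const_mul _ hG] at hmono
    calc C * (J (μ.restrict (c τ)) G N * Pi0) = C * Pi0 * J (μ.restrict (c τ)) G N := by ring
      _ ≤ _ := hmono

end Restrict

end Vale.Agent.Lib.P171
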