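import Vale.Agent.Lib.P171.Base

/-!
The induction: a sequence of attractions of rapidly growing radii with sharper and sharper near jumps
of the pressure.
-/

set_option linter.unusedSectionVars false
set_option linter.unusedSimpArgs false
set_option linter.unusedVariables false

open MeasureTheory Set Filter Topology
open scoped ENNReal BigOperators

namespace Vale.Agent.Lib.P171

/-- Strength of the `n`-th additional attraction. -/
noncomputable def aT (n : ℕ) : ℝ := (1 / 2) ^ (n + 31)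
/-- Scale of the `n`-th near jump. -/
noncomputable def hT (n : ℕ) : ℝ := aT n / 1024
/-- Lower slope of the `n`-th near jump. -/
noncomputable def r1 (n : ℕ) : ℝ := 1 / 256 + (1 / 1024) * (1 - (1 / 2) ^ (n + 1))
/-- Upper slope of the `n`-th near jump. -/
noncomputable def r2 (n : ℕ) : ℝ := 1 / 64 - (1 / 1024) * (1 - (1 / 2) ^ (n + 1))
/-- Loss of the slopes in the `n`-th step. -/
noncomputable def eT (n : ℕ) : ℝ := (1 / 1024) * (1 / 2) ^ (n + 2)
/-- Total strength of the attractions up to step `n`. -/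
noncomputable def cT (n : ℕ) : ℝ := 108 * (129 - (1 / 2) ^ n)

lemma aT_pos (n : ℕ) : 0 < aT n := by unfold aT; positivity
lemma hT_pos (n : ℕ) : 0 < hT n := by unfold hT; have := aT_pos n; positivity

/-- The invariant of the induction. -/
structure Inv (n : ℕ) (W : ℝ → ℝ) (ν : ℝ) : Prop where
  attr : Attr W (cT n)
  rng : ∃ r, Rng W r
  le : ν ≤ 1 - (1 / 2) ^ n
  nj : NJ (Pres (pot W)) ν (hT n) (r1 n) (r2 n)

lemma inv_base : ∃ R : ℝ, 1 ≤ R ∧ ∃ ν, Inv 0 (hat 128 R) ν := by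
  have hh0 : hT 0 ≤ 1 := by
    unfold hT aT
    norm_num
  obtain ⟨R, hR, ν, hν, hnj⟩ := base (hT_pos 0) hh0 (by norm_num : (0 : ℝ) < 1 / 2048)
  refine ⟨R, hR, ν, ?_, ⟨R, Rng_hat _ _⟩, by simpa using hν, ?_⟩
  · have := Attr_hat (a := 128) (by norm_num) hR
    refine this.mono ?_
    unfold cT
    norm_num
  · have e : (fun x => core 131072 x - w₀ x - hat 128 R x) = pot (hat 128 R) := by
      funext x
      simp [pot]
    rw [e] at hnj
    have e1 : r1 0 = 1 / 256 + 1 / 2048 := by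
      unfold r1
      norm_num
    have e2 : r2 0 = 1 / 64 - 1 / 2048 := by
      unfold r2
      norm_num
    rw [e1, e2]
    exact hnj

lemma inv_step {n : ℕ} {W : ℝ → ℝ} {ν : ℝ} (h : Inv n W ν) :
    ∃ R : ℝ, 1 ≤ R ∧ ∃ ν', |ν' - ν| ≤ (1 / 2) ^ (n + 12) ∧
      Inv (n + 1) (fun x => W x + hat (aT n) R x) ν' := by
  obtain ⟨hA, ⟨r, hr⟩, hle, hnj⟩ := h
  set p : ℝ := (1 / 2) ^ n with hp
  have hp0 : 0 < p := by positivity
  have hp1 : p ≤ 1 := pow_le_one₀ (by norm_num) (by norm_num)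
  have ea : aT n = p * (1 / 2) ^ 31 := by
    unfold aT
    rw [pow_add]
  have ea' : aT (n + 1) = p * (1 / 2) ^ 32 := by
    unfold aT
    rw [show n + 1 + 31 = n + 32 by ring, pow_add]
  have eh : hT n = p * (1 / 2) ^ 31 / 1024 := by
    unfold hT
    rw [ea]
  have eh' : hT (n + 1) = p * (1 / 2) ^ 32 / 1024 := by
    unfold hT
    rw [ea']
  have e12 : ((1 : ℝ) / 2) ^ (n + 12) = p * (1 / 2) ^ 12 := by
    rw [pow_add]
  have e1 : ((1 : ℝ) / 2) ^ (n + 1) = p * (1 / 2) := by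
    rw [pow_add, pow_one]
  have e2 : ((1 : ℝ) / 2) ^ (n + 1 + 1) = p * (1 / 4) := by
    rw [show n + 1 + 1 = n + 2 by ring, pow_add, ← hp]
    norm_num
  have e2' : ((1 : ℝ) / 2) ^ (n + 2) = p * (1 / 4) := by
    rw [pow_add, ← hp]
    norm_num
  have hc0 : 0 ≤ cT n := by
    unfold cT
    rw [← hp]
    nlinarith
  have hc : cT n ≤ 16384 := by
    unfold cT
    rw [← hp]
    nlinarith
  have ha0 : 0 ≤ aT n := (aT_pos n).le
  have ha' : aT n ≤ 128 := by
    rw [ea]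
    norm_num
    linarith
  have hcA : cT n + 108 * aT n ≤ 65536 := by
    unfold cT
    rw [← hp]
    linarith
  have hη : 0 < eT n := by
    unfold eT
    positivity
  have hgap : 1 / 128 + eT n ≤ r2 n - r1 n := by
    unfold eT r1 r2
    rw [e1, e2']
    linarith
  have hha : hT n ≤ aT n / 512 := by
    unfold hT
    linarith [aT_pos n]
  have hδ : 128 * (64 * hT n + 2048 * aT n) ≤ p * (1 / 2) ^ 12 := by
    rw [eh, ea]
    norm_num
    linarith
  have hν : ν + 128 * (64 * hT n + 2048 * aT n) + hT (n + 1) ≤ 4096 := by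
    rw [eh', ea, eh]
    norm_num
    norm_num at hle
    linarith
  have hν' : ν + hT n ≤ 4096 := by
    rw [eh]
    norm_num
    linarith
  obtain ⟨R, hR, ν', hd, hnj'⟩ := step hA hc0 hc hr ha0 ha' hcA (hT_pos n) (hT_pos (n + 1)) hnj hη
    hgap hha hν hν'
  refine ⟨R, hR, ν', ?_, ?_⟩
  · rw [e12]
    exact hd.trans hδ
  refine ⟨?_, ⟨_, hr.add (Rng_hat _ _)⟩, ?_, ?_⟩
  · refine (hA.add (Attr_hat ha0 hR)).mono ?_
    unfold cT
    rw [← hp, ea, show n + 1 = n + 1 from rfl, e1]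
    norm_num
    linarith
  · have h1 := (abs_le.1 (hd.trans hδ)).2
    rw [e1]
    norm_num at h1 ⊢
    linarith
  · rw [pot_sub_hat] at hnj'
    have e3 : r1 (n + 1) = r1 n + eT n := by
      unfold r1 eT
      rw [e2, e1]
      ring
    have e4 : r2 (n + 1) = r2 n - eT n := by
      unfold r2 eT
      rw [e2, e1]
      ring
    rw [e3, e4]
    exact hnj'

/-- The whole sequence. -/
theorem exists_sequence : ∃ (Rb : ℝ) (R : ℕ → ℝ) (W : ℕ → ℝ → ℝ) (ν : ℕ → ℝ),
    1 ≤ Rb ∧ (∀ n, 1 ≤ R n) ∧ W 0 = hat 128 Rb ∧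
    (∀ n, W (n + 1) = fun x => W n x + hat (aT n) (R n) x) ∧
    (∀ n, Inv n (W n) (ν n)) ∧ ∀ n, |ν (n + 1) - ν n| ≤ (1 / 2) ^ (n + 12) := by
  classical
  obtain ⟨Rb, hRb, ν₀, h₀⟩ := inv_base
  let St := fun n : ℕ => {p : (ℝ → ℝ) × ℝ // Inv n p.1 p.2}
  have hstep : ∀ (n : ℕ) (p : St n), ∃ (q : St (n + 1)) (R : ℝ), 1 ≤ R ∧
      q.1.1 = (fun x => p.1.1 x + hat (aT n) R x) ∧ |q.1.2 - p.1.2| ≤ (1 / 2) ^ (n + 12) := by
    intro n p
    obtain ⟨R, hR, ν', hd, hinv⟩ := inv_step p.2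
    exact ⟨⟨(_, ν'), hinv⟩, R, hR, rfl, hd⟩
  choose next Rn hRn hnext hdist using hstep
  let seq : (n : ℕ) → St n := fun n =>
    Nat.rec (motive := St) ⟨(hat 128 Rb, ν₀), h₀⟩ (fun n p => next n p) n
  refine ⟨Rb, fun n => Rn n (seq n), fun n => (seq n).1.1, fun n => (seq n).1.2, hRb,
    fun n => hRn n (seq n), rfl, fun n => hnext n (seq n), fun n => (seq n).2,
    fun n => hdist n (seq n)⟩

end Vale.Agent.Lib.P171
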