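import Vale.Agent.Lib.P171.Iterate

/-!
The limiting potential and the corner of its pressure.
-/

set_option linter.unusedSectionVars false
set_option linter.unusedSimpArgs false
set_option linter.unusedVariables false

open MeasureTheory Set Filter Topology
open scoped ENNReal BigOperators

namespace Vale.Agent.Lib.P171

/-! ### Abstract facts about convex functions -/

section Convex

variable {f : ℝ → ℝ}

/-- Slopes of a convex function, from a near jump. -/
lemma slope_right (hconv : ∀ x y t : ℝ, 0 ≤ t → t ≤ 1 → f ((1 - t) * x + t * y) ≤ (1 - t) * f x + t * f y)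
    {ν h ρ d : ℝ} (hh : 0 < h) (hd : h ≤ d) (h1 : f ν + h * ρ ≤ f (ν + h)) :
    f ν + d * ρ ≤ f (ν + d) := by
  have hd0 : 0 < d := by linarith
  have ht0 : 0 ≤ h / d := by positivity
  have ht1 : h / d ≤ 1 := by
    rw [div_le_one hd0]
    exact hd
  have h2 := hconv ν (ν + d) (h / d) ht0 ht1
  have e : (1 - h / d) * ν + h / d * (ν + d) = ν + h := by
    field_simp
    ring
  rw [e] at h2
  have h3 : h * ρ ≤ h / d * (f (ν + d) - f ν) := by
    have e2 : (1 - h / d) * f ν + h / d * f (ν + d) = f ν + h / d * (f (ν + d) - f ν) := by ring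
    rw [e2] at h2
    linarith
  have h4 : h * (d * ρ) ≤ h * (f (ν + d) - f ν) := by
    have h5 := mul_le_mul_of_nonneg_left h3 hd0.le
    have e3 : d * (h * ρ) = h * (d * ρ) := by ring
    have e4 : d * (h / d * (f (ν + d) - f ν)) = h * (f (ν + d) - f ν) := by
      field_simp
    rw [e3, e4] at h5
    exact h5
  have h6 := le_of_mul_le_mul_left h4 hh
  linarith

lemma slope_left (hconv : ∀ x y t : ℝ, 0 ≤ t → t ≤ 1 → f ((1 - t) * x + t * y) ≤ (1 - t) * f x + t * f y)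
    {ν h ρ d : ℝ} (hh : 0 < h) (hd : h ≤ d) (h1 : f ν - h * ρ ≤ f (ν - h)) :
    f ν - d * ρ ≤ f (ν - d) := by
  have hd0 : 0 < d := by linarith
  have ht0 : 0 ≤ h / d := by positivity
  have ht1 : h / d ≤ 1 := by
    rw [div_le_one hd0]
    exact hd
  have h2 := hconv ν (ν - d) (h / d) ht0 ht1
  have e : (1 - h / d) * ν + h / d * (ν - d) = ν - h := by
    field_simp
    ring
  rw [e] at h2
  have h3 : -(h * ρ) ≤ h / d * (f (ν - d) - f ν) := by
    have e2 : (1 - h / d) * f ν + h / d * f (ν - d) = f ν + h / d * (f (ν - d) - f ν) := by ring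
    rw [e2] at h2
    linarith
  have h4 : h * (-(d * ρ)) ≤ h * (f (ν - d) - f ν) := by
    have h5 := mul_le_mul_of_nonneg_left h3 hd0.le
    have e3 : d * (-(h * ρ)) = h * (-(d * ρ)) := by ring
    have e4 : d * (h / d * (f (ν - d) - f ν)) = h * (f (ν - d) - f ν) := by
      field_simp
    rw [e3, e4] at h5
    exact h5
  have h6 := le_of_mul_le_mul_left h4 hh
  linarith

/-- Local Lipschitz bound of a nonnegative convex function. -/
lemma lipschitz_of_convex
    (hconv : ∀ x y t : ℝ, 0 ≤ t → t ≤ 1 → f ((1 - t) * x + t * y) ≤ (1 - t) * f x + t * f y)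
    (hnn : ∀ x, 0 ≤ f x) {x y : ℝ} (hxy : x ≤ y) : f y - f x ≤ (y - x) * f (y + 1) := by
  have hpos : 0 < y + 1 - x := by linarith
  have ht0 : 0 ≤ (y - x) / (y + 1 - x) := div_nonneg (by linarith) hpos.le
  have ht1 : (y - x) / (y + 1 - x) ≤ 1 := by
    rw [div_le_one hpos]
    linarith
  have h2 := hconv x (y + 1) _ ht0 ht1
  have e : (1 - (y - x) / (y + 1 - x)) * x + (y - x) / (y + 1 - x) * (y + 1) = y := by
    field_simp
    ring
  rw [e] at h2
  have h3 : (y - x) / (y + 1 - x) ≤ y - x := by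
    refine div_le_self (by linarith) ?_
    linarith
  have h4 := hnn x
  have h5 := hnn (y + 1)
  have h6 : (y - x) / (y + 1 - x) * f (y + 1) ≤ (y - x) * f (y + 1) :=
    mul_le_mul_of_nonneg_right h3 h5
  have h7 : 0 ≤ (y - x) / (y + 1 - x) * f x := mul_nonneg ht0 h4
  nlinarith

end Convex

/-- Convexity of the pressure in the activity. -/
lemma Pres_convex {φ : ℝ → ℝ} {B : ℝ} (h : Reg φ B) (x y t : ℝ) (h0 : 0 ≤ t) (h1 : t ≤ 1) :
    Pres φ ((1 - t) * x + t * y) ≤ (1 - t) * Pres φ x + t * Pres φ y :=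
  Pres_holder h h h h0 h1 (fun r => by ring) x y

lemma Pres_mono {φ : ℝ → ℝ} {B : ℝ} (h : Reg φ B) {x y : ℝ} (hxy : x ≤ y) : Pres φ x ≤ Pres φ y :=
  Pres_anti h h (fun _ => le_rfl) hxy

/-! ### The limiting potential -/

section Limit

variable {Rb : ℝ} {R : ℕ → ℝ}

lemma sum_aT (n m : ℕ) : ∑ k ∈ Finset.range m, aT (k + n) = (1 / 2) ^ (n + 30) * (1 - (1 / 2) ^ m) := by
  induction m with
  | zero => simp
  | succ m ih =>
    rw [Finset.sum_range_succ, ih]
    unfold aT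
    rw [show m + n + 31 = (n + 30) + (m + 1) by ring, pow_add ((1 : ℝ) / 2) (n + 30) (m + 1),
      pow_succ ((1 : ℝ) / 2) m]
    ring

lemma sum_aT_le (n m : ℕ) : ∑ k ∈ Finset.range m, aT (k + n) ≤ (1 / 2) ^ (n + 30) := by
  rw [sum_aT]
  have h1 : (0 : ℝ) < (1 / 2) ^ (n + 30) := by positivity
  have h2 : (0 : ℝ) < (1 / 2) ^ m := by positivity
  nlinarith

lemma hat_aT_nonneg (hR : ∀ n, 1 ≤ R n) (k : ℕ) (x : ℝ) : 0 ≤ hat (aT k) (R k) x :=
  hat_nonneg (aT_pos k).le (zero_le_one.trans (hR k)) x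

lemma summable_aT (n : ℕ) : Summable fun k => aT (k + n) := by
  have h : Summable fun k : ℕ => ((1 : ℝ) / 2) ^ k := summable_geometric_of_lt_one (by norm_num)
    (by norm_num)
  refine (h.mul_right ((1 / 2) ^ (n + 31))).congr fun k => ?_
  unfold aT
  rw [show k + n + 31 = k + (n + 31) by ring, pow_add ((1 : ℝ) / 2) k (n + 31)]

lemma summable_hat (hR : ∀ n, 1 ≤ R n) (n : ℕ) (x : ℝ) :
    Summable fun k => hat (aT (k + n)) (R (k + n)) x := by
  have hom := omega_pos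
  refine Summable.of_nonneg_of_le (fun k => hat_aT_nonneg hR (k + n) x)
    (fun k => hat_le (aT_pos (k + n)).le (hR (k + n)) x) ((summable_aT n).div_const omega)

/-- The tail of the attraction. -/
noncomputable def tailW (R : ℕ → ℝ) (n : ℕ) (x : ℝ) : ℝ := ∑' k, hat (aT (k + n)) (R (k + n)) x

lemma partial_attr (hR : ∀ n, 1 ≤ R n) (n m : ℕ) :
    Attr (fun x => ∑ k ∈ Finset.range m, hat (aT (k + n)) (R (k + n)) x)
      (108 * ∑ k ∈ Finset.range m, aT (k + n)) := by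
  induction m with
  | zero =>
    simpa using Attr_zero
  | succ m ih =>
    simp only [Finset.sum_range_succ]
    have h := ih.add (Attr_hat (aT_pos (m + n)).le (hR (m + n)))
    refine h.mono (le_of_eq ?_)
    ring

lemma attr_tail (hR : ∀ n, 1 ≤ R n) (n : ℕ) : Attr (tailW R n) (108 * (1 / 2) ^ (n + 30)) := by
  refine Attr_of_limit (W := fun m x => ∑ k ∈ Finset.range m, hat (aT (k + n)) (R (k + n)) x)
    (fun m => (partial_attr hR n m).mono ?_) (fun x => (summable_hat hR n x).hasSum.tendsto_sum_nat)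
  have := sum_aT_le n m
  linarith

lemma tailW_nonneg (hR : ∀ n, 1 ≤ R n) (n : ℕ) (x : ℝ) : 0 ≤ tailW R n x :=
  tsum_nonneg fun k => hat_aT_nonneg hR (k + n) x

/-- The full attraction. -/
noncomputable def wLim (Rb : ℝ) (R : ℕ → ℝ) (x : ℝ) : ℝ := hat 128 Rb x + tailW R 0 x

/-- The partial attractions. -/
noncomputable def wPart (Rb : ℝ) (R : ℕ → ℝ) (n : ℕ) (x : ℝ) : ℝ :=
  hat 128 Rb x + ∑ k ∈ Finset.range n, hat (aT k) (R k) x

lemma wLim_eq (hR : ∀ n, 1 ≤ R n) (n : ℕ) (x : ℝ) :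
    wLim Rb R x = wPart Rb R n x + tailW R n x := by
  have h := (summable_hat hR 0 x).sum_add_tsum_nat_add n
  simp only [add_zero] at h
  unfold wLim wPart tailW
  simp only [add_zero]
  rw [← h, add_assoc]

lemma attr_wPart (hRb : 1 ≤ Rb) (hR : ∀ n, 1 ≤ R n) (n : ℕ) :
    Attr (wPart Rb R n) (108 * (128 + 1)) := by
  have h1 := Attr_hat (a := 128) (by norm_num) hRb
  have h2 := partial_attr hR 0 n
  simp only [add_zero] at h2
  refine (h1.add h2).mono ?_
  have h3 := sum_aT_le 0 n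
  simp only [add_zero] at h3
  norm_num at h3 ⊢
  linarith

lemma attr_wLim (hRb : 1 ≤ Rb) (hR : ∀ n, 1 ≤ R n) : Attr (wLim Rb R) (108 * (128 + 1)) := by
  refine Attr_of_limit (W := wPart Rb R) (attr_wPart hRb hR) fun x => ?_
  have h := (summable_hat hR 0 x).hasSum.tendsto_sum_nat
  simp only [add_zero] at h
  exact tendsto_const_nhds.add h

lemma wLim_le (hRb : 1 ≤ Rb) (hR : ∀ n, 1 ≤ R n) (x : ℝ) : wLim Rb R x ≤ 129 / omega := by
  have hom := omega_pos
  have h1 : hat 128 Rb x ≤ 128 / omega := hat_le (by norm_num) hRb x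
  have h2 : tailW R 0 x ≤ 1 / omega := by
    refine (summable_hat hR 0 x).tsum_le_of_sum_range_le fun m => ?_
    have h3 : ∑ k ∈ Finset.range m, hat (aT (k + 0)) (R (k + 0)) x
        ≤ ∑ k ∈ Finset.range m, aT (k + 0) / omega :=
      Finset.sum_le_sum fun k _ => hat_le (aT_pos _).le (hR _) x
    refine h3.trans ?_
    rw [← Finset.sum_div]
    refine div_le_div_of_nonneg_right ?_ hom.le
    refine (sum_aT_le 0 m).trans ?_
    norm_num
  unfold wLim
  have e : 129 / omega = 128 / omega + 1 / omega := by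
    field_simp
    norm_num
  rw [e]
  exact add_le_add h1 h2

lemma reg_wLim (hRb : 1 ≤ Rb) (hR : ∀ n, 1 ≤ R n) : Reg (pot (wLim Rb R)) 65536 :=
  reg_pot' (attr_wLim hRb hR) (by norm_num)

lemma reg_wPart (hRb : 1 ≤ Rb) (hR : ∀ n, 1 ≤ R n) (n : ℕ) : Reg (pot (wPart Rb R n)) 65536 :=
  reg_pot' (attr_wPart hRb hR n) (by norm_num)

/-- The partial pressures are below the limiting one. -/
lemma Pres_part_le (hRb : 1 ≤ Rb) (hR : ∀ n, 1 ≤ R n) (n : ℕ) (ν : ℝ) :
    Pres (pot (wPart Rb R n)) ν ≤ Pres (pot (wLim Rb R)) ν := by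
  refine Pres_anti (reg_wLim hRb hR) (reg_wPart hRb hR n) (fun r => ?_) le_rfl
  simp only [pot]
  rw [wLim_eq hR n r]
  linarith [tailW_nonneg hR n r]

/-- The limiting pressure is not much larger. -/
lemma Pres_lim_le (hRb : 1 ≤ Rb) (hR : ∀ n, 1 ≤ R n) (n : ℕ) (ν : ℝ) :
    Pres (pot (wLim Rb R)) ν
      ≤ Pres (pot (wPart Rb R n)) ν + (1 / 2) ^ (n + 30) * Real.exp (ν + 65536) := by
  set t : ℝ := (1 / 2) ^ (n + 30) with ht
  have ht0 : 0 < t := by positivity
  have ht1 : t ≤ 1 := pow_le_one₀ (by norm_num) (by norm_num)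
  have hA : Attr (fun x => wPart Rb R n x + (1 / t) * tailW R n x) (108 * (128 + 1) + 108) := by
    refine ((attr_wPart hRb hR n).add ((attr_tail hR n).const_mul (by positivity))).mono ?_
    have e : 1 / t * (108 * (1 / 2) ^ (n + 30)) = 108 := by
      rw [← ht]
      field_simp
    rw [e]
  have hreg₂ := reg_pot' hA (by norm_num)
  have hP := Pres_holder (reg_wLim hRb hR) (reg_wPart hRb hR n) hreg₂ ht0.le ht1 (fun r => by
    simp only [pot]
    rw [wLim_eq hR n r]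
    field_simp
    ring) ν ν
  have e : (1 - t) * ν + t * ν = ν := by ring
  rw [e] at hP
  refine hP.trans ?_
  have h1 := Pres_le_exp hreg₂ ν
  have h2 := Pres_nonneg (reg_wPart hRb hR n) ν
  have h3 : t * Pres (pot fun x => wPart Rb R n x + 1 / t * tailW R n x) ν
      ≤ t * Real.exp (ν + 65536) := mul_le_mul_of_nonneg_left h1 ht0.le
  nlinarith

lemma tendsto_half_pow (k : ℕ) : Tendsto (fun n : ℕ => ((1 : ℝ) / 2) ^ (n + k)) atTop (𝓝 0) := by
  have h := tendsto_pow_atTop_nhds_zero_of_lt_one (by norm_num : (0 : ℝ) ≤ 1 / 2) (by norm_num)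
  exact h.comp (tendsto_add_atTop_nat k)

/-- Convergence of the partial pressures. -/
lemma tendsto_Pres_part (hRb : 1 ≤ Rb) (hR : ∀ n, 1 ≤ R n) (ν : ℝ) :
    Tendsto (fun n => Pres (pot (wPart Rb R n)) ν) atTop (𝓝 (Pres (pot (wLim Rb R)) ν)) := by
  have h1 : Tendsto (fun n : ℕ => Pres (pot (wLim Rb R)) ν
      - (1 / 2) ^ (n + 30) * Real.exp (ν + 65536)) atTop
      (𝓝 (Pres (pot (wLim Rb R)) ν - 0 * Real.exp (ν + 65536))) :=
    tendsto_const_nhds.sub ((tendsto_half_pow 30).mul_const _)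
  rw [zero_mul, sub_zero] at h1
  refine tendsto_of_tendsto_of_tendsto_of_le_of_le h1 tendsto_const_nhds (fun n => ?_)
    (fun n => Pres_part_le hRb hR n ν)
  have := Pres_lim_le hRb hR n ν
  simp only
  linarith

end Limit

/-- The estimate for one partial pressure at the limit point. -/
lemma kink_step {f : ℝ → ℝ}
    (hconv : ∀ x y t : ℝ, 0 ≤ t → t ≤ 1 → f ((1 - t) * x + t * y) ≤ (1 - t) * f x + t * f y)
    (hmono : ∀ x y : ℝ, x ≤ y → f x ≤ f y) (hnn : ∀ x, 0 ≤ f x) {x h d ν δ K ρ₁ ρ₂ ρ₁' ρ₂' : ℝ}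
    (hNJ : NJ f x h ρ₁ ρ₂) (hh : 0 < h) (hδ : |x - ν| ≤ δ) (hd : h + δ ≤ d) (hK : f (ν + 1) ≤ K)
    (h₂ : ρ₂' ≤ ρ₂) (h₂0 : 0 ≤ ρ₂') (h₁ : ρ₁ ≤ ρ₁') (h₁0 : 0 ≤ ρ₁) :
    f ν - K * δ + (d - δ) * ρ₂' ≤ f (ν + d) ∧ f ν - K * δ - (d + δ) * ρ₁' ≤ f (ν - d) := by
  have hδ0 : 0 ≤ δ := (abs_nonneg _).trans hδ
  have hK0 : 0 ≤ K := (hnn _).trans hK
  obtain ⟨hx1, hx2⟩ := abs_le.1 hδ
  have hbase : f ν ≤ f x + K * δ := by
    by_cases hc : ν ≤ x
    · have := hmono _ _ hc
      have : 0 ≤ K * δ := mul_nonneg hK0 hδ0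
      linarith
    · push Not at hc
      have h1 := lipschitz_of_convex hconv hnn hc.le
      have h2 : (ν - x) * f (ν + 1) ≤ δ * K := by
        refine mul_le_mul (by linarith) hK (hnn _) hδ0
      nlinarith
  constructor
  · have hd' : h ≤ ν + d - x := by linarith
    have h1 := slope_right hconv hh hd' hNJ.1
    have e : x + (ν + d - x) = ν + d := by ring
    rw [e] at h1
    have h2 : (d - δ) * ρ₂' ≤ (ν + d - x) * ρ₂ :=
      mul_le_mul (by linarith) h₂ h₂0 (by linarith)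
    linarith
  · have hd' : h ≤ x - ν + d := by linarith
    have h1 := slope_left hconv hh hd' hNJ.2
    have e : x - (x - ν + d) = ν - d := by ring
    rw [e] at h1
    have h2 : (x - ν + d) * ρ₁ ≤ (d + δ) * ρ₁' :=
      mul_le_mul (by linarith) h₁ h₁0 (by linarith)
    linarith

lemma r2_ge (n : ℕ) : 15 / 1024 ≤ r2 n := by
  unfold r2
  have h : (0 : ℝ) < (1 / 2) ^ (n + 1) := by positivity
  norm_num
  linarith

lemma r1_le (n : ℕ) : r1 n ≤ 5 / 1024 := by
  unfold r1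
  have h : (0 : ℝ) < (1 / 2) ^ (n + 1) := by positivity
  norm_num
  linarith

lemma r1_nonneg (n : ℕ) : 0 ≤ r1 n := by
  unfold r1
  have h : ((1 : ℝ) / 2) ^ (n + 1) ≤ 1 := pow_le_one₀ (by norm_num) (by norm_num)
  have : (0 : ℝ) ≤ 1 / 1024 * (1 - (1 / 2) ^ (n + 1)) := by
    refine mul_nonneg (by norm_num) (by linarith)
  linarith

/-- The main theorem on the pressure: a corner in the limiting pressure. -/
theorem exists_kink : ∃ (Rb : ℝ) (R : ℕ → ℝ) (ν : ℝ), 1 ≤ Rb ∧ (∀ n, 1 ≤ R n) ∧ ∀ d : ℝ, 0 < d →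
    Pres (pot (wLim Rb R)) ν + d * (15 / 1024) ≤ Pres (pot (wLim Rb R)) (ν + d) ∧
    Pres (pot (wLim Rb R)) ν - d * (5 / 1024) ≤ Pres (pot (wLim Rb R)) (ν - d) := by
  obtain ⟨Rb, R, W, νs, hRb, hR, hW0, hWs, hinv, hdist⟩ := exists_sequence
  have hWeq : ∀ n, W n = wPart Rb R n := by
    intro n
    induction n with
    | zero =>
      rw [hW0]
      funext x
      simp [wPart]
    | succ n ih =>
      rw [hWs, ih]
      funext x
      simp only [wPart, Finset.sum_range_succ]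
      ring
  have hgeo : ∀ n, dist (νs n) (νs (n + 1)) ≤ (1 / 2) ^ 12 * (1 / 2) ^ n := by
    intro n
    rw [dist_comm, Real.dist_eq, mul_comm, ← pow_add]
    exact hdist n
  have hcauchy := cauchySeq_of_le_geometric (1 / 2 : ℝ) ((1 / 2) ^ 12) (by norm_num) hgeo
  obtain ⟨ν, hν⟩ := cauchySeq_tendsto_of_complete hcauchy
  have hδ : ∀ n, |νs n - ν| ≤ (1 / 2) ^ (n + 11) := by
    intro n
    have h := dist_le_of_le_geometric_of_tendsto (1 / 2 : ℝ) ((1 / 2) ^ 12) (by norm_num) hgeo hν n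
    rw [Real.dist_eq] at h
    refine h.trans (le_of_eq ?_)
    rw [pow_add]
    norm_num
    ring
  refine ⟨Rb, R, ν, hRb, hR, fun d hd => ?_⟩
  set K := Real.exp (ν + 1 + 65536) with hK
  have hf : ∀ n, (Pres (pot (wPart Rb R n)) (ν + 1) ≤ K) ∧
      (∀ x y t : ℝ, 0 ≤ t → t ≤ 1 → Pres (pot (wPart Rb R n)) ((1 - t) * x + t * y)
        ≤ (1 - t) * Pres (pot (wPart Rb R n)) x + t * Pres (pot (wPart Rb R n)) y) ∧
      (∀ x y : ℝ, x ≤ y → Pres (pot (wPart Rb R n)) x ≤ Pres (pot (wPart Rb R n)) y) ∧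
      (∀ x, 0 ≤ Pres (pot (wPart Rb R n)) x) := fun n =>
    ⟨Pres_le_exp (reg_wPart hRb hR n) _, Pres_convex (reg_wPart hRb hR n),
      fun x y hxy => Pres_mono (reg_wPart hRb hR n) hxy, Pres_nonneg (reg_wPart hRb hR n)⟩
  have hev : ∀ᶠ n : ℕ in atTop, hT n + (1 / 2) ^ (n + 11) ≤ d := by
    have h1 : Tendsto (fun n : ℕ => hT n + ((1 : ℝ) / 2) ^ (n + 11)) atTop (𝓝 (0 / 1024 + 0)) := by
      refine Tendsto.add ?_ (tendsto_half_pow 11)
      exact (tendsto_half_pow 31).div_const 1024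
    have e : (0 : ℝ) / 1024 + 0 = 0 := by norm_num
    rw [e] at h1
    exact (h1.eventually (gt_mem_nhds hd)).mono fun n h => h.le
  have hbound : ∀ᶠ n : ℕ in atTop,
      Pres (pot (wPart Rb R n)) ν - K * (1 / 2) ^ (n + 11) + (d - (1 / 2) ^ (n + 11)) * (15 / 1024)
        ≤ Pres (pot (wPart Rb R n)) (ν + d) ∧
      Pres (pot (wPart Rb R n)) ν - K * (1 / 2) ^ (n + 11) - (d + (1 / 2) ^ (n + 11)) * (5 / 1024)
        ≤ Pres (pot (wPart Rb R n)) (ν - d) := by
    filter_upwards [hev] with n hn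
    obtain ⟨hf1, hf2, hf3, hf4⟩ := hf n
    have hnj := (hinv n).nj
    rw [hWeq n] at hnj
    exact kink_step hf2 hf3 hf4 hnj (hT_pos n) (hδ n) hn hf1 (r2_ge n) (by norm_num) (r1_le n)
      (r1_nonneg n)
  have hlimδ := tendsto_half_pow 11
  constructor
  · have hlim : Tendsto (fun n : ℕ => Pres (pot (wPart Rb R n)) ν - K * (1 / 2) ^ (n + 11)
        + (d - (1 / 2) ^ (n + 11)) * (15 / 1024)) atTop
        (𝓝 (Pres (pot (wLim Rb R)) ν - K * 0 + (d - 0) * (15 / 1024))) :=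
      ((tendsto_Pres_part hRb hR ν).sub (hlimδ.const_mul K)).add
        ((tendsto_const_nhds.sub hlimδ).mul_const _)
    have := le_of_tendsto_of_tendsto hlim (tendsto_Pres_part hRb hR (ν + d))
      (hbound.mono fun n h => h.1)
    simpa using this
  · have hlim : Tendsto (fun n : ℕ => Pres (pot (wPart Rb R n)) ν - K * (1 / 2) ^ (n + 11)
        - (d + (1 / 2) ^ (n + 11)) * (5 / 1024)) atTop
        (𝓝 (Pres (pot (wLim Rb R)) ν - K * 0 - (d + 0) * (5 / 1024))) :=
      ((tendsto_Pres_part hRb hR ν).sub (hlimδ.const_mul K)).sub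
        ((tendsto_const_nhds.add hlimδ).mul_const _)
    have := le_of_tendsto_of_tendsto hlim (tendsto_Pres_part hRb hR (ν - d))
      (hbound.mono fun n h => h.2)
    simpa using this

/-- A function with such a corner is not differentiable. -/
lemma not_differentiable_of_kink {f : ℝ → ℝ} {ν ρ₁ ρ₂ : ℝ} (hρ : ρ₁ < ρ₂)
    (h : ∀ d : ℝ, 0 < d → f ν + d * ρ₂ ≤ f (ν + d) ∧ f ν - d * ρ₁ ≤ f (ν - d)) :
    ¬ DifferentiableAt ℝ f ν := by
  intro hdiff
  have hder := hdiff.hasDerivAt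
  have h1 := hder.tendsto_slope_zero_right
  have h2 := hder.tendsto_slope_zero_left
  have h3 : ρ₂ ≤ deriv f ν := by
    refine ge_of_tendsto h1 ?_
    filter_upwards [self_mem_nhdsWithin] with d hd
    have hd0 : (0 : ℝ) < d := hd
    have h4 := (h d hd0).1
    simp only [smul_eq_mul]
    rw [inv_mul_eq_div, le_div_iff₀ hd0]
    linarith
  have h5 : deriv f ν ≤ ρ₁ := by
    refine le_of_tendsto h2 ?_
    filter_upwards [self_mem_nhdsWithin] with d hd
    have hd0 : d < 0 := hd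
    have h4 := (h (-d) (by linarith)).2
    simp only [smul_eq_mul]
    rw [inv_mul_eq_div, div_le_iff_of_neg hd0]
    have e : ν - -d = ν + d := by ring
    rw [e] at h4
    linarith
  linarith

end Vale.Agent.Lib.P171
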