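import Mathlib

/-!
Upper envelopes of finite families of parabolas in the density: a pure real-variable lemma.
-/

set_option linter.unusedSectionVars false
set_option linter.unusedSimpArgs false
set_option linter.unusedVariables false

open Set Filter Topology

namespace Vale.Agent.Lib.P171

/-- A member of the family. -/
noncomputable def ln (a : ℝ) (y ρ : ℕ → ℝ) (N : ℕ) (ν : ℝ) : ℝ := y N + ν * ρ N + (a / 2) * ρ N ^ 2

/-- The upper envelope of a subfamily. -/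
noncomputable def env (a : ℝ) (y ρ : ℕ → ℝ) (S : Finset ℕ) (hS : S.Nonempty) (ν : ℝ) : ℝ :=
  S.sup' hS fun N => ln a y ρ N ν

lemma ln_le_env {a : ℝ} {y ρ : ℕ → ℝ} {S : Finset ℕ} (hS : S.Nonempty) {N : ℕ} (hN : N ∈ S) (ν : ℝ) :
    ln a y ρ N ν ≤ env a y ρ S hS ν :=
  Finset.le_sup' (fun N => ln a y ρ N ν) hN

lemma exists_argmax {a : ℝ} {y ρ : ℕ → ℝ} {S : Finset ℕ} (hS : S.Nonempty) (ν : ℝ) :
    ∃ N ∈ S, env a y ρ S hS ν = ln a y ρ N ν :=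
  Finset.exists_mem_eq_sup' hS _

lemma env_le {a : ℝ} {y ρ : ℕ → ℝ} {S : Finset ℕ} {hS : S.Nonempty} {ν x : ℝ}
    (h : ∀ N ∈ S, ln a y ρ N ν ≤ x) : env a y ρ S hS ν ≤ x :=
  Finset.sup'_le _ _ h

lemma ln_add (a : ℝ) (y ρ : ℕ → ℝ) (N : ℕ) (ν d : ℝ) :
    ln a y ρ N (ν + d) = ln a y ρ N ν + d * ρ N := by
  unfold ln; ring

lemma continuous_env (a : ℝ) (y ρ : ℕ → ℝ) (S : Finset ℕ) (hS : S.Nonempty) :
    Continuous (env a y ρ S hS) := by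
  have : env a y ρ S hS = S.sup' hS fun N => ln a y ρ N := by
    funext ν
    simp [env, Finset.sup'_apply]
  rw [this]
  refine Continuous.finset_sup' hS fun N _ => ?_
  unfold ln
  fun_prop

/-- Growth of an envelope whose slopes are bounded below. -/
lemma env_add_ge {a : ℝ} {y ρ : ℕ → ℝ} {S : Finset ℕ} (hS : S.Nonempty) {r : ℝ}
    (hr : ∀ N ∈ S, r ≤ ρ N) (ν : ℝ) {d : ℝ} (hd : 0 ≤ d) :
    env a y ρ S hS ν + d * r ≤ env a y ρ S hS (ν + d) := by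
  obtain ⟨N, hN, hNe⟩ := exists_argmax (a := a) (y := y) (ρ := ρ) hS ν
  have h1 := ln_le_env (a := a) (y := y) (ρ := ρ) hS hN (ν + d)
  rw [ln_add] at h1
  have h2 := mul_le_mul_of_nonneg_left (hr N hN) hd
  rw [hNe]
  linarith

/-- Growth of an envelope whose slopes are bounded above. -/
lemma env_add_le {a : ℝ} {y ρ : ℕ → ℝ} {S : Finset ℕ} (hS : S.Nonempty) {r : ℝ}
    (hr : ∀ N ∈ S, ρ N ≤ r) (ν : ℝ) {d : ℝ} (hd : 0 ≤ d) :
    env a y ρ S hS (ν + d) ≤ env a y ρ S hS ν + d * r := by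
  obtain ⟨N, hN, hNe⟩ := exists_argmax (a := a) (y := y) (ρ := ρ) hS (ν + d)
  have h1 := ln_le_env (a := a) (y := y) (ρ := ρ) hS hN ν
  rw [hNe, ln_add]
  have h2 := mul_le_mul_of_nonneg_left (hr N hN) hd
  linarith

/-- Crossing lemma: if the family splits into low and high slopes, all other members being dominated,
the envelope has a corner where the two parts cross. -/
theorem crossing {a : ℝ} {y ρ : ℕ → ℝ} {S T₁ T₂ : Finset ℕ} (hS : S.Nonempty)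
    (hT₁ : T₁.Nonempty) (hT₂ : T₂.Nonempty) (h₁S : T₁ ⊆ S) (h₂S : T₂ ⊆ S) {ρ₁ ρ₂ νa νb : ℝ}
    (h₁ : ∀ N ∈ T₁, ρ N ≤ ρ₁) (h₂ : ∀ N ∈ T₂, ρ₂ ≤ ρ N)
    (hdom : ∀ N ∈ S, ∀ ν, ln a y ρ N ν ≤ max (env a y ρ T₁ hT₁ ν) (env a y ρ T₂ hT₂ ν))
    (hν : νa ≤ νb) (hmi : env a y ρ T₂ hT₂ νa ≤ env a y ρ T₁ hT₁ νa)
    (hpl : env a y ρ T₁ hT₁ νb ≤ env a y ρ T₂ hT₂ νb) :
    ∃ ν_c ∈ Icc νa νb, ∀ h' : ℝ, 0 < h' →
      env a y ρ S hS ν_c + h' * ρ₂ ≤ env a y ρ S hS (ν_c + h') ∧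
      env a y ρ S hS ν_c - h' * ρ₁ ≤ env a y ρ S hS (ν_c - h') := by
  have hcont : ContinuousOn (fun ν => env a y ρ T₂ hT₂ ν - env a y ρ T₁ hT₁ ν) (Icc νa νb) :=
    ((continuous_env _ _ _ _ _).sub (continuous_env _ _ _ _ _)).continuousOn
  have hzero : (0 : ℝ) ∈ Icc (env a y ρ T₂ hT₂ νa - env a y ρ T₁ hT₁ νa)
      (env a y ρ T₂ hT₂ νb - env a y ρ T₁ hT₁ νb) :=
    ⟨by linarith, by linarith⟩
  obtain ⟨ν_c, hν_c, hc⟩ := intermediate_value_Icc hν hcont hzero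
  refine ⟨ν_c, hν_c, fun h' hh' => ?_⟩
  have hsub₁ : ∀ ν, env a y ρ T₁ hT₁ ν ≤ env a y ρ S hS ν := fun ν =>
    env_le fun N hN => ln_le_env hS (h₁S hN) ν
  have hsub₂ : ∀ ν, env a y ρ T₂ hT₂ ν ≤ env a y ρ S hS ν := fun ν =>
    env_le fun N hN => ln_le_env hS (h₂S hN) ν
  have hc' : env a y ρ T₂ hT₂ ν_c = env a y ρ T₁ hT₁ ν_c := by linarith
  have hval : env a y ρ S hS ν_c ≤ env a y ρ T₁ hT₁ ν_c := by
    refine env_le fun N hN => (hdom N hN ν_c).trans ?_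
    rw [hc', max_self]
  constructor
  · have h3 := env_add_ge (a := a) (y := y) hT₂ h₂ ν_c hh'.le
    have h4 := hsub₂ (ν_c + h')
    rw [hc'] at h3
    linarith
  · have h3 := env_add_le (a := a) (y := y) hT₁ h₁ (ν_c - h') hh'.le
    have e : ν_c - h' + h' = ν_c := by ring
    rw [e] at h3
    have h4 := hsub₁ (ν_c - h')
    linarith

/-- The domination inequality: a member of the family lying below two others at two nearby activities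
is below their maximum at all activities, when its density is between theirs. -/
lemma dominated {y y_L y_R r r_L r_R ν₀ h a ν : ℝ} (hL : r_L < r) (hR : r < r_R)
    (h1 : y + (ν₀ - h) * r ≤ y_L + (ν₀ - h) * r_L)
    (h2 : y + (ν₀ + h) * r ≤ y_R + (ν₀ + h) * r_R)
    (hh : 2 * h ≤ (a / 2) * (r_R - r_L)) :
    y + ν * r + (a / 2) * r ^ 2
      ≤ max (y_L + ν * r_L + (a / 2) * r_L ^ 2) (y_R + ν * r_R + (a / 2) * r_R ^ 2) := by
  set x := r - r_L with hx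
  set z := r_R - r with hz
  have hx0 : 0 < x := by simp only [hx]; linarith
  have hz0 : 0 < z := by simp only [hz]; linarith
  have hrL : r_L = r - x := by simp only [hx]; ring
  have hrR : r_R = r + z := by simp only [hz]; ring
  have hsum : r_R - r_L = x + z := by simp only [hx, hz]; ring
  rw [hsum] at hh
  by_contra hcon
  push Not at hcon
  obtain ⟨hc1, hc2⟩ := max_lt_iff.1 hcon
  have h3 := mul_lt_mul_of_pos_left hc1 hz0
  have h4 := mul_lt_mul_of_pos_left hc2 hx0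
  have h5 := mul_le_mul_of_nonneg_left h1 hz0.le
  have h6 := mul_le_mul_of_nonneg_left h2 hx0.le
  have h7 : 0 ≤ x * z * ((a / 2) * (x + z) - 2 * h) :=
    mul_nonneg (mul_pos hx0 hz0).le (by linarith)
  rw [hrL] at h3 h5
  rw [hrR] at h4 h6
  nlinarith

/-- The step of the induction, for the finite family. -/
theorem lines_step {S : Finset ℕ} (hS : S.Nonempty) {y ρ : ℕ → ℝ} {a D ν₀ h ρ₁ ρ₂ : ℝ} (ha : 0 ≤ a)
    (hh : 0 < h) (hρ0 : ∀ N ∈ S, 0 ≤ ρ N) (hρD : ∀ N ∈ S, ρ N ≤ D) (hgap : ρ₁ < ρ₂)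
    (hha : h ≤ (a / 4) * (ρ₂ - ρ₁))
    (hq1 : env 0 y ρ S hS ν₀ + h * ρ₂ ≤ env 0 y ρ S hS (ν₀ + h))
    (hq2 : env 0 y ρ S hS ν₀ - h * ρ₁ ≤ env 0 y ρ S hS (ν₀ - h)) :
    ∃ ν_c, |ν_c - ν₀| ≤ (h * D + (a / 2) * D ^ 2) / (ρ₂ - ρ₁) ∧ ∀ h' : ℝ, 0 < h' →
      env a y ρ S hS ν_c + h' * ρ₂ ≤ env a y ρ S hS (ν_c + h') ∧
      env a y ρ S hS ν_c - h' * ρ₁ ≤ env a y ρ S hS (ν_c - h') := by
  classical
  have hgap' : 0 < ρ₂ - ρ₁ := by linarith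
  obtain ⟨L, hLS, hLe⟩ := exists_argmax (a := 0) (y := y) (ρ := ρ) hS (ν₀ - h)
  obtain ⟨R, hRS, hRe⟩ := exists_argmax (a := 0) (y := y) (ρ := ρ) hS (ν₀ + h)
  have hρL : ρ L ≤ ρ₁ := by
    have h1 := ln_le_env (a := 0) (y := y) (ρ := ρ) hS hLS ν₀
    have e : ln 0 y ρ L ν₀ = ln 0 y ρ L (ν₀ - h) + h * ρ L := by
      unfold ln; ring
    rw [e, ← hLe] at h1
    have h2 : h * ρ L ≤ h * ρ₁ := by linarith
    exact le_of_mul_le_mul_left h2 hh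
  have hρR : ρ₂ ≤ ρ R := by
    have h1 := ln_le_env (a := 0) (y := y) (ρ := ρ) hS hRS ν₀
    have e : ln 0 y ρ R ν₀ = ln 0 y ρ R (ν₀ + h) - h * ρ R := by
      unfold ln; ring
    rw [e, ← hRe] at h1
    have h2 : h * ρ₂ ≤ h * ρ R := by linarith
    exact le_of_mul_le_mul_left h2 hh
  have hgapLR : ρ₂ - ρ₁ ≤ ρ R - ρ L := by linarith
  set T₁ := S.filter fun N => ρ N ≤ ρ L with hT₁d
  set T₂ := S.filter fun N => ρ R ≤ ρ N with hT₂d
  have hLT : L ∈ T₁ := Finset.mem_filter.2 ⟨hLS, le_rfl⟩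
  have hRT : R ∈ T₂ := Finset.mem_filter.2 ⟨hRS, le_rfl⟩
  have hT₁ : T₁.Nonempty := ⟨L, hLT⟩
  have hT₂ : T₂.Nonempty := ⟨R, hRT⟩
  have h₁S : T₁ ⊆ S := Finset.filter_subset _ _
  have h₂S : T₂ ⊆ S := Finset.filter_subset _ _
  have h₁ : ∀ N ∈ T₁, ρ N ≤ ρ L := fun N hN => (Finset.mem_filter.1 hN).2
  have h₂ : ∀ N ∈ T₂, ρ R ≤ ρ N := fun N hN => (Finset.mem_filter.1 hN).2
  have hdom : ∀ N ∈ S, ∀ ν, ln a y ρ N ν ≤ max (env a y ρ T₁ hT₁ ν) (env a y ρ T₂ hT₂ ν) := by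
    intro N hN ν
    by_cases hN1 : ρ N ≤ ρ L
    · exact (ln_le_env hT₁ (Finset.mem_filter.2 ⟨hN, hN1⟩) ν).trans (le_max_left _ _)
    by_cases hN2 : ρ R ≤ ρ N
    · exact (ln_le_env hT₂ (Finset.mem_filter.2 ⟨hN, hN2⟩) ν).trans (le_max_right _ _)
    push Not at hN1 hN2
    have h3 := ln_le_env (a := 0) (y := y) (ρ := ρ) hS hN (ν₀ - h)
    have h4 := ln_le_env (a := 0) (y := y) (ρ := ρ) hS hN (ν₀ + h)
    rw [hLe] at h3
    rw [hRe] at h4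
    simp only [ln, zero_div, zero_mul, add_zero] at h3 h4
    have h5 := dominated (a := a) (ν := ν) hN1 hN2 h3 h4 (by
      have h6 : (a / 4) * (ρ₂ - ρ₁) ≤ (a / 4) * (ρ R - ρ L) :=
        mul_le_mul_of_nonneg_left hgapLR (by positivity)
      linarith)
    refine h5.trans (max_le_max ?_ ?_)
    · exact ln_le_env hT₁ hLT ν
    · exact ln_le_env hT₂ hRT ν
  -- location of the crossing
  have hL0 := hρ0 L hLS
  have hRD := hρD R hRS
  have hρ₁0 : 0 ≤ ρ₁ := hL0.trans hρL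
  have hρ₂D : ρ₂ ≤ D := hρR.trans hRD
  have hD0 : 0 ≤ D := by linarith
  set E := h * D + (a / 2) * D ^ 2 with hE
  have hE0 : 0 ≤ E := by positivity
  set δ := E / (ρ₂ - ρ₁) with hδ
  have hδ0 : 0 ≤ δ := by positivity
  have hδE : δ * (ρ₂ - ρ₁) = E := by
    rw [hδ]
    field_simp
  have henvle : ∀ T : Finset ℕ, ∀ hT : T.Nonempty, T ⊆ S →
      env a y ρ T hT ν₀ ≤ env 0 y ρ S hS ν₀ + (a / 2) * D ^ 2 := by
    intro T hT hTS
    refine env_le fun N hN => ?_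
    have h3 := ln_le_env (a := 0) (y := y) (ρ := ρ) hS (hTS hN) ν₀
    have h4 : ρ N ^ 2 ≤ D ^ 2 := pow_le_pow_left₀ (hρ0 N (hTS hN)) (hρD N (hTS hN)) 2
    have h5 : (a / 2) * ρ N ^ 2 ≤ (a / 2) * D ^ 2 := mul_le_mul_of_nonneg_left h4 (by positivity)
    have e : ln a y ρ N ν₀ = ln 0 y ρ N ν₀ + (a / 2) * ρ N ^ 2 := by
      unfold ln; ring
    rw [e]
    linarith
  have hG₁low : env 0 y ρ S hS ν₀ - h * D ≤ env a y ρ T₁ hT₁ ν₀ := by
    have h3 := ln_le_env (a := a) (y := y) (ρ := ρ) hT₁ hLT ν₀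
    have e : ln a y ρ L ν₀ = ln 0 y ρ L (ν₀ - h) + h * ρ L + (a / 2) * ρ L ^ 2 := by
      unfold ln; ring
    rw [e, ← hLe] at h3
    have h4 : 0 ≤ (a / 2) * ρ L ^ 2 := by positivity
    have h5 : 0 ≤ h * ρ L := mul_nonneg hh.le hL0
    have h6 : h * ρ₁ ≤ h * D := mul_le_mul_of_nonneg_left (by linarith) hh.le
    linarith
  have hG₂low : env 0 y ρ S hS ν₀ - h * D ≤ env a y ρ T₂ hT₂ ν₀ := by
    have h3 := ln_le_env (a := a) (y := y) (ρ := ρ) hT₂ hRT ν₀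
    have e : ln a y ρ R ν₀ = ln 0 y ρ R (ν₀ + h) - h * ρ R + (a / 2) * ρ R ^ 2 := by
      unfold ln; ring
    rw [e, ← hRe] at h3
    have h4 : 0 ≤ (a / 2) * ρ R ^ 2 := by positivity
    have h5 : h * ρ R ≤ h * D := mul_le_mul_of_nonneg_left hRD hh.le
    have h6 : 0 ≤ h * ρ₂ := mul_nonneg hh.le (by linarith)
    linarith
  have hG₁up := henvle T₁ hT₁ h₁S
  have hG₂up := henvle T₂ hT₂ h₂S
  have hmul : δ * (ρ₂ - ρ₁) ≤ δ * (ρ R - ρ L) := mul_le_mul_of_nonneg_left hgapLR hδ0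
  have hpl : env a y ρ T₁ hT₁ (ν₀ + δ) ≤ env a y ρ T₂ hT₂ (ν₀ + δ) := by
    have h3 := env_add_le (a := a) (y := y) hT₁ h₁ ν₀ hδ0
    have h4 := env_add_ge (a := a) (y := y) hT₂ h₂ ν₀ hδ0
    nlinarith
  have hmi : env a y ρ T₂ hT₂ (ν₀ - δ) ≤ env a y ρ T₁ hT₁ (ν₀ - δ) := by
    have h3 := env_add_ge (a := a) (y := y) hT₂ h₂ (ν₀ - δ) hδ0
    have h4 := env_add_le (a := a) (y := y) hT₁ h₁ (ν₀ - δ) hδ0
    have e : ν₀ - δ + δ = ν₀ := by ring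
    rw [e] at h3 h4
    nlinarith
  obtain ⟨ν_c, hν_c, hcorner⟩ := crossing hS hT₁ hT₂ h₁S h₂S h₁ h₂ hdom (by linarith) hmi hpl
  refine ⟨ν_c, ?_, fun h' hh' => ?_⟩
  · rw [abs_le]
    constructor <;> linarith [hν_c.1, hν_c.2]
  · obtain ⟨h3, h4⟩ := hcorner h' hh'
    constructor
    · have h5 := mul_le_mul_of_nonneg_left hρR hh'.le
      linarith
    · have h5 := mul_le_mul_of_nonneg_left hρL hh'.le
      linarith

end Vale.Agent.Lib.P171
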