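import Vale.Agent.Lib.P171.Attraction

/-!
The lower bound for the pressure with a long range attraction: exact occupation numbers in separated
cells.
-/

set_option linter.unusedSectionVars false
set_option linter.unusedSimpArgs false
set_option linter.unusedVariables false

open MeasureTheory Set Filter Topology
open scoped ENNReal BigOperators

namespace Vale.Agent.Lib.P171

section Canon

variable {E : Type} [MeasurableSpace E] {ρ : Measure E} [SigmaFinite ρ]

lemma J_const (C : ℝ≥0∞) (N : ℕ) :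
    J ρ (fun _ => C) N = (N.factorial : ℝ≥0∞)⁻¹ * (C * (ρ univ) ^ N) := by
  unfold J
  congr 1
  rw [lintegral_const]
  congr 1
  have := Measure.pi_pi (fun _ : Fin N => ρ) (fun _ => (univ : Set E))
  simpa using this

lemma J_Gib_ne_zero {u : E → E → ℝ} (hu : Measurable (Function.uncurry u)) (ν : ℝ) (N : ℕ)
    (hρ : ρ univ ≠ 0) : J ρ (Gib u ν) N ≠ 0 := by
  unfold J
  refine mul_ne_zero ?_ ?_
  · simp
  intro h0
  rw [lintegral_eq_zero_iff (measF_Gib hu ν N)] at h0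
  have h1 : (Measure.pi fun _ : Fin N => ρ) univ = 0 := by
    have : ∀ᵐ x ∂(Measure.pi fun _ : Fin N => ρ), False :=
      h0.mono fun x hx => Gib_pos _ _ _ hx
    simpa using this
  have h2 := Measure.pi_pi (fun _ : Fin N => ρ) (fun _ => (univ : Set E))
  have h3 : (Set.pi univ fun _ : Fin N => (univ : Set E)) = univ := by simp
  rw [h3, h1] at h2
  simp only [Finset.prod_const, Finset.card_univ, Fintype.card_fin] at h2
  exact pow_ne_zero N hρ h2.symm

lemma J_ne_top_of_le {F : Multiset E → ℝ≥0∞} (N : ℕ) {C : ℝ≥0∞} (hC : C ≠ ∞)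
    (hρ : ρ univ ≠ ∞) (h : ∀ s, Multiset.card s = N → F s ≤ C) : J ρ F N ≠ ∞ := by
  refine ne_top_of_le_ne_top ?_ (J_le_of_bound N C h)
  refine ENNReal.mul_ne_top ?_ (ENNReal.mul_ne_top hC (ENNReal.pow_ne_top hρ))
  simp [Nat.factorial_ne_zero]

lemma J_Gib_ne_top {u : E → E → ℝ} {B : ℝ} (h : ∀ s : Multiset E, -P u s ≤ B * (Multiset.card s : ℝ))
    (ν : ℝ) (N : ℕ) (hρ : ρ univ ≠ ∞) : J ρ (Gib u ν) N ≠ ∞ := by
  refine J_ne_top_of_le N (C := ENNReal.ofReal (Real.exp ((ν + B) * (N : ℝ))))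
    ENNReal.ofReal_ne_top hρ fun s hs => ?_
  have := Gib_le_of_stable h ν s
  rwa [hs] at this

end Canon

lemma restrict_cube_ne_zero {L : ℝ} (hL : 0 < L) (o : Fin 3 → ℝ) :
    (volume.restrict (cube L o)) univ ≠ 0 := by
  rw [restrict_cube_univ hL.le]
  simp only [ne_eq, ENNReal.ofReal_eq_zero, not_le]
  positivity

lemma restrict_cube_ne_top {L : ℝ} (hL : 0 ≤ L) (o : Fin 3 → ℝ) :
    (volume.restrict (cube L o)) univ ≠ ∞ := by
  rw [restrict_cube_univ hL]
  exact ENNReal.ofReal_ne_top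

/-! ### Bookkeeping for multiset sums over a finite family -/

section Sums

variable {E : Type}

lemma pairSum_le_const {u : E → E → ℝ} {s t : Multiset E} {κ : ℝ}
    (h : ∀ a ∈ s, ∀ b ∈ t, u a b ≤ κ) :
    pairSum u s t ≤ κ * (Multiset.card s : ℝ) * (Multiset.card t : ℝ) := by
  have h1 : pairSum u s t ≤ pairSum (fun _ _ => κ) s t := pairSum_mono_on h
  refine h1.trans (le_of_eq ?_)
  unfold pairSum
  simp only [Multiset.map_const', Multiset.sum_replicate, nsmul_eq_mul]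
  ring

lemma pairSum_sum_left {ι : Type*} (T : Finset ι) (s : ι → Multiset E) (u : E → E → ℝ)
    (t : Multiset E) : pairSum u (∑ δ ∈ T, s δ) t = ∑ δ ∈ T, pairSum u (s δ) t := by
  classical
  induction T using Finset.induction_on with
  | empty => simp
  | insert τ T hτ ih =>
    rw [Finset.sum_insert hτ, Finset.sum_insert hτ, pairSum_add_left, ih]

lemma pairSum_sum_right {ι : Type*} (T : Finset ι) (s : ι → Multiset E) (u : E → E → ℝ)
    (t : Multiset E) : pairSum u t (∑ δ ∈ T, s δ) = ∑ δ ∈ T, pairSum u t (s δ) := by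
  classical
  induction T using Finset.induction_on with
  | empty => simp
  | insert τ T hτ ih =>
    rw [Finset.sum_insert hτ, Finset.sum_insert hτ, pairSum_add_right, ih]

lemma diag_sum {ι : Type*} (T : Finset ι) (s : ι → Multiset E) (f : E → ℝ) :
    ((∑ δ ∈ T, s δ).map f).sum = ∑ δ ∈ T, ((s δ).map f).sum := by
  classical
  induction T using Finset.induction_on with
  | empty => simp
  | insert τ T hτ ih =>
    rw [Finset.sum_insert hτ, Finset.sum_insert hτ, Multiset.map_add, Multiset.sum_add, ih]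

/-- The pair functional of a sum over a finite family. -/
lemma P_sum_formula {ι : Type*} [DecidableEq ι] (T : Finset ι) (s : ι → Multiset E) (u : E → E → ℝ) :
    2 * P u (∑ δ ∈ T, s δ)
      = 2 * ∑ δ ∈ T, P u (s δ) + ∑ δ ∈ T, ∑ δ' ∈ T.erase δ, pairSum u (s δ) (s δ') := by
  have h1 : ∀ x : Multiset E, 2 * P u x = pairSum u x x - (x.map fun a => u a a).sum := by
    intro x; unfold P; ring
  rw [h1, pairSum_sum_left, diag_sum, Finset.mul_sum]
  have h2 : ∀ δ ∈ T, pairSum u (s δ) (∑ δ' ∈ T, s δ')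
      = pairSum u (s δ) (s δ) + ∑ δ' ∈ T.erase δ, pairSum u (s δ) (s δ') := by
    intro δ hδ
    rw [pairSum_sum_right, Finset.add_sum_erase _ (fun δ' => pairSum u (s δ) (s δ')) hδ]
  rw [Finset.sum_congr rfl h2, Finset.sum_add_distrib]
  simp only [h1]
  rw [Finset.sum_sub_distrib]
  ring

lemma card_finset_sum {ι : Type*} [DecidableEq ι] (T : Finset ι) (s : ι → Multiset E) {N : ℕ}
    (h : ∀ δ ∈ T, Multiset.card (s δ) = N) :
    Multiset.card (∑ δ ∈ T, s δ) = T.card * N := by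
  induction T using Finset.induction_on with
  | empty => simp
  | insert τ T hτ ih =>
    rw [Finset.sum_insert hτ, Finset.card_insert_of_notMem hτ, Multiset.card_add,
      h τ (Finset.mem_insert_self _ _), ih fun δ hδ => h δ (Finset.mem_insert_of_mem hδ)]
    ring

end Sums

/-! ### Geometry of the separated cells -/

lemma close_of_lat {ℓ R'' : ℝ} (hℓ : 0 ≤ ℓ) {δ δ' : Fin 3 → ℤ} (h : ‖lat (ℓ + 1) (δ' - δ)‖ ≤ R'')
    {a b : E3} (ha : a ∈ cube ℓ (off ℓ δ)) (hb : b ∈ cube ℓ (off ℓ δ')) :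
    ‖a - b‖ ≤ R'' + 2 * ℓ := by
  have h1 : ‖(b - a) - lat (ℓ + 1) (δ' - δ)‖ ≤ 2 * ℓ := by
    refine norm_le_of_coord _ hℓ fun k => ?_
    have h2 := ha k
    have h3 := hb k
    simp only [off] at h2 h3
    simp only [PiLp.sub_apply, lat_apply, Pi.sub_apply, Int.cast_sub]
    rw [abs_le]
    constructor <;> nlinarith [h2.1, h2.2, h3.1, h3.2]
  rw [norm_sub_rev a b]
  calc ‖b - a‖ = ‖((b - a) - lat (ℓ + 1) (δ' - δ)) + lat (ℓ + 1) (δ' - δ)‖ := by simp
    _ ≤ _ := norm_add_le _ _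
    _ ≤ R'' + 2 * ℓ := by linarith

/-- The number of cells of the grid close to a given cell. -/
noncomputable def closeCount (M : ℕ) (ℓ' R'' : ℝ) (δ : Fin 3 → ℤ) : ℕ := by
  classical
  exact ((gridIdx M).erase δ |>.filter fun δ' => ‖lat ℓ' (δ' - δ)‖ ≤ R'').card

/-- Interior cells of the grid see a full neighbourhood. -/
lemma closeCount_ge {M' K : ℕ} {ℓ' R'' : ℝ} {S : Finset (Fin 3 → ℤ)}
    (hS : ∀ τ ∈ S, (∀ k, |τ k| ≤ K) ∧ ‖lat ℓ' τ‖ ≤ R'') {δ : Fin 3 → ℤ}
    (hδ : ∀ k, (K : ℤ) ≤ δ k ∧ δ k < (M' : ℤ) + K) :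
    (S.card : ℝ) - 1 ≤ (closeCount (M' + 2 * K) ℓ' R'' δ : ℝ) := by
  classical
  have hsub : (S.erase 0).image (fun τ => δ + τ)
      ⊆ ((gridIdx (M' + 2 * K)).erase δ).filter fun δ' => ‖lat ℓ' (δ' - δ)‖ ≤ R'' := by
    intro x hx
    obtain ⟨τ, hτ, rfl⟩ := Finset.mem_image.1 hx
    obtain ⟨h0, hτS⟩ := Finset.mem_erase.1 hτ
    have h1 := hS τ hτS
    refine Finset.mem_filter.2 ⟨Finset.mem_erase.2 ⟨?_, mem_gridIdx.2 fun k => ?_⟩, ?_⟩
    · intro he
      apply h0
      funext k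
      have := congrFun he k
      simp only [Pi.add_apply] at this
      simp only [Pi.zero_apply]
      omega
    · have h2 := abs_le.1 (h1.1 k)
      have h3 := hδ k
      simp only [Pi.add_apply]
      push_cast
      constructor <;> omega
    · have : δ + τ - δ = τ := by abel
      rw [this]
      exact h1.2
  have h1 : ((S.erase 0).image (fun τ => δ + τ)).card = (S.erase 0).card :=
    Finset.card_image_of_injective _ (fun x y hxy => by simpa using hxy)
  have h2 := Finset.card_le_card hsub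
  rw [h1] at h2
  have h3 := Finset.pred_card_le_card_erase (s := S) (a := (0 : Fin 3 → ℤ))
  have h4 : (S.card : ℝ) - 1 ≤ ((S.erase 0).card : ℝ) := by
    have : S.card ≤ (S.erase 0).card + 1 := by omega
    have h5 : (S.card : ℝ) ≤ ((S.erase 0).card : ℝ) + 1 := by exact_mod_cast this
    linarith
  refine h4.trans ?_
  unfold closeCount
  exact_mod_cast h2

/-- The set of interior cells. -/
noncomputable def interiorIdx (M' K : ℕ) : Finset (Fin 3 → ℤ) :=
  Fintype.piFinset fun _ => Finset.Ico (K : ℤ) ((M' : ℤ) + K)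

lemma card_interiorIdx (M' K : ℕ) : (interiorIdx M' K).card = M' ^ 3 := by
  simp [interiorIdx]

lemma interior_subset (M' K : ℕ) : interiorIdx M' K ⊆ gridIdx (M' + 2 * K) := by
  intro δ hδ
  rw [mem_gridIdx]
  simp only [interiorIdx, Fintype.mem_piFinset, Finset.mem_Ico] at hδ
  intro k
  have := hδ k
  push_cast
  constructor <;> omega

/-- The total number of close pairs. -/
lemma sum_closeCount_ge {M' K : ℕ} {ℓ' R'' : ℝ} {S : Finset (Fin 3 → ℤ)}
    (hS : ∀ τ ∈ S, (∀ k, |τ k| ≤ K) ∧ ‖lat ℓ' τ‖ ≤ R'') :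
    (M' : ℝ) ^ 3 * ((S.card : ℝ) - 1)
      ≤ ∑ δ ∈ gridIdx (M' + 2 * K), (closeCount (M' + 2 * K) ℓ' R'' δ : ℝ) := by
  have h1 : ∑ δ ∈ interiorIdx M' K, ((S.card : ℝ) - 1)
      ≤ ∑ δ ∈ interiorIdx M' K, (closeCount (M' + 2 * K) ℓ' R'' δ : ℝ) := by
    refine Finset.sum_le_sum fun δ hδ => closeCount_ge hS fun k => ?_
    simp only [interiorIdx, Fintype.mem_piFinset, Finset.mem_Ico] at hδ
    exact hδ k
  rw [Finset.sum_const, card_interiorIdx, nsmul_eq_mul] at h1
  push_cast at h1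
  refine h1.trans ?_
  exact Finset.sum_le_sum_of_subset_of_nonneg (interior_subset M' K) fun _ _ _ => Nat.cast_nonneg _

/-- The value of the top hat kernel on close pairs. -/
lemma rad_hat_of_le {a R : ℝ} {x y : E3} (h : ‖x - y‖ ≤ R) :
    rad (hat a R) x y = a / (omega * R ^ 3) := by
  unfold rad hat
  rw [if_pos h]

/-- The energy of a configuration with prescribed occupation numbers in the separated cells. -/
lemma P_cells_le {v : ℝ → ℝ} (hvtail : ∀ r, 1 ≤ r → v r ≤ 0) {a R ℓ : ℝ} (ha : 0 ≤ a) (hR : 0 ≤ R)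
    (hℓ : 0 ≤ ℓ) (M N : ℕ) (ss : (Fin 3 → ℤ) → Multiset E3)
    (hss : ∀ δ ∈ gridIdx M, (∀ x ∈ ss δ, x ∈ cube ℓ (off ℓ δ)) ∧ Multiset.card (ss δ) = N) :
    P (rad (fun r => v r - hat a R r)) (∑ δ ∈ gridIdx M, ss δ)
      ≤ ∑ δ ∈ gridIdx M, P (rad v) (ss δ)
        - (a / (omega * R ^ 3)) / 2 * (N : ℝ) ^ 2
          * ∑ δ ∈ gridIdx M, (closeCount M (ℓ + 1) (R - 2 * ℓ) δ : ℝ) := by
  classical
  have hb : 0 ≤ a / (omega * R ^ 3) := by
    have := omega_pos
    positivity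
  set b := a / (omega * R ^ 3) with hbdef
  set u := rad (fun r => v r - hat a R r) with hu
  have hnn : ∀ x y : E3, 0 ≤ rad (hat a R) x y := fun x y => hat_nonneg ha hR _
  have h1 : ∀ δ ∈ gridIdx M, P u (ss δ) ≤ P (rad v) (ss δ) := by
    intro δ _
    refine P_mono (symm_rad _) (symm_rad _) (fun x y => ?_) _
    have : u x y = rad v x y - rad (hat a R) x y := rfl
    show u x y ≤ rad v x y
    rw [this]
    linarith [hnn x y]
  have h2 : ∀ δ ∈ gridIdx M, ∑ δ' ∈ (gridIdx M).erase δ, pairSum u (ss δ) (ss δ')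
      ≤ -b * (N : ℝ) ^ 2 * (closeCount M (ℓ + 1) (R - 2 * ℓ) δ : ℝ) := by
    intro δ hδ
    have h3 : ∀ δ' ∈ (gridIdx M).erase δ, pairSum u (ss δ) (ss δ')
        ≤ if ‖lat (ℓ + 1) (δ' - δ)‖ ≤ R - 2 * ℓ then -b * (N : ℝ) ^ 2 else 0 := by
      intro δ' hδ'
      obtain ⟨hne, hδ'M⟩ := Finset.mem_erase.1 hδ'
      have hcross : ∀ x ∈ ss δ, ∀ y ∈ ss δ', u x y
          ≤ if ‖lat (ℓ + 1) (δ' - δ)‖ ≤ R - 2 * ℓ then -b else 0 := by
        intro x hx y hy
        have hxc := (hss δ hδ).1 x hx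
        have hyc := (hss δ' hδ'M).1 y hy
        have hsep : 1 ≤ ‖x - y‖ := off_separated hℓ (Ne.symm hne) hxc hyc
        have e : u x y = rad v x y - rad (hat a R) x y := rfl
        have hv0 : rad v x y ≤ 0 := hvtail _ hsep
        split_ifs with hclose
        · have hxy : ‖x - y‖ ≤ R := by
            have := close_of_lat hℓ hclose hxc hyc
            linarith
          rw [e, rad_hat_of_le hxy]
          linarith
        · rw [e]
          linarith [hnn x y]
      have h4 := pairSum_le_const hcross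
      rw [(hss δ hδ).2, (hss δ' hδ'M).2] at h4
      refine h4.trans (le_of_eq ?_)
      split_ifs <;> ring
    refine (Finset.sum_le_sum h3).trans (le_of_eq ?_)
    rw [Finset.sum_ite, Finset.sum_const_zero, add_zero, Finset.sum_const, nsmul_eq_mul]
    unfold closeCount
    ring
  have h5 := P_sum_formula (gridIdx M) ss u
  have h6 := Finset.sum_le_sum h1
  have h7 := Finset.sum_le_sum h2
  rw [← Finset.mul_sum] at h7
  nlinarith

/-- The lower bound on the pressure of a potential with a long range attraction. -/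
theorem Pres_lower {v : ℝ → ℝ} {B B' a R ℓ : ℝ} (hv : Reg v B)
    (hv' : Reg (fun r => v r - hat a R r) B') (ha : 0 ≤ a) (hℓ : 0 < ℓ) (hR : 4 * ℓ + 2 ≤ R)
    (N : ℕ) (ν : ℝ) :
    (lg (J (volume.restrict (cube ℓ 0)) (Gib (rad v) 0) N) + ν * N) / (ℓ + 1) ^ 3
      + (a / (omega * R ^ 3)) / 2 * (N : ℝ) ^ 2
        * (omega * (R - 4 * ℓ - 2) ^ 3 / (ℓ + 1) ^ 3 - 1) / (ℓ + 1) ^ 3
      ≤ Pres (fun r => v r - hat a R r) ν := by
  classical
  have hom := omega_pos
  have hℓ' : 0 < ℓ + 1 := by linarith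
  have hR0 : 0 < R := by linarith
  have hb : 0 ≤ a / (omega * R ^ 3) := by positivity
  set b := a / (omega * R ^ 3) with hbdef
  set ℓ' := ℓ + 1 with hℓ'def
  set R'' := R - 2 * ℓ with hR''
  set r := R - 4 * ℓ - 2 with hr
  have hr0 : 0 ≤ r := by simp only [hr]; linarith
  have hR''0 : 0 ≤ R'' := by simp only [hR'']; linarith
  set K : ℕ := ⌈R'' / ℓ'⌉₊ with hK
  set S : Finset (Fin 3 → ℤ) :=
    (Fintype.piFinset fun _ : Fin 3 => Finset.Icc (-(K : ℤ)) K).filter
      fun τ => ‖lat ℓ' τ‖ ≤ R'' with hS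
  have hSprop : ∀ τ ∈ S, (∀ k, |τ k| ≤ K) ∧ ‖lat ℓ' τ‖ ≤ R'' := by
    intro τ hτ
    obtain ⟨h1, h2⟩ := Finset.mem_filter.1 hτ
    refine ⟨fun k => ?_, h2⟩
    simp only [Fintype.mem_piFinset, Finset.mem_Icc] at h1
    exact abs_le.2 (h1 k)
  have hcount : omega * r ^ 3 ≤ (S.card : ℝ) * ℓ' ^ 3 := by
    refine lattice_count_ge hℓ' hr0 S fun τ hτ => ?_
    have e : r + 2 * ℓ' = R'' := by
      simp only [hr, hℓ'def, hR'']; ring
    rw [e] at hτ
    refine Finset.mem_filter.2 ⟨?_, hτ⟩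
    simp only [Fintype.mem_piFinset, Finset.mem_Icc]
    intro k
    have h1 := abs_coord_le (lat ℓ' τ) k
    rw [lat_apply, abs_mul, abs_of_pos hℓ'] at h1
    have h2 : |(τ k : ℝ)| ≤ R'' / ℓ' := by
      rw [le_div_iff₀ hℓ']
      linarith
    have h3 : |(τ k : ℝ)| ≤ (K : ℝ) := h2.trans (Nat.le_ceil _)
    have h4 : |τ k| ≤ (K : ℤ) := by exact_mod_cast h3
    exact abs_le.1 h4
  set Q := omega * r ^ 3 / ℓ' ^ 3 - 1 with hQ
  have hQS : Q ≤ (S.card : ℝ) - 1 := by
    have : omega * r ^ 3 / ℓ' ^ 3 ≤ (S.card : ℝ) := by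
      rw [div_le_iff₀ (by positivity)]
      exact hcount
    simp only [hQ]
    linarith
  set J₀ := J (volume.restrict (cube ℓ 0)) (Gib (rad v) 0) N with hJ₀
  have hJ₀0 : J₀ ≠ 0 := J_Gib_ne_zero (measurable_rad hv.meas) 0 N (restrict_cube_ne_zero hℓ 0)
  have hJ₀1 : J₀ ≠ ∞ := J_Gib_ne_top hv.stable 0 N (restrict_cube_ne_top hℓ.le 0)
  -- the finite volume bound
  have hfin : ∀ M' : ℕ, ((M' + 2 * K : ℕ) : ℝ) ^ 3 * (ν * N + lg J₀)
      + b / 2 * (N : ℝ) ^ 2 * ((M' : ℝ) ^ 3 * Q)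
      ≤ lg (Zc (fun r => v r - hat a R r) (((M' + 2 * K : ℕ) : ℝ) * ℓ') ν) := by
    intro M'
    set M := M' + 2 * K with hM
    have hcc := sum_closeCount_ge (M' := M') (K := K) hSprop
    rw [← hM] at hcc
    set Cc := ∑ δ ∈ gridIdx M, (closeCount M ℓ' R'' δ : ℝ) with hCc
    set C : ℝ≥0∞ := ENNReal.ofReal (Real.exp (ν * ((M : ℝ) ^ 3 * N) + b / 2 * (N : ℝ) ^ 2 * Cc))
      with hC
    have hmain := J_biUnion_ge (μ := (volume : Measure E3)) (gridIdx M)
      (fun δ => cube ℓ (off ℓ δ)) (fun δ _ => measurableSet_cube _ _)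
      (fun δ _ δ' _ hne => off_disjoint hℓ.le hne)
      (F := Gib (rad fun r => v r - hat a R r) ν) (G := Gib (rad v) 0)
      (measF_Gib (measurable_rad (hv.meas.sub (measurable_hat a R))) ν)
      (measF_Gib (measurable_rad hv.meas) 0) N C (by
        intro ss hss
        have hprod : ∏ δ ∈ gridIdx M, Gib (rad v) 0 (ss δ)
            = ENNReal.ofReal (Real.exp (∑ δ ∈ gridIdx M, (-P (rad v) (ss δ)))) := by
          rw [Real.exp_sum, ENNReal.ofReal_prod_of_nonneg (fun i _ => (Real.exp_pos _).le)]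
          refine Finset.prod_congr rfl fun δ _ => ?_
          unfold Gib
          rw [zero_mul, add_zero]
        rw [hprod, hC, ← ENNReal.ofReal_mul (Real.exp_pos _).le, ← Real.exp_add]
        unfold Gib
        refine ENNReal.ofReal_le_ofReal (Real.exp_le_exp.2 ?_)
        rw [card_finset_sum _ _ fun δ hδ => (hss δ hδ).2, card_gridIdx]
        have := P_cells_le hv.tail ha hR0.le hℓ.le M N ss hss
        rw [Finset.sum_neg_distrib]
        push_cast
        have e2 : ν * ((M : ℝ) ^ 3 * N) + b / 2 * (N : ℝ) ^ 2 * Cc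
            + -∑ δ ∈ gridIdx M, P (rad v) (ss δ)
            = -(∑ δ ∈ gridIdx M, P (rad v) (ss δ) - b / 2 * (N : ℝ) ^ 2 * Cc)
              + ν * ((M : ℝ) ^ 3 * N) := by ring
        rw [e2]
        simp only [hCc, hℓ'def, hR''] at this ⊢
        linarith)
    have hprod2 : ∏ δ ∈ gridIdx M, J (volume.restrict (cube ℓ (off ℓ δ))) (Gib (rad v) 0) N
        = J₀ ^ (M ^ 3) := by
      rw [Finset.prod_congr rfl (fun δ _ => J_cube_translate hv.meas 0 ℓ (off ℓ δ) N),
        Finset.prod_const, card_gridIdx]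
    rw [hprod2] at hmain
    have hsub : (⋃ δ ∈ gridIdx M, cube ℓ (off ℓ δ)) ⊆ cube ((M : ℝ) * ℓ') 0 :=
      iUnion₂_subset fun δ hδ => cube_off_subset hℓ.le hδ
    have hle : J (volume.restrict (⋃ δ ∈ gridIdx M, cube ℓ (off ℓ δ)))
        (Gib (rad fun r => v r - hat a R r) ν) ((gridIdx M).card * N)
        ≤ Zc (fun r => v r - hat a R r) ((M : ℝ) * ℓ') ν := by
      unfold Zc
      exact (I_ge_J _ _).trans (I_restrict_mono hsub _)
    have hC0 : C ≠ 0 := by simp [hC, Real.exp_pos]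
    have hC1 : C ≠ ∞ := ENNReal.ofReal_ne_top
    have hpow0 : J₀ ^ (M ^ 3) ≠ 0 := pow_ne_zero _ hJ₀0
    have hpow1 : J₀ ^ (M ^ 3) ≠ ∞ := ENNReal.pow_ne_top hJ₀1
    have hfinal := lg_le_lg (hmain.trans hle) (pos_iff_ne_zero.2 (mul_ne_zero hC0 hpow0))
      (Zc_ne_top hv' (by positivity) ν)
    rw [lg_mul hC0 hC1 hpow0 hpow1, lg_pow, hC, lg_ofReal_exp] at hfinal
    refine le_trans ?_ hfinal
    push_cast
    have h8 : (M' : ℝ) ^ 3 * Q ≤ Cc := by
      refine le_trans ?_ hcc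
      exact mul_le_mul_of_nonneg_left hQS (by positivity)
    have h9 : b / 2 * (N : ℝ) ^ 2 * ((M' : ℝ) ^ 3 * Q) ≤ b / 2 * (N : ℝ) ^ 2 * Cc :=
      mul_le_mul_of_nonneg_left h8 (by positivity)
    nlinarith
  -- passing to the limit
  have hratio : Tendsto (fun M' : ℕ => ((M' : ℝ) / ((M' : ℝ) + ((2 * K : ℕ) : ℝ))) ^ 3) atTop (𝓝 1) := by
    have := (tendsto_natCast_div_add_atTop (𝕜 := ℝ) ((2 * K : ℕ) : ℝ)).pow 3
    simpa using this
  have hlim1 : Tendsto (fun M' : ℕ => (lg J₀ + ν * N) / ℓ' ^ 3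
      + b / 2 * (N : ℝ) ^ 2 * (((M' : ℝ) / ((M' : ℝ) + ((2 * K : ℕ) : ℝ))) ^ 3 * Q) / ℓ' ^ 3) atTop
      (𝓝 ((lg J₀ + ν * N) / ℓ' ^ 3 + b / 2 * (N : ℝ) ^ 2 * (1 * Q) / ℓ' ^ 3)) := by
    refine tendsto_const_nhds.add (Tendsto.div_const (Tendsto.const_mul _ (hratio.mul_const _)) _)
  have hlim2 := Pres_tendsto_seq hv' ν hℓ'
  have hadd : Tendsto (fun M' : ℕ => M' + 2 * K) atTop atTop := tendsto_add_atTop_nat _
  have hlim3 := hlim2.comp hadd
  have hfinal := le_of_tendsto_of_tendsto hlim1 hlim3 (by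
    filter_upwards [eventually_ge_atTop 1] with M' hM'
    have hM'pos : (0 : ℝ) < M' := by exact_mod_cast hM'
    have hh := hfin M'
    simp only [Function.comp]
    rw [le_div_iff₀ (by positivity)]
    refine le_trans (le_of_eq ?_) hh
    push_cast
    field_simp
    ring)
  have e : b / 2 * (N : ℝ) ^ 2 * (1 * Q) = b / 2 * (N : ℝ) ^ 2 * Q := by ring
  rw [e] at hfinal
  exact hfinal

end Vale.Agent.Lib.P171
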