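import Vale.Agent.Lib.P171.Geometry

/-!
Radial kernels, stability, translation invariance, and the thermodynamic limit.
-/

set_option linter.unusedSectionVars false
set_option linter.unusedSimpArgs false
set_option linter.unusedVariables false

open MeasureTheory Set Filter Topology
open scoped ENNReal BigOperators

namespace Vale.Agent.Lib.P171

/-- The kernel of a radial pair potential. -/
noncomputable def rad (φ : ℝ → ℝ) (a b : E3) : ℝ := φ ‖a - b‖

lemma symm_rad (φ : ℝ → ℝ) : Symm (rad φ) := fun a b => by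
  simp only [rad, norm_sub_rev]

lemma measurable_rad {φ : ℝ → ℝ} (hφ : Measurable φ) : Measurable (Function.uncurry (rad φ)) := by
  have : Function.uncurry (rad φ) = fun p : E3 × E3 => φ ‖p.1 - p.2‖ := by
    funext p; rfl
  rw [this]
  exact hφ.comp (measurable_fst.sub measurable_snd).norm

lemma symm_sameK (ℓ o : ℝ) : Symm (sameK ℓ o) := fun a b => by
  simp only [sameK, eq_comm]

lemma measurable_sameK (ℓ o : ℝ) : Measurable (Function.uncurry (sameK ℓ o)) := by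
  classical
  have : Function.uncurry (sameK ℓ o)
      = fun p : E3 × E3 => if cellOf ℓ o p.1 = cellOf ℓ o p.2 then (1 : ℝ) else 0 := by
    funext p; simp [sameK, Function.uncurry]
  rw [this]
  refine Measurable.ite ?_ measurable_const measurable_const
  exact measurableSet_eq_fun ((measurable_cellOf ℓ o).comp measurable_fst)
    ((measurable_cellOf ℓ o).comp measurable_snd)

lemma sameK_nonneg (ℓ o : ℝ) (a b : E3) : 0 ≤ sameK ℓ o a b := by
  unfold sameK; split_ifs <;> norm_num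

lemma sameK_le_one (ℓ o : ℝ) (a b : E3) : sameK ℓ o a b ≤ 1 := by
  unfold sameK; split_ifs <;> norm_num

lemma sameK_self (ℓ o : ℝ) (a : E3) : sameK ℓ o a a = 1 := by
  simp [sameK]

lemma P_sub_kernel {E : Type} {u u' : E → E → ℝ} (hu : Symm u) (hu' : Symm u') (s : Multiset E) :
    P (fun a b => u a b - u' a b) s = P u s - P u' s := by
  have h1 : Symm (fun a b => (-1 : ℝ) * u' a b) := hu'.const_mul _
  have := P_add_kernel hu h1 s
  rw [P_const_mul hu'] at this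
  have e : (fun a b => u a b - u' a b) = fun a b => u a b + (-1) * u' a b := by
    funext a b; ring
  rw [e, this]; ring

/-- The bounded repulsive core of strength `A` and radius one. -/
noncomputable def core (A : ℝ) (r : ℝ) : ℝ := by
  classical
  exact if r < 1 then A else 0

lemma measurable_core (A : ℝ) : Measurable (core A) := by
  classical
  unfold core
  exact Measurable.ite measurableSet_Iio measurable_const measurable_const

lemma core_nonneg {A : ℝ} (hA : 0 ≤ A) (r : ℝ) : 0 ≤ core A r := by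
  unfold core; split_ifs <;> linarith

lemma core_of_ge {A r : ℝ} (h : 1 ≤ r) : core A r = 0 := by
  unfold core; rw [if_neg (not_lt.2 h)]

/-- The occupation energy of the grid of side one half. -/
noncomputable def Bs (s : Multiset E3) : ℝ := pairSum (sameK (1 / 2) 0) s s

lemma pairSum_nonneg' {E : Type} {u : E → E → ℝ} (h : ∀ a b, 0 ≤ u a b) (s t : Multiset E) :
    0 ≤ pairSum u s t := by
  letI : MeasurableSpace E := ⊤
  exact pairSum_nonneg_on (A := univ) (B := univ) (fun a _ b _ => h a b) (fun _ _ => mem_univ _)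
    (fun _ _ => mem_univ _)

lemma Bs_nonneg (s : Multiset E3) : 0 ≤ Bs s := pairSum_nonneg' (sameK_nonneg _ _) s s

lemma P_sameK_eq (ℓ o : ℝ) (s : Multiset E3) :
    P (sameK ℓ o) s = (pairSum (sameK ℓ o) s s - (Multiset.card s : ℝ)) / 2 := by
  unfold P
  simp [sameK_self]

/-- Two points of one cell of the grid of side one half are at distance less than one. -/
lemma dist_lt_one_of_same {a b : E3} (h : cellOf (1 / 2) 0 a = cellOf (1 / 2) 0 b) :
    ‖a - b‖ < 1 := by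
  refine norm_lt_one_of_coord _ fun k => ?_
  have ha := cellOf_spec (by norm_num : (0 : ℝ) < 1 / 2) 0 a k
  have hb := cellOf_spec (by norm_num : (0 : ℝ) < 1 / 2) 0 b k
  rw [h] at ha
  simp only [PiLp.sub_apply]
  rw [abs_lt]
  constructor <;> linarith [ha.1, ha.2, hb.1, hb.2]

lemma P_core_ge {A : ℝ} (hA : 0 ≤ A) (s : Multiset E3) :
    (A / 2) * (Bs s - (Multiset.card s : ℝ)) ≤ P (rad (core A)) s := by
  have h1 : P (fun a b => A * sameK (1 / 2) 0 a b) s ≤ P (rad (core A)) s := by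
    refine P_mono ((symm_sameK _ _).const_mul _) (symm_rad _) (fun a b => ?_) s
    unfold sameK rad
    split_ifs with h
    · rw [mul_one]
      have := dist_lt_one_of_same h
      simp [core, this]
    · rw [mul_zero]
      exact core_nonneg hA _
  rw [P_const_mul (symm_sameK _ _), P_sameK_eq] at h1
  unfold Bs
  linarith

/-- Attraction of strength `c`, as measured by the occupation energy. -/
structure Attr (w : ℝ → ℝ) (c : ℝ) : Prop where
  meas : Measurable w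
  nonneg : ∀ r, 0 ≤ w r
  bound : ∀ s : Multiset E3, P (rad w) s ≤ c * Bs s

lemma Attr.mono {w : ℝ → ℝ} {c c' : ℝ} (h : Attr w c) (hc : c ≤ c') : Attr w c' :=
  ⟨h.meas, h.nonneg, fun s => (h.bound s).trans (mul_le_mul_of_nonneg_right hc (Bs_nonneg s))⟩

lemma rad_sub (φ ψ : ℝ → ℝ) (a b : E3) :
    rad (fun r => φ r - ψ r) a b = rad φ a b - rad ψ a b := rfl

lemma P_rad_sub (φ ψ : ℝ → ℝ) (s : Multiset E3) :
    P (rad (fun r => φ r - ψ r)) s = P (rad φ) s - P (rad ψ) s :=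
  P_sub_kernel (symm_rad φ) (symm_rad ψ) s

/-- The superstability estimate. -/
lemma P_pot_ge {A c : ℝ} (hA : 0 ≤ A) {w : ℝ → ℝ} (hw : Attr w c) (s : Multiset E3) :
    (A / 2 - c) * Bs s - (A / 2) * (Multiset.card s : ℝ) ≤ P (rad (fun r => core A r - w r)) s := by
  rw [P_rad_sub]
  have h1 := P_core_ge hA s
  have h2 := hw.bound s
  nlinarith

/-- Regular potentials: measurable, stable, and nonpositive beyond distance one. -/
structure Reg (φ : ℝ → ℝ) (B : ℝ) : Prop where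
  meas : Measurable φ
  tail : ∀ r, 1 ≤ r → φ r ≤ 0
  stable : ∀ s : Multiset E3, -P (rad φ) s ≤ B * (Multiset.card s : ℝ)

lemma reg_pot {A c : ℝ} (hA : 0 ≤ A) {w : ℝ → ℝ} (hw : Attr w c) (hc : c ≤ A / 2) :
    Reg (fun r => core A r - w r) (A / 2) := by
  refine ⟨(measurable_core A).sub hw.meas, fun r hr => ?_, fun s => ?_⟩
  · rw [core_of_ge hr]
    linarith [hw.nonneg r]
  · have := P_pot_ge hA hw s
    have h2 : 0 ≤ (A / 2 - c) * Bs s := mul_nonneg (by linarith) (Bs_nonneg s)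
    linarith

section Bounds

variable {E : Type} [MeasurableSpace E] {ρ : Measure E} [SigmaFinite ρ]

lemma J_le_of_bound {F : Multiset E → ℝ≥0∞} (N : ℕ) (C : ℝ≥0∞)
    (h : ∀ s, Multiset.card s = N → F s ≤ C) :
    J ρ F N ≤ (N.factorial : ℝ≥0∞)⁻¹ * (C * (ρ univ) ^ N) := by
  unfold J
  refine mul_le_mul' le_rfl ?_
  calc ∫⁻ x, F (ms x) ∂(Measure.pi fun _ : Fin N => ρ)
      ≤ ∫⁻ _, C ∂(Measure.pi fun _ : Fin N => ρ) :=
        lintegral_mono fun x => h _ (card_ms x)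
    _ = C * (ρ univ) ^ N := by
        rw [lintegral_const]
        congr 1
        have := Measure.pi_pi (fun _ : Fin N => ρ) (fun _ => (univ : Set E))
        simpa using this

end Bounds

/-- The Gibbs weight of a stable kernel is bounded on `N`-point configurations. -/
lemma Gib_le_of_stable {E : Type} {u : E → E → ℝ} {B : ℝ}
    (h : ∀ s : Multiset E, -P u s ≤ B * (Multiset.card s : ℝ)) (ν : ℝ) (s : Multiset E) :
    Gib u ν s ≤ ENNReal.ofReal (Real.exp ((ν + B) * (Multiset.card s : ℝ))) := by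
  unfold Gib
  refine ENNReal.ofReal_le_ofReal (Real.exp_le_exp.2 ?_)
  have := h s
  nlinarith

/-- The exponential series in extended nonnegative reals. -/
lemma tsum_pow_div_factorial {x : ℝ} (hx : 0 ≤ x) :
    ∑' N : ℕ, ((N.factorial : ℝ≥0∞)⁻¹ * ENNReal.ofReal (x ^ N)) = ENNReal.ofReal (Real.exp x) := by
  have hs : HasSum (fun N : ℕ => x ^ N / (N.factorial : ℝ)) (Real.exp x) := by
    rw [Real.exp_eq_exp_ℝ]
    exact NormedSpace.expSeries_div_hasSum_exp x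
  have : ∀ N : ℕ, (N.factorial : ℝ≥0∞)⁻¹ * ENNReal.ofReal (x ^ N)
      = ENNReal.ofReal (x ^ N / (N.factorial : ℝ)) := by
    intro N
    rw [div_eq_mul_inv, ENNReal.ofReal_mul (by positivity), mul_comm]
    congr 1
    rw [ENNReal.ofReal_inv_of_pos (by positivity), ENNReal.ofReal_natCast]
  simp_rw [this]
  rw [← ENNReal.ofReal_tsum_of_nonneg (fun N => by positivity) hs.summable, hs.tsum_eq]

/-- Upper bound for the partition function of a stable kernel. -/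
lemma I_Gib_le_exp {E : Type} [MeasurableSpace E] {ρ : Measure E} [SigmaFinite ρ] {u : E → E → ℝ}
    {B : ℝ} (h : ∀ s : Multiset E, -P u s ≤ B * (Multiset.card s : ℝ)) (ν : ℝ) {V : ℝ} (hV : 0 ≤ V)
    (hρ : ρ univ = ENNReal.ofReal V) :
    I ρ (Gib u ν) ≤ ENNReal.ofReal (Real.exp (Real.exp (ν + B) * V)) := by
  rw [← tsum_pow_div_factorial (by positivity)]
  refine ENNReal.tsum_le_tsum fun N => ?_
  refine (J_le_of_bound N (ENNReal.ofReal (Real.exp ((ν + B) * (N : ℝ)))) ?_).trans ?_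
  · intro s hs
    have := Gib_le_of_stable h ν s
    rwa [hs] at this
  · refine mul_le_mul' le_rfl ?_
    rw [hρ, ← ENNReal.ofReal_pow hV, ← ENNReal.ofReal_mul (Real.exp_pos _).le]
    refine ENNReal.ofReal_le_ofReal (le_of_eq ?_)
    rw [mul_pow, ← Real.exp_nat_mul]
    ring_nf

/-- Translating a region does not change a translation invariant functional. -/
lemma J_translate (τ : E3) {A : Set E3} (hA : MeasurableSet A) {F : Multiset E3 → ℝ≥0∞}
    (hF : MeasF F) (hinv : ∀ s, F (s.map fun a => a + τ) = F s) (N : ℕ) :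
    J (volume.restrict ((fun a => a + τ) ⁻¹' A)) F N = J (volume.restrict A) F N := by
  have mp := (measurePreserving_add_right (volume : Measure E3) τ).restrict_preimage hA
  have hpi := measurePreserving_pi (fun _ : Fin N => volume.restrict ((fun a : E3 => a + τ) ⁻¹' A))
    (fun _ : Fin N => volume.restrict A) (f := fun _ a => a + τ) (fun _ => mp)
  unfold J
  congr 1
  rw [← hpi.lintegral_comp (hF N)]
  refine lintegral_congr fun x => ?_
  have : ms (fun i => x i + τ) = (ms x).map fun a => a + τ := by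
    simp [ms, Multiset.map_map, Function.comp_def]
  rw [this, hinv]

lemma P_rad_translate (φ : ℝ → ℝ) (τ : E3) (s : Multiset E3) :
    P (rad φ) (s.map fun a => a + τ) = P (rad φ) s := by
  have h : ∀ a b : E3, rad φ (a + τ) (b + τ) = rad φ a b := fun a b => by
    simp only [rad, add_sub_add_right_eq_sub]
  simp [P, pairSum, Multiset.map_map, Function.comp_def, h]

lemma Gib_rad_translate (φ : ℝ → ℝ) (ν : ℝ) (τ : E3) (s : Multiset E3) :
    Gib (rad φ) ν (s.map fun a => a + τ) = Gib (rad φ) ν s := by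
  simp [Gib, P_rad_translate]

lemma cube_preimage (ℓ : ℝ) (o : Fin 3 → ℝ) :
    (fun a : E3 => a + vec o) ⁻¹' (cube ℓ o) = cube ℓ 0 := by
  ext x
  simp [cube]
  constructor <;> intro h k <;> have := h k <;> constructor <;> linarith [this.1, this.2]

lemma J_cube_translate {φ : ℝ → ℝ} (hφ : Measurable φ) (ν ℓ : ℝ) (o : Fin 3 → ℝ) (N : ℕ) :
    J (volume.restrict (cube ℓ o)) (Gib (rad φ) ν) N
      = J (volume.restrict (cube ℓ 0)) (Gib (rad φ) ν) N := by
  rw [← J_translate (vec o) (measurableSet_cube ℓ o) (measF_Gib (measurable_rad hφ) ν)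
    (Gib_rad_translate φ ν _), cube_preimage]

lemma I_cube_translate {φ : ℝ → ℝ} (hφ : Measurable φ) (ν ℓ : ℝ) (o : Fin 3 → ℝ) :
    I (volume.restrict (cube ℓ o)) (Gib (rad φ) ν)
      = I (volume.restrict (cube ℓ 0)) (Gib (rad φ) ν) :=
  tsum_congr fun N => J_cube_translate hφ ν ℓ o N

/-- Real logarithm of an extended nonnegative real. -/
noncomputable def lg (x : ℝ≥0∞) : ℝ := Real.log x.toReal

lemma lg_nonneg {x : ℝ≥0∞} (h1 : 1 ≤ x) (h2 : x ≠ ∞) : 0 ≤ lg x := by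
  unfold lg
  refine Real.log_nonneg ?_
  have := ENNReal.toReal_mono h2 h1
  simpa using this

lemma lg_le_lg {x y : ℝ≥0∞} (h : x ≤ y) (h1 : 0 < x) (h2 : y ≠ ∞) : lg x ≤ lg y := by
  unfold lg
  have hx : x ≠ ∞ := ne_top_of_le_ne_top h2 h
  exact Real.log_le_log (ENNReal.toReal_pos h1.ne' hx) (ENNReal.toReal_mono h2 h)

@[simp] lemma lg_ofReal_exp (r : ℝ) : lg (ENNReal.ofReal (Real.exp r)) = r := by
  unfold lg
  rw [ENNReal.toReal_ofReal (Real.exp_pos r).le, Real.log_exp]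

lemma lg_mul {x y : ℝ≥0∞} (hx : x ≠ 0) (hx' : x ≠ ∞) (hy : y ≠ 0) (hy' : y ≠ ∞) :
    lg (x * y) = lg x + lg y := by
  unfold lg
  rw [ENNReal.toReal_mul, Real.log_mul]
  · exact (ENNReal.toReal_pos hx hx').ne'
  · exact (ENNReal.toReal_pos hy hy').ne'

lemma lg_pow {x : ℝ≥0∞} (n : ℕ) : lg (x ^ n) = n * lg x := by
  unfold lg
  rw [ENNReal.toReal_pow, Real.log_pow]

lemma lg_rpow {x : ℝ≥0∞} (hx : x ≠ 0) (hx' : x ≠ ∞) (p : ℝ) : lg (x ^ p) = p * lg x := by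
  unfold lg
  rw [← ENNReal.toReal_rpow, Real.log_rpow (ENNReal.toReal_pos hx hx')]

lemma lg_prod {ι : Type*} (S : Finset ι) (f : ι → ℝ≥0∞) (h0 : ∀ i ∈ S, f i ≠ 0)
    (h1 : ∀ i ∈ S, f i ≠ ∞) : lg (∏ i ∈ S, f i) = ∑ i ∈ S, lg (f i) := by
  unfold lg
  rw [ENNReal.toReal_prod, Real.log_prod]
  intro i hi
  exact (ENNReal.toReal_pos (h0 i hi) (h1 i hi)).ne'

/-- The partition function in the cube of side `L`. -/
noncomputable def Zc (φ : ℝ → ℝ) (L ν : ℝ) : ℝ≥0∞ :=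
  I (volume.restrict (cube L 0)) (Gib (rad φ) ν)

lemma one_le_Zc (φ : ℝ → ℝ) (L ν : ℝ) : 1 ≤ Zc φ L ν := one_le_I_Gib _ _

lemma restrict_cube_univ {L : ℝ} (hL : 0 ≤ L) (o : Fin 3 → ℝ) :
    (volume.restrict (cube L o)) univ = ENNReal.ofReal (L ^ 3) := by
  rw [Measure.restrict_apply_univ, volume_cube hL]

lemma Zc_le {φ : ℝ → ℝ} {B : ℝ} (h : Reg φ B) {L : ℝ} (hL : 0 ≤ L) (ν : ℝ) :
    Zc φ L ν ≤ ENNReal.ofReal (Real.exp (Real.exp (ν + B) * L ^ 3)) :=
  I_Gib_le_exp h.stable ν (by positivity) (restrict_cube_univ hL 0)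

lemma Zc_ne_top {φ : ℝ → ℝ} {B : ℝ} (h : Reg φ B) {L : ℝ} (hL : 0 ≤ L) (ν : ℝ) :
    Zc φ L ν ≠ ∞ :=
  ne_top_of_le_ne_top ENNReal.ofReal_ne_top (Zc_le h hL ν)

lemma lg_Zc_nonneg {φ : ℝ → ℝ} {B : ℝ} (h : Reg φ B) {L : ℝ} (hL : 0 ≤ L) (ν : ℝ) :
    0 ≤ lg (Zc φ L ν) := lg_nonneg (one_le_Zc _ _ _) (Zc_ne_top h hL ν)

lemma lg_Zc_le {φ : ℝ → ℝ} {B : ℝ} (h : Reg φ B) {L : ℝ} (hL : 0 ≤ L) (ν : ℝ) :
    lg (Zc φ L ν) ≤ Real.exp (ν + B) * L ^ 3 := by
  have := lg_le_lg (Zc_le h hL ν) (lt_of_lt_of_le one_pos (one_le_Zc _ _ _)) ENNReal.ofReal_ne_top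
  simpa using this

lemma cube_mono {L L' : ℝ} (h : L ≤ L') : cube L 0 ⊆ cube L' 0 := by
  intro x hx k
  have := hx k
  simp only [Pi.zero_apply, zero_add] at this ⊢
  exact ⟨this.1, this.2.trans_le h⟩

lemma Zc_mono (φ : ℝ → ℝ) {L L' : ℝ} (h : L ≤ L') (ν : ℝ) : Zc φ L ν ≤ Zc φ L' ν :=
  I_restrict_mono (cube_mono h) _

lemma lg_Zc_mono {φ : ℝ → ℝ} {B : ℝ} (hφ : Reg φ B) {L L' : ℝ} (h : L ≤ L') (hL' : 0 ≤ L')
    (ν : ℝ) : lg (Zc φ L ν) ≤ lg (Zc φ L' ν) :=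
  lg_le_lg (Zc_mono φ h ν) (lt_of_lt_of_le one_pos (one_le_Zc _ _ _)) (Zc_ne_top hφ hL' ν)

/-- The corner of the grid cell `δ` for cubes of side `L` separated by corridors of width `1`. -/
noncomputable def off (L : ℝ) (δ : Fin 3 → ℤ) : Fin 3 → ℝ := fun k => (L + 1) * (δ k : ℝ)

lemma off_separated {L : ℝ} (hL : 0 ≤ L) {δ δ' : Fin 3 → ℤ} (h : δ ≠ δ') {a b : E3}
    (ha : a ∈ cube L (off L δ)) (hb : b ∈ cube L (off L δ')) : 1 ≤ ‖a - b‖ := by
  obtain ⟨k, hk⟩ := Function.ne_iff.1 h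
  have h1 := ha k
  have h2 := hb k
  simp only [off] at h1 h2
  have hcoord : 1 ≤ |a k - b k| := by
    rcases lt_or_gt_of_ne hk with hlt | hlt
    · have : (δ k : ℝ) + 1 ≤ δ' k := by exact_mod_cast Int.add_one_le_iff.2 hlt
      have : (L + 1) * ((δ k : ℝ) + 1) ≤ (L + 1) * (δ' k : ℝ) :=
        mul_le_mul_of_nonneg_left this (by linarith)
      rw [abs_sub_comm]
      refine le_trans ?_ (le_abs_self _)
      nlinarith [h1.2, h2.1]
    · have : (δ' k : ℝ) + 1 ≤ δ k := by exact_mod_cast Int.add_one_le_iff.2 hlt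
      have : (L + 1) * ((δ' k : ℝ) + 1) ≤ (L + 1) * (δ k : ℝ) :=
        mul_le_mul_of_nonneg_left this (by linarith)
      refine le_trans ?_ (le_abs_self _)
      nlinarith [h2.2, h1.1]
  refine hcoord.trans ?_
  have := abs_coord_le (a - b) k
  simpa using this

lemma off_disjoint {L : ℝ} (hL : 0 ≤ L) {δ δ' : Fin 3 → ℤ} (h : δ ≠ δ') :
    Disjoint (cube L (off L δ)) (cube L (off L δ')) := by
  rw [Set.disjoint_left]
  intro x hx hx'
  have := off_separated hL h hx hx'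
  simp at this
  linarith

/-- Index set of a cubic grid. -/
noncomputable def gridIdx (K : ℕ) : Finset (Fin 3 → ℤ) := Fintype.piFinset fun _ => Finset.Ico (0 : ℤ) K

lemma card_gridIdx (K : ℕ) : (gridIdx K).card = K ^ 3 := by
  simp [gridIdx]

lemma mem_gridIdx {K : ℕ} {δ : Fin 3 → ℤ} : δ ∈ gridIdx K ↔ ∀ k, 0 ≤ δ k ∧ δ k < K := by
  simp [gridIdx]

lemma cube_off_subset {L : ℝ} (hL : 0 ≤ L) {K : ℕ} {δ : Fin 3 → ℤ} (hδ : δ ∈ gridIdx K) :
    cube L (off L δ) ⊆ cube ((K : ℝ) * (L + 1)) 0 := by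
  intro x hx k
  have h1 := hx k
  simp only [off] at h1
  have h2 := mem_gridIdx.1 hδ k
  have h3 : (δ k : ℝ) + 1 ≤ K := by exact_mod_cast Int.add_one_le_iff.2 h2.2
  have h4 : (L + 1) * ((δ k : ℝ) + 1) ≤ (L + 1) * (K : ℝ) :=
    mul_le_mul_of_nonneg_left h3 (by linarith)
  have h6 : (0 : ℝ) ≤ (δ k : ℝ) := by exact_mod_cast h2.1
  have h5 : 0 ≤ (L + 1) * (δ k : ℝ) := mul_nonneg (by linarith) h6
  simp only [Pi.zero_apply, zero_add]
  constructor
  · linarith [h1.1]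
  · nlinarith [h1.2]

/-- Superadditivity with corridors. -/
lemma lg_Zc_superadd {φ : ℝ → ℝ} {B : ℝ} (hφ : Reg φ B) {L : ℝ} (hL : 0 ≤ L) (K : ℕ) (ν : ℝ) :
    (K : ℝ) ^ 3 * lg (Zc φ L ν) ≤ lg (Zc φ ((K : ℝ) * (L + 1)) ν) := by
  have h1 := I_Gib_biUnion_ge (μ := (volume : Measure E3)) (gridIdx K)
    (fun δ => cube L (off L δ)) (fun δ _ => measurableSet_cube _ _)
    (fun δ _ δ' _ hne => off_disjoint hL hne) (symm_rad φ) (measurable_rad hφ.meas) ν
    (fun δ _ δ' _ hne a ha b hb => hφ.tail _ (off_separated hL hne ha hb))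
  have h2 : I (volume.restrict (⋃ δ ∈ gridIdx K, cube L (off L δ))) (Gib (rad φ) ν)
      ≤ Zc φ ((K : ℝ) * (L + 1)) ν := by
    have hsub : (⋃ δ ∈ gridIdx K, cube L (off L δ)) ⊆ cube ((K : ℝ) * (L + 1)) 0 :=
      iUnion₂_subset fun δ hδ => cube_off_subset hL hδ
    unfold Zc
    exact I_restrict_mono hsub _
  have h3 : ∏ δ ∈ gridIdx K, I (volume.restrict (cube L (off L δ))) (Gib (rad φ) ν)
      = (Zc φ L ν) ^ (K ^ 3) := by
    rw [Finset.prod_congr rfl (fun δ _ => I_cube_translate hφ.meas ν L (off L δ)),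
      Finset.prod_const, card_gridIdx, Zc]
  rw [h3] at h1
  have hK : 0 ≤ (K : ℝ) * (L + 1) := by positivity
  have h5 : 0 < (Zc φ L ν) ^ (K ^ 3) :=
    ENNReal.pow_pos (lt_of_lt_of_le one_pos (one_le_Zc _ _ _)) _
  have h4 : lg ((Zc φ L ν) ^ (K ^ 3)) ≤ lg (Zc φ ((K : ℝ) * (L + 1)) ν) :=
    lg_le_lg (h1.trans h2) h5 (Zc_ne_top hφ hK ν)
  rw [lg_pow, Nat.cast_pow] at h4
  exact h4

/-- The real-variable lemma behind the thermodynamic limit. -/
lemma exists_limit_of_superadd (f : ℝ → ℝ) (C : ℝ) (hf0 : ∀ L, 0 ≤ L → 0 ≤ f L)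
    (hfC : ∀ L, 0 ≤ L → f L ≤ C * L ^ 3)
    (hmono : ∀ L L', 0 ≤ L → L ≤ L' → f L ≤ f L')
    (hsup : ∀ L, 0 ≤ L → ∀ K : ℕ, (K : ℝ) ^ 3 * f L ≤ f ((K : ℝ) * (L + 1))) :
    ∃ p : ℝ, 0 ≤ p ∧ p ≤ C ∧ (∀ L, 0 < L → f L ≤ (L + 1) ^ 3 * p) ∧
      Tendsto (fun L => f L / L ^ 3) atTop (𝓝 p) := by
  have hC : 0 ≤ C := by
    have := (hf0 1 zero_le_one).trans (hfC 1 zero_le_one)
    simpa using this
  let g : Set.Ioi (0 : ℝ) → ℝ := fun L => f L / ((L : ℝ) + 1) ^ 3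
  have hg_bdd : ∀ L, g L ≤ C := by
    intro L
    have hL : (0 : ℝ) < L := L.2
    have h1 := hfC L hL.le
    refine (div_le_iff₀ (by positivity)).2 (h1.trans ?_)
    refine mul_le_mul_of_nonneg_left ?_ hC
    exact pow_le_pow_left₀ hL.le (by linarith) 3
  have hbdd : BddAbove (Set.range g) := ⟨C, by rintro _ ⟨L, rfl⟩; exact hg_bdd L⟩
  haveI : Nonempty (Set.Ioi (0 : ℝ)) := ⟨⟨1, by simp⟩⟩
  set p := ⨆ L, g L with hp
  have hle : ∀ L, 0 < L → f L ≤ (L + 1) ^ 3 * p := by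
    intro L hL
    have := le_ciSup hbdd ⟨L, hL⟩
    have h2 : f L / (L + 1) ^ 3 ≤ p := this
    rw [div_le_iff₀ (by positivity)] at h2
    linarith
  have hp0 : 0 ≤ p := by
    have := le_ciSup hbdd ⟨1, by simp⟩
    refine le_trans ?_ this
    exact div_nonneg (hf0 1 zero_le_one) (by positivity)
  have hpC : p ≤ C := ciSup_le hg_bdd
  refine ⟨p, hp0, hpC, hle, ?_⟩
  have hupper : Tendsto (fun L : ℝ => (1 + 1 / L) ^ 3 * p) atTop (𝓝 p) := by
    have : Tendsto (fun L : ℝ => 1 / L) atTop (𝓝 0) := by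
      simpa using tendsto_inv_atTop_zero (𝕜 := ℝ)
    have h2 := ((tendsto_const_nhds (x := (1 : ℝ))).add this).pow 3 |>.mul_const p
    simpa using h2
  rw [tendsto_order]
  constructor
  · intro a ha
    obtain ⟨L₀, hL₀⟩ := exists_lt_of_lt_ciSup ha
    have hL₀pos : (0 : ℝ) < L₀ := L₀.2
    -- the lower envelope
    have hlim : Tendsto (fun L : ℝ => (1 / ((L₀ : ℝ) + 1) - 1 / L) ^ 3 * f L₀) atTop
        (𝓝 ((1 / ((L₀ : ℝ) + 1) - 0) ^ 3 * f L₀)) := by
      have : Tendsto (fun L : ℝ => 1 / L) atTop (𝓝 0) := by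
        simpa using tendsto_inv_atTop_zero (𝕜 := ℝ)
      exact ((tendsto_const_nhds.sub this).pow 3).mul_const _
    have hval : (1 / ((L₀ : ℝ) + 1) - 0) ^ 3 * f L₀ = g L₀ := by
      simp only [g, sub_zero]
      field_simp
    rw [hval] at hlim
    have hev := hlim.eventually (lt_mem_nhds hL₀)
    filter_upwards [hev, eventually_ge_atTop ((L₀ : ℝ) + 1)] with L h1 hL
    refine lt_of_lt_of_le h1 ?_
    have hLpos : 0 < L := by linarith
    set K : ℕ := ⌊L / ((L₀ : ℝ) + 1)⌋₊ with hK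
    have hK1 : (K : ℝ) ≤ L / ((L₀ : ℝ) + 1) := Nat.floor_le (by positivity)
    have hK2 : L / ((L₀ : ℝ) + 1) < K + 1 := Nat.lt_floor_add_one _
    have hK3 : (K : ℝ) * ((L₀ : ℝ) + 1) ≤ L := by
      rwa [le_div_iff₀ (by positivity)] at hK1
    have hfL : (K : ℝ) ^ 3 * f L₀ ≤ f L :=
      (hsup L₀ hL₀pos.le K).trans (hmono _ _ (by positivity) hK3)
    have hdiff : 1 / ((L₀ : ℝ) + 1) - 1 / L ≤ (K : ℝ) / L := by
      have : L / ((L₀ : ℝ) + 1) / L - 1 / L < ((K : ℝ) + 1) / L - 1 / L := by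
        have := div_lt_div_of_pos_right hK2 hLpos
        linarith
      have e1 : L / ((L₀ : ℝ) + 1) / L = 1 / ((L₀ : ℝ) + 1) := by field_simp
      have e2 : ((K : ℝ) + 1) / L - 1 / L = (K : ℝ) / L := by field_simp; ring
      rw [e1, e2] at this
      exact this.le
    have hnn : 0 ≤ 1 / ((L₀ : ℝ) + 1) - 1 / L := by
      rw [sub_nonneg]
      exact one_div_le_one_div_of_le (by linarith) hL
    have hfL0 := hf0 L₀ hL₀pos.le
    calc (1 / ((L₀ : ℝ) + 1) - 1 / L) ^ 3 * f L₀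
        ≤ ((K : ℝ) / L) ^ 3 * f L₀ :=
          mul_le_mul_of_nonneg_right (pow_le_pow_left₀ hnn hdiff 3) hfL0
      _ = (K : ℝ) ^ 3 * f L₀ / L ^ 3 := by rw [div_pow]; ring
      _ ≤ f L / L ^ 3 := div_le_div_of_nonneg_right hfL (by positivity)
  · intro a ha
    have hev := hupper.eventually (gt_mem_nhds ha)
    filter_upwards [hev, eventually_gt_atTop (0 : ℝ)] with L h1 hL
    refine lt_of_le_of_lt ?_ h1
    have := hle L hL
    rw [div_le_iff₀ (by positivity)]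
    calc f L ≤ (L + 1) ^ 3 * p := this
      _ = (1 + 1 / L) ^ 3 * p * L ^ 3 := by field_simp

/-- Existence of the pressure. -/
theorem exists_pres {φ : ℝ → ℝ} {B : ℝ} (h : Reg φ B) (ν : ℝ) :
    ∃ p : ℝ, 0 ≤ p ∧ p ≤ Real.exp (ν + B) ∧ (∀ L, 0 < L → lg (Zc φ L ν) ≤ (L + 1) ^ 3 * p) ∧
      Tendsto (fun L => lg (Zc φ L ν) / L ^ 3) atTop (𝓝 p) :=
  exists_limit_of_superadd (fun L => lg (Zc φ L ν)) (Real.exp (ν + B))
    (fun L hL => lg_Zc_nonneg h hL ν) (fun L hL => lg_Zc_le h hL ν)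
    (fun L L' hL h' => lg_Zc_mono h h' (hL.trans h') ν) (fun L hL K => lg_Zc_superadd h hL K ν)

/-- The pressure of a potential. -/
noncomputable def Pres (φ : ℝ → ℝ) (ν : ℝ) : ℝ :=
  limUnder atTop (fun L : ℝ => lg (Zc φ L ν) / L ^ 3)

lemma Pres_tendsto {φ : ℝ → ℝ} {B : ℝ} (h : Reg φ B) (ν : ℝ) :
    Tendsto (fun L : ℝ => lg (Zc φ L ν) / L ^ 3) atTop (𝓝 (Pres φ ν)) := by
  obtain ⟨p, -, -, -, hp⟩ := exists_pres h ν
  unfold Pres
  rwa [hp.limUnder_eq]

lemma Pres_eq {φ : ℝ → ℝ} {B : ℝ} (h : Reg φ B) (ν : ℝ) :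
    ∃ p : ℝ, p = Pres φ ν ∧ 0 ≤ p ∧ p ≤ Real.exp (ν + B) ∧
      ∀ L, 0 < L → lg (Zc φ L ν) ≤ (L + 1) ^ 3 * p := by
  obtain ⟨p, h0, h1, h2, hp⟩ := exists_pres h ν
  refine ⟨p, ?_, h0, h1, h2⟩
  unfold Pres
  rw [hp.limUnder_eq]

lemma Pres_nonneg {φ : ℝ → ℝ} {B : ℝ} (h : Reg φ B) (ν : ℝ) : 0 ≤ Pres φ ν := by
  obtain ⟨p, rfl, h0, -, -⟩ := Pres_eq h ν
  exact h0

lemma Pres_le_exp {φ : ℝ → ℝ} {B : ℝ} (h : Reg φ B) (ν : ℝ) : Pres φ ν ≤ Real.exp (ν + B) := by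
  obtain ⟨p, rfl, -, h0, -⟩ := Pres_eq h ν
  exact h0

lemma lg_Zc_le_Pres {φ : ℝ → ℝ} {B : ℝ} (h : Reg φ B) (ν : ℝ) {L : ℝ} (hL : 0 < L) :
    lg (Zc φ L ν) ≤ (L + 1) ^ 3 * Pres φ ν := by
  obtain ⟨p, rfl, -, -, h0⟩ := Pres_eq h ν
  exact h0 L hL

/-- The pressure compared along a sequence of cubes. -/
lemma Pres_tendsto_seq {φ : ℝ → ℝ} {B : ℝ} (h : Reg φ B) (ν : ℝ) {c : ℝ} (hc : 0 < c) :
    Tendsto (fun M : ℕ => lg (Zc φ ((M : ℝ) * c) ν) / ((M : ℝ) * c) ^ 3) atTop (𝓝 (Pres φ ν)) := by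
  refine (Pres_tendsto h ν).comp ?_
  exact Tendsto.atTop_mul_const hc tendsto_natCast_atTop_atTop

/-- Monotonicity of the logarithm of the partition function. -/
lemma Zc_anti {φ φ' : ℝ → ℝ} (h : ∀ r, φ r ≤ φ' r) (L : ℝ) {ν ν' : ℝ} (hν : ν' ≤ ν) :
    Zc φ' L ν' ≤ Zc φ L ν := by
  refine I_mono fun s => ?_
  refine ENNReal.ofReal_le_ofReal (Real.exp_le_exp.2 ?_)
  have h1 := P_mono (symm_rad φ) (symm_rad φ') (fun a b => h _) s
  have h2 : (0 : ℝ) ≤ (Multiset.card s : ℝ) := Nat.cast_nonneg _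
  have h3 : ν' * (Multiset.card s : ℝ) ≤ ν * (Multiset.card s : ℝ) :=
    mul_le_mul_of_nonneg_right hν h2
  linarith

lemma Pres_anti {φ φ' : ℝ → ℝ} {B B' : ℝ} (hφ : Reg φ B) (hφ' : Reg φ' B')
    (h : ∀ r, φ r ≤ φ' r) {ν ν' : ℝ} (hν : ν' ≤ ν) : Pres φ' ν' ≤ Pres φ ν := by
  refine le_of_tendsto_of_tendsto (Pres_tendsto hφ' ν') (Pres_tendsto hφ ν) ?_
  filter_upwards [eventually_ge_atTop (0 : ℝ)] with L hL
  refine div_le_div_of_nonneg_right ?_ (by positivity)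
  exact lg_le_lg (Zc_anti h L hν) (lt_of_lt_of_le one_pos (one_le_Zc _ _ _)) (Zc_ne_top hφ hL ν)

/-- General Hoelder inequality for Gibbs weights. -/
lemma I_Gib_holder {E : Type} [MeasurableSpace E] {ρ : Measure E} [SigmaFinite ρ]
    {ι : Type*} (S : Finset ι) {u : ι → E → E → ℝ} {ν : ι → ℝ} {p : ι → ℝ}
    (hu : ∀ i ∈ S, Measurable (Function.uncurry (u i)))
    (hp : ∑ i ∈ S, p i = 1) (h2p : ∀ i ∈ S, 0 ≤ p i) {U : E → E → ℝ} {ν₀ : ℝ}
    (hpt : ∀ s : Multiset E, -P U s + ν₀ * (Multiset.card s : ℝ)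
      ≤ ∑ i ∈ S, p i * (-P (u i) s + ν i * (Multiset.card s : ℝ))) :
    I ρ (Gib U ν₀) ≤ ∏ i ∈ S, (I ρ (Gib (u i) (ν i))) ^ p i := by
  refine le_trans (I_mono fun s => ?_) (I_holder S (fun i hi => measF_Gib (hu i hi) (ν i)) hp h2p)
  have h1 : ∏ i ∈ S, Gib (u i) (ν i) s ^ p i
      = ENNReal.ofReal (Real.exp (∑ i ∈ S, p i * (-P (u i) s + ν i * (Multiset.card s : ℝ)))) := by
    rw [Real.exp_sum, ENNReal.ofReal_prod_of_nonneg (fun i _ => (Real.exp_pos _).le)]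
    refine Finset.prod_congr rfl fun i hi => ?_
    unfold Gib
    rw [ENNReal.ofReal_rpow_of_pos (Real.exp_pos _), ← Real.exp_mul]
    congr 2
    ring
  rw [h1]
  unfold Gib
  exact ENNReal.ofReal_le_ofReal (Real.exp_le_exp.2 (hpt s))

lemma J_Gib_holder {E : Type} [MeasurableSpace E] {ρ : Measure E} [SigmaFinite ρ]
    {ι : Type*} (S : Finset ι) {u : ι → E → E → ℝ} {ν : ι → ℝ} {p : ι → ℝ}
    (hu : ∀ i ∈ S, Measurable (Function.uncurry (u i)))
    (hp : ∑ i ∈ S, p i = 1) (h2p : ∀ i ∈ S, 0 ≤ p i) {U : E → E → ℝ} {ν₀ : ℝ}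
    (hpt : ∀ s : Multiset E, -P U s + ν₀ * (Multiset.card s : ℝ)
      ≤ ∑ i ∈ S, p i * (-P (u i) s + ν i * (Multiset.card s : ℝ))) (N : ℕ) :
    J ρ (Gib U ν₀) N ≤ ∏ i ∈ S, (J ρ (Gib (u i) (ν i)) N) ^ p i := by
  refine le_trans (J_mono (fun s => ?_) N)
    (J_holder S (fun i hi => measF_Gib (hu i hi) (ν i)) hp h2p N)
  have h1 : ∏ i ∈ S, Gib (u i) (ν i) s ^ p i
      = ENNReal.ofReal (Real.exp (∑ i ∈ S, p i * (-P (u i) s + ν i * (Multiset.card s : ℝ)))) := by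
    rw [Real.exp_sum, ENNReal.ofReal_prod_of_nonneg (fun i _ => (Real.exp_pos _).le)]
    refine Finset.prod_congr rfl fun i hi => ?_
    unfold Gib
    rw [ENNReal.ofReal_rpow_of_pos (Real.exp_pos _), ← Real.exp_mul]
    congr 2
    ring
  rw [h1]
  unfold Gib
  exact ENNReal.ofReal_le_ofReal (Real.exp_le_exp.2 (hpt s))

/-- The real logarithm form of a finite Hoelder bound. -/
lemma lg_le_of_prod_rpow {ι : Type*} (S : Finset ι) {x : ℝ≥0∞} {f : ι → ℝ≥0∞} {p : ι → ℝ}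
    (hx : x ≠ 0) (h : x ≤ ∏ i ∈ S, f i ^ p i) (h0 : ∀ i ∈ S, f i ≠ 0) (h1 : ∀ i ∈ S, f i ≠ ∞)
    (hp : ∀ i ∈ S, 0 ≤ p i) :
    lg x ≤ ∑ i ∈ S, p i * lg (f i) := by
  have hne : ∀ i ∈ S, f i ^ p i ≠ 0 := fun i hi => by
    simp only [ne_eq, ENNReal.rpow_eq_zero_iff, not_or, not_and, not_lt]
    exact ⟨fun h' => absurd h' (h0 i hi), fun h' => absurd h' (h1 i hi)⟩
  have htop : ∀ i ∈ S, f i ^ p i ≠ ∞ := fun i hi => ENNReal.rpow_ne_top_of_nonneg (hp i hi) (h1 i hi)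
  have hprod : ∏ i ∈ S, f i ^ p i ≠ ∞ := ENNReal.prod_ne_top htop
  have := lg_le_lg h (pos_iff_ne_zero.2 hx) hprod
  rw [lg_prod S _ hne htop] at this
  refine this.trans (le_of_eq ?_)
  exact Finset.sum_congr rfl fun i hi => lg_rpow (h0 i hi) (h1 i hi) _

/-- Convexity of the pressure jointly in the potential and the activity. -/
theorem Pres_holder {φ₀ φ₁ φ₂ : ℝ → ℝ} {B₀ B₁ B₂ : ℝ} (h₀ : Reg φ₀ B₀) (h₁ : Reg φ₁ B₁)
    (h₂ : Reg φ₂ B₂) {t : ℝ} (ht0 : 0 ≤ t) (ht1 : t ≤ 1) (hφ : ∀ r, φ₀ r = (1 - t) * φ₁ r + t * φ₂ r)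
    (ν₁ ν₂ : ℝ) :
    Pres φ₀ ((1 - t) * ν₁ + t * ν₂) ≤ (1 - t) * Pres φ₁ ν₁ + t * Pres φ₂ ν₂ := by
  set ν₀ := (1 - t) * ν₁ + t * ν₂
  have hbound : ∀ L : ℝ, 0 ≤ L →
      lg (Zc φ₀ L ν₀) ≤ (1 - t) * lg (Zc φ₁ L ν₁) + t * lg (Zc φ₂ L ν₂) := by
    intro L hL
    have key := I_Gib_holder (ρ := volume.restrict (cube L 0)) (Finset.univ : Finset Bool)
      (u := fun b => if b then rad φ₂ else rad φ₁) (ν := fun b => if b then ν₂ else ν₁)
      (p := fun b => if b then t else 1 - t)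
      (by
        intro b _
        cases b
        · simpa using measurable_rad h₁.meas
        · simpa using measurable_rad h₂.meas)
      (by simp)
      (by
        intro b _
        cases b
        · simpa using ht1
        · simpa using ht0)
      (U := rad φ₀) (ν₀ := ν₀)
      (by
        intro s
        have e : rad φ₀ = fun a b => (1 - t) * rad φ₁ a b + t * rad φ₂ a b := by
          funext a b
          simp only [rad]
          exact hφ _
        rw [e, P_add_kernel ((symm_rad _).const_mul _) ((symm_rad _).const_mul _),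
          P_const_mul (symm_rad _), P_const_mul (symm_rad _)]
        rw [Fintype.sum_bool]
        simp only [ν₀, if_true, if_false, Bool.false_eq_true]
        apply le_of_eq
        ring)
    have key2 := lg_le_of_prod_rpow (Finset.univ : Finset Bool) (x := Zc φ₀ L ν₀)
      (f := fun b => I (volume.restrict (cube L 0))
        (Gib (if b then rad φ₂ else rad φ₁) (if b then ν₂ else ν₁)))
      (p := fun b => if b then t else 1 - t)
      (ne_of_gt (lt_of_lt_of_le one_pos (one_le_Zc _ _ _))) key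
      (fun b _ => ne_of_gt (lt_of_lt_of_le one_pos (one_le_I_Gib _ _)))
      (fun b _ => by
        cases b
        · exact Zc_ne_top h₁ hL ν₁
        · exact Zc_ne_top h₂ hL ν₂)
      (fun b _ => by
        cases b
        · simpa using ht1
        · simpa using ht0)
    rw [Fintype.sum_bool] at key2
    simp only [if_true, if_false, Bool.false_eq_true] at key2
    have e1 : I (volume.restrict (cube L 0)) (Gib (rad φ₂) ν₂) = Zc φ₂ L ν₂ := rfl
    have e2 : I (volume.restrict (cube L 0)) (Gib (rad φ₁) ν₁) = Zc φ₁ L ν₁ := rfl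
    rw [e1, e2] at key2
    linarith
  have hlim : Tendsto (fun L : ℝ => (1 - t) * (lg (Zc φ₁ L ν₁) / L ^ 3)
      + t * (lg (Zc φ₂ L ν₂) / L ^ 3)) atTop (𝓝 ((1 - t) * Pres φ₁ ν₁ + t * Pres φ₂ ν₂)) :=
    ((Pres_tendsto h₁ ν₁).const_mul _).add ((Pres_tendsto h₂ ν₂).const_mul _)
  refine le_of_tendsto_of_tendsto (Pres_tendsto h₀ ν₀) hlim ?_
  filter_upwards [eventually_ge_atTop (0 : ℝ)] with L hL
  have h3 := hbound L hL
  have h4 : (0 : ℝ) ≤ L ^ 3 := by positivity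
  have h5 := div_le_div_of_nonneg_right h3 h4
  refine h5.trans (le_of_eq ?_)
  ring

end Vale.Agent.Lib.P171
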