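import Vale.Agent.Lib.P171.Approx
import Vale.Agent.Lib.P171.Lines

/-!
The inductive step: a near jump of the pressure produces a sharper near jump after adding a long
range attraction; and the base case.
-/

set_option linter.unusedSectionVars false
set_option linter.unusedSimpArgs false
set_option linter.unusedVariables false

open MeasureTheory Set Filter Topology
open scoped ENNReal BigOperators

namespace Vale.Agent.Lib.P171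

/-- A near jump of the derivative of a function at `ν`, on the scale `h`. -/
def NJ (f : ℝ → ℝ) (ν h ρ₁ ρ₂ : ℝ) : Prop := f ν + h * ρ₂ ≤ f (ν + h) ∧ f ν - h * ρ₁ ≤ f (ν - h)

lemma GG_eq_env (a : ℝ) (φ : ℝ → ℝ) (ℓ : ℕ) (ν : ℝ) :
    GG a φ ℓ ν = env a (yy φ ℓ) (rh ℓ) (famIdx ℓ) (famIdx_nonempty ℓ) ν := rfl

/-- Passing from a near jump of an approximating function to the function itself. -/
lemma NJ_of_close {f g : ℝ → ℝ} {ν h ρ₁ ρ₂ ε : ℝ} (hfg : NJ g ν h ρ₁ ρ₂)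
    (h1 : f ν ≤ g ν + ε) (h2 : g ν ≤ f ν + ε) (h3 : f (ν + h) ≤ g (ν + h) + ε)
    (h4 : g (ν + h) ≤ f (ν + h) + ε) (h5 : f (ν - h) ≤ g (ν - h) + ε)
    (h6 : g (ν - h) ≤ f (ν - h) + ε) {η : ℝ} (hh : 0 < h) (hη : 2 * ε ≤ h * η) :
    NJ f ν h (ρ₁ + η) (ρ₂ - η) := by
  obtain ⟨h7, h8⟩ := hfg
  constructor <;> nlinarith

/-- The inductive step. -/
theorem step {w : ℝ → ℝ} {c r a : ℝ} (hw : Attr w c) (hc0 : 0 ≤ c) (hc : c ≤ 16384) (hwr : Rng w r)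
    (ha : 0 ≤ a) (ha' : a ≤ 128) (hcA : c + 108 * a ≤ 65536) {ν₀ h h' ρ₁ ρ₂ η : ℝ} (hh : 0 < h)
    (hh' : 0 < h') (hNJ : NJ (Pres (pot w)) ν₀ h ρ₁ ρ₂) (hη : 0 < η)
    (hgap : 1 / 128 + η ≤ ρ₂ - ρ₁) (hha : h ≤ a / 512)
    (hν : ν₀ + 128 * (64 * h + 2048 * a) + h' ≤ 4096) (hν' : ν₀ + h ≤ 4096) :
    ∃ R : ℝ, 1 ≤ R ∧ ∃ ν', |ν' - ν₀| ≤ 128 * (64 * h + 2048 * a) ∧
      NJ (Pres (fun x => core 131072 x - w x - hat a R x)) ν' h' (ρ₁ + η) (ρ₂ - η) := by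
  have hc32 : c ≤ 32768 := by linarith
  have hδ0 : 0 ≤ 128 * (64 * h + 2048 * a) := by positivity
  have hν1 : ν₀ ≤ 4096 := by linarith
  have hν2 : ν₀ - h ≤ 4096 := by linarith
  set ε₁ := h * η / 4 with hε₁
  set ε₂ := h' * η / 4 with hε₂
  have hε₁0 : 0 < ε₁ := by positivity
  have hε₂0 : 0 < ε₂ := by positivity
  obtain ⟨m, hm, hev⟩ := approx hw hc0 hc hwr ha ha' hcA hε₂0
  have hmq : Tendsto (fun q : ℕ => m * q) atTop atTop :=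
    Tendsto.const_mul_atTop' (by omega) tendsto_id
  have hc1 := hmq.eventually (GG0_close hw hc32 hν1 hε₁0)
  have hc2 := hmq.eventually (GG0_close hw hc32 hν' hε₁0)
  have hc3 := hmq.eventually (GG0_close hw hc32 hν2 hε₁0)
  obtain ⟨q, ⟨R₀, hR₀⟩, ⟨h1a, h1b⟩, ⟨h2a, h2b⟩, ⟨h3a, h3b⟩, hq⟩ :=
    (hev.and (hc1.and (hc2.and (hc3.and (eventually_ge_atTop 1))))).exists
  set ℓ := m * q with hℓ
  have hℓ1 : 1 ≤ ℓ := Nat.mul_pos (by omega) hq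
  obtain ⟨hR1, hRbd⟩ := hR₀ (max R₀ 1) (le_max_left _ _)
  refine ⟨max R₀ 1, hR1, ?_⟩
  set P' := Pres (fun x => core 131072 x - w x - hat a (max R₀ 1) x) with hP'
  -- the near jump of the envelope without mean field term
  set ρ₁' := ρ₁ + η / 2 with hρ₁'
  set ρ₂' := ρ₂ - η / 2 with hρ₂'
  have hgap' : 1 / 128 ≤ ρ₂' - ρ₁' := by
    simp only [hρ₁', hρ₂']
    linarith
  have hgap'0 : 0 < ρ₂' - ρ₁' := by linarith
  have hq1 : env 0 (yy (pot w) ℓ) (rh ℓ) (famIdx ℓ) (famIdx_nonempty ℓ) ν₀ + h * ρ₂'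
      ≤ env 0 (yy (pot w) ℓ) (rh ℓ) (famIdx ℓ) (famIdx_nonempty ℓ) (ν₀ + h) := by
    rw [← GG_eq_env, ← GG_eq_env]
    have := hNJ.1
    simp only [hρ₂', hε₁] at *
    nlinarith
  have hq2 : env 0 (yy (pot w) ℓ) (rh ℓ) (famIdx ℓ) (famIdx_nonempty ℓ) ν₀ - h * ρ₁'
      ≤ env 0 (yy (pot w) ℓ) (rh ℓ) (famIdx ℓ) (famIdx_nonempty ℓ) (ν₀ - h) := by
    rw [← GG_eq_env, ← GG_eq_env]
    have := hNJ.2
    simp only [hρ₁', hε₁] at *
    nlinarith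
  have hlines := lines_step (a := a) (D := 64) (famIdx_nonempty ℓ) ha hh (fun N _ => rh_nonneg ℓ N)
    (fun N hN => rh_le hℓ1 hN) (by linarith) (by
      have : (a / 4) * (1 / 128) ≤ (a / 4) * (ρ₂' - ρ₁') :=
        mul_le_mul_of_nonneg_left hgap' (by positivity)
      linarith) hq1 hq2
  obtain ⟨ν_c, hν_c, hcorner⟩ := hlines
  have hδ : (h * 64 + (a / 2) * 64 ^ 2) / (ρ₂' - ρ₁') ≤ 128 * (64 * h + 2048 * a) := by
    rw [div_le_iff₀ hgap'0]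
    have h10 : 0 ≤ 64 * h + 2048 * a := by positivity
    have e : h * 64 + (a / 2) * 64 ^ 2 = 64 * h + 2048 * a := by ring
    rw [e]
    nlinarith
  have hdist := hν_c.trans hδ
  refine ⟨ν_c, hdist, ?_⟩
  have hcu := (abs_le.1 hdist).2
  have hc0' : ν_c ≤ 4096 := by linarith
  have hcp : ν_c + h' ≤ 4096 := by linarith
  have hcm : ν_c - h' ≤ 4096 := by linarith
  obtain ⟨h3, h4⟩ := hcorner h' hh'
  rw [← GG_eq_env, ← GG_eq_env] at h3 h4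
  have hNJG : NJ (GG a (pot w) ℓ) ν_c h' ρ₁' ρ₂' := ⟨h3, h4⟩
  have hfinal := NJ_of_close (f := P') (η := η / 2) (ε := ε₂) hNJG (hRbd ν_c hc0').1 (hRbd ν_c hc0').2
    (hRbd _ hcp).1 (hRbd _ hcp).2 (hRbd _ hcm).1 (hRbd _ hcm).2 hh' (by
      simp only [hε₂]
      nlinarith)
  have e1 : ρ₁' + η / 2 = ρ₁ + η := by simp only [hρ₁']; ring
  have e2 : ρ₂' - η / 2 = ρ₂ - η := by simp only [hρ₂']; ring
  rwa [e1, e2] at hfinal

end Vale.Agent.Lib.P171
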