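import Vale.Agent.Lib.P171.Lower

/-!
The upper bound for the pressure with a long range attraction: averaging over shifted grids and
Hoelder's inequality.
-/

set_option linter.unusedSectionVars false
set_option linter.unusedSimpArgs false
set_option linter.unusedVariables false

open MeasureTheory Set Filter Topology
open scoped ENNReal BigOperators

namespace Vale.Agent.Lib.P171

/-! ### Counting the shifted grids that separate two close points -/

lemma exists_mult {ℓ o u v : ℝ} (hℓ : 0 < ℓ) (huv : u < v)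
    (h : ⌊(u - o) / ℓ⌋ ≠ ⌊(v - o) / ℓ⌋) : ∃ n : ℤ, u < ℓ * (n : ℝ) + o ∧ ℓ * (n : ℝ) + o ≤ v := by
  have h1 : ⌊(u - o) / ℓ⌋ ≤ ⌊(v - o) / ℓ⌋ :=
    Int.floor_le_floor (div_le_div_of_nonneg_right (by linarith) hℓ.le)
  have h2 : ⌊(u - o) / ℓ⌋ < ⌊(v - o) / ℓ⌋ := lt_of_le_of_ne h1 h
  refine ⟨⌊(v - o) / ℓ⌋, ?_, ?_⟩
  · have h3 := Int.floor_lt.1 h2
    rw [div_lt_iff₀ hℓ] at h3
    nlinarith
  · have h3 := Int.floor_le ((v - o) / ℓ)
    rw [le_div_iff₀ hℓ] at h3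
    nlinarith

lemma sep_coord {m : ℕ} {q u v : ℝ} (hq : 0 < q) (hm : 0 < m) (huv : u < v) (hd : v - u ≤ q)
    {i i' : ℕ} (hi : i < m) (hi' : i' < m)
    (h : ⌊(u - (i : ℝ) * q) / ((m : ℝ) * q)⌋ ≠ ⌊(v - (i : ℝ) * q) / ((m : ℝ) * q)⌋)
    (h' : ⌊(u - (i' : ℝ) * q) / ((m : ℝ) * q)⌋ ≠ ⌊(v - (i' : ℝ) * q) / ((m : ℝ) * q)⌋) : i = i' := by
  have hm' : (0 : ℝ) < m := by exact_mod_cast hm
  have hℓ : 0 < (m : ℝ) * q := by positivity
  obtain ⟨n, hn1, hn2⟩ := exists_mult hℓ huv h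
  obtain ⟨n', hn1', hn2'⟩ := exists_mult hℓ huv h'
  -- the two integers coincide
  set x : ℤ := (m : ℤ) * n + i with hx
  set x' : ℤ := (m : ℤ) * n' + i' with hx'
  have e1 : (m : ℝ) * q * (n : ℝ) + (i : ℝ) * q = (x : ℝ) * q := by
    simp only [hx]; push_cast; ring
  have e2 : (m : ℝ) * q * (n' : ℝ) + (i' : ℝ) * q = (x' : ℝ) * q := by
    simp only [hx']; push_cast; ring
  rw [e1] at hn1 hn2
  rw [e2] at hn1' hn2'
  have h3 : ((x : ℝ) - x') * q < q := by nlinarith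
  have h4 : ((x' : ℝ) - x) * q < q := by nlinarith
  have h5 : (x : ℝ) - x' < 1 := by
    by_contra hcon
    push Not at hcon
    nlinarith
  have h6 : (x' : ℝ) - x < 1 := by
    by_contra hcon
    push Not at hcon
    nlinarith
  have h7 : x - x' < 1 := by exact_mod_cast h5
  have h8 : x' - x < 1 := by exact_mod_cast h6
  have h9 : x = x' := by omega
  have h10 : (m : ℤ) * (n - n') = (i' : ℤ) - i := by
    have : (m : ℤ) * n + i = (m : ℤ) * n' + i' := h9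
    linarith
  have hmz : (0 : ℤ) < m := by exact_mod_cast hm
  have hiz : (i : ℤ) < m := by exact_mod_cast hi
  have hiz' : (i' : ℤ) < m := by exact_mod_cast hi'
  have hi0 : (0 : ℤ) ≤ i := by positivity
  have hi0' : (0 : ℤ) ≤ i' := by positivity
  have h11 : n - n' = 0 := by
    by_contra hne
    rcases lt_or_gt_of_ne hne with hlt | hgt
    · have : n - n' ≤ -1 := by omega
      nlinarith
    · have : 1 ≤ n - n' := by omega
      nlinarith
  rw [h11, mul_zero] at h10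
  omega

lemma cellOf_coord (ℓ o : ℝ) (x : E3) (k : Fin 3) : cellOf ℓ o x k = ⌊(x k - o) / ℓ⌋ := rfl

lemma card_sep_coord_le {m : ℕ} {q : ℝ} (hq : 0 < q) (hm : 0 < m) {x y : E3} (hxy : ‖x - y‖ ≤ q)
    (k : Fin 3) :
    ((Finset.range m).filter fun i : ℕ =>
      cellOf ((m : ℝ) * q) ((i : ℝ) * q) x k ≠ cellOf ((m : ℝ) * q) ((i : ℝ) * q) y k).card ≤ 1 := by
  refine Finset.card_le_one.2 fun i hi i' hi' => ?_
  obtain ⟨hi1, hi2⟩ := Finset.mem_filter.1 hi
  obtain ⟨hi1', hi2'⟩ := Finset.mem_filter.1 hi'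
  rw [Finset.mem_range] at hi1 hi1'
  simp only [cellOf_coord] at hi2 hi2'
  have hcoord : |x k - y k| ≤ q := by
    refine le_trans ?_ hxy
    have := abs_coord_le (x - y) k
    simpa using this
  rcases lt_trichotomy (x k) (y k) with hlt | heq | hgt
  · refine sep_coord hq hm hlt ?_ hi1 hi1' hi2 hi2'
    have := (abs_le.1 hcoord).1
    linarith
  · exfalso
    apply hi2
    rw [heq]
  · refine sep_coord hq hm hgt ?_ hi1 hi1' hi2.symm hi2'.symm
    have := (abs_le.1 hcoord).2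
    linarith

lemma card_sep_le {m : ℕ} {q : ℝ} (hq : 0 < q) (hm : 0 < m) {x y : E3} (hxy : ‖x - y‖ ≤ q) :
    ((Finset.range m).filter fun i : ℕ =>
      cellOf ((m : ℝ) * q) ((i : ℝ) * q) x ≠ cellOf ((m : ℝ) * q) ((i : ℝ) * q) y).card ≤ 3 := by
  classical
  have hsub : ((Finset.range m).filter fun i : ℕ =>
      cellOf ((m : ℝ) * q) ((i : ℝ) * q) x ≠ cellOf ((m : ℝ) * q) ((i : ℝ) * q) y)
      ⊆ Finset.univ.biUnion fun k : Fin 3 => ((Finset.range m).filter fun i : ℕ =>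
        cellOf ((m : ℝ) * q) ((i : ℝ) * q) x k ≠ cellOf ((m : ℝ) * q) ((i : ℝ) * q) y k) := by
    intro i hi
    obtain ⟨hi1, hi2⟩ := Finset.mem_filter.1 hi
    obtain ⟨k, hk⟩ := Function.ne_iff.1 hi2
    exact Finset.mem_biUnion.2 ⟨k, Finset.mem_univ _, Finset.mem_filter.2 ⟨hi1, hk⟩⟩
  refine (Finset.card_le_card hsub).trans (Finset.card_biUnion_le.trans ?_)
  calc _ ≤ ∑ _k : Fin 3, 1 := Finset.sum_le_sum fun k _ => card_sep_coord_le hq hm hxy k
    _ = 3 := by simp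

lemma sum_sameK_ge {m : ℕ} {q : ℝ} (hq : 0 < q) (hm : 0 < m) {x y : E3} (hxy : ‖x - y‖ ≤ q) :
    (m : ℝ) - 3 ≤ ∑ i ∈ Finset.range m, sameK ((m : ℝ) * q) ((i : ℝ) * q) x y := by
  classical
  have h1 := card_sep_le hq hm hxy
  have h2 : ∀ i ∈ Finset.range m, (1 : ℝ)
      - (if cellOf ((m : ℝ) * q) ((i : ℝ) * q) x ≠ cellOf ((m : ℝ) * q) ((i : ℝ) * q) y then 1 else 0)
      = sameK ((m : ℝ) * q) ((i : ℝ) * q) x y := by
    intro i _
    unfold sameK
    by_cases h : cellOf ((m : ℝ) * q) ((i : ℝ) * q) x = cellOf ((m : ℝ) * q) ((i : ℝ) * q) y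
    · simp [h]
    · simp [h]
  rw [← Finset.sum_congr rfl h2, Finset.sum_sub_distrib, Finset.sum_ite, Finset.sum_const_zero,
    add_zero, Finset.sum_const, Finset.sum_const, Finset.card_range, nsmul_eq_mul, nsmul_eq_mul,
    mul_one, mul_one]
  have h3 : (((Finset.range m).filter fun i : ℕ =>
      cellOf ((m : ℝ) * q) ((i : ℝ) * q) x ≠ cellOf ((m : ℝ) * q) ((i : ℝ) * q) y).card : ℝ) ≤ 3 := by
    exact_mod_cast h1
  linarith

/-! ### The cells of a shifted grid -/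

/-- A cell of the grid of side `ℓ` with diagonal offset `o`. -/
def gcell (ℓ o : ℝ) (δ : Fin 3 → ℤ) : Set E3 := cube ℓ fun k => ℓ * (δ k : ℝ) + o

lemma cellOf_of_mem {ℓ o : ℝ} (hℓ : 0 < ℓ) {δ : Fin 3 → ℤ} {x : E3} (hx : x ∈ gcell ℓ o δ) :
    cellOf ℓ o x = δ := by
  funext k
  have h := hx k
  simp only [cellOf_coord]
  rw [Int.floor_eq_iff]
  constructor
  · rw [le_div_iff₀ hℓ]
    nlinarith [h.1]
  · rw [div_lt_iff₀ hℓ]
    nlinarith [h.2]

lemma gcell_disjoint {ℓ o : ℝ} (hℓ : 0 < ℓ) {δ δ' : Fin 3 → ℤ} (h : δ ≠ δ') :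
    Disjoint (gcell ℓ o δ) (gcell ℓ o δ') := by
  rw [Set.disjoint_left]
  intro x hx hx'
  exact h ((cellOf_of_mem hℓ hx).symm.trans (cellOf_of_mem hℓ hx'))

/-- Index set of the cells meeting a cube. -/
noncomputable def coverIdx (M : ℕ) : Finset (Fin 3 → ℤ) :=
  Fintype.piFinset fun _ => Finset.Ico (-1 : ℤ) M

lemma card_coverIdx (M : ℕ) : (coverIdx M).card = (M + 1) ^ 3 := by
  simp only [coverIdx, Fintype.card_piFinset, Finset.prod_const, Finset.card_univ, Fintype.card_fin,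
    Int.card_Ico]
  congr 1

lemma cube_subset_cover {ℓ o : ℝ} (hℓ : 0 < ℓ) (ho0 : 0 ≤ o) (ho1 : o ≤ ℓ) (M : ℕ) :
    cube ((M : ℝ) * ℓ) 0 ⊆ ⋃ δ ∈ coverIdx M, gcell ℓ o δ := by
  intro x hx
  simp only [mem_iUnion]
  refine ⟨cellOf ℓ o x, ?_, fun k => ?_⟩
  · simp only [coverIdx, Fintype.mem_piFinset, Finset.mem_Ico]
    intro k
    have h := hx k
    simp only [Pi.zero_apply, zero_add] at h
    have hs := cellOf_spec hℓ o x k
    constructor
    · by_contra hcon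
      push Not at hcon
      have h1 : cellOf ℓ o x k + 1 ≤ -1 := by omega
      have h2 : ((cellOf ℓ o x k : ℤ) : ℝ) + 1 ≤ -1 := by exact_mod_cast h1
      nlinarith [hs.2, h.1]
    · by_contra hcon
      push Not at hcon
      have h2 : (M : ℝ) ≤ ((cellOf ℓ o x k : ℤ) : ℝ) := by exact_mod_cast hcon
      nlinarith [hs.1, h.2]
  · exact cellOf_spec hℓ o x k

/-! ### Kernels restricted to the cells of a grid -/

/-- The restriction of a kernel to pairs in a common cell of a grid. -/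
noncomputable def inCell (ℓ o : ℝ) (u : E3 → E3 → ℝ) (x y : E3) : ℝ := sameK ℓ o x y * u x y

lemma symm_inCell (ℓ o : ℝ) {u : E3 → E3 → ℝ} (hu : Symm u) : Symm (inCell ℓ o u) := fun x y => by
  unfold inCell
  rw [symm_sameK ℓ o x y, hu x y]

lemma measurable_inCell (ℓ o : ℝ) {u : E3 → E3 → ℝ} (hu : Measurable (Function.uncurry u)) :
    Measurable (Function.uncurry (inCell ℓ o u)) :=
  (measurable_sameK ℓ o).mul hu

lemma inCell_of_mem {ℓ o : ℝ} (hℓ : 0 < ℓ) {δ : Fin 3 → ℤ} {u : E3 → E3 → ℝ} {x y : E3}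
    (hx : x ∈ gcell ℓ o δ) (hy : y ∈ gcell ℓ o δ) : inCell ℓ o u x y = u x y := by
  unfold inCell sameK
  rw [if_pos ((cellOf_of_mem hℓ hx).trans (cellOf_of_mem hℓ hy).symm), one_mul]

lemma inCell_of_ne {ℓ o : ℝ} (hℓ : 0 < ℓ) {δ δ' : Fin 3 → ℤ} {u : E3 → E3 → ℝ} {x y : E3}
    (h : δ ≠ δ') (hx : x ∈ gcell ℓ o δ) (hy : y ∈ gcell ℓ o δ') : inCell ℓ o u x y = 0 := by
  unfold inCell sameK
  rw [cellOf_of_mem hℓ hx, cellOf_of_mem hℓ hy, if_neg h, zero_mul]

/-- Factorization over the cells of a grid. -/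
lemma I_inCell_le {ℓ o : ℝ} (hℓ : 0 < ℓ) (ho0 : 0 ≤ o) (ho1 : o ≤ ℓ) {φ : ℝ → ℝ} (hφ : Measurable φ)
    (M : ℕ) (ν : ℝ) :
    I (volume.restrict (cube ((M : ℝ) * ℓ) 0)) (Gib (inCell ℓ o (rad φ)) ν)
      ≤ (Zc φ ℓ ν) ^ ((M + 1) ^ 3) := by
  classical
  have hsym := symm_inCell ℓ o (symm_rad φ)
  have hmeas := measurable_inCell ℓ o (measurable_rad hφ)
  have h1 := I_restrict_mono (μ := (volume : Measure E3)) (cube_subset_cover hℓ ho0 ho1 M)
    (Gib (inCell ℓ o (rad φ)) ν)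
  have h2 := I_Gib_biUnion_le (μ := (volume : Measure E3)) (coverIdx M) (fun δ => gcell ℓ o δ)
    (fun δ _ => measurableSet_cube _ _) (fun δ _ δ' _ hne => gcell_disjoint hℓ hne) hsym hmeas ν
    (fun δ _ δ' _ hne a ha b hb => (inCell_of_ne hℓ hne ha hb).ge)
  have h3 : ∏ δ ∈ coverIdx M, I (volume.restrict (gcell ℓ o δ)) (Gib (inCell ℓ o (rad φ)) ν)
      = (Zc φ ℓ ν) ^ ((M + 1) ^ 3) := by
    have h4 : ∀ δ ∈ coverIdx M, I (volume.restrict (gcell ℓ o δ)) (Gib (inCell ℓ o (rad φ)) ν)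
        = Zc φ ℓ ν := by
      intro δ _
      have h5 : I (volume.restrict (gcell ℓ o δ)) (Gib (inCell ℓ o (rad φ)) ν)
          = I (volume.restrict (gcell ℓ o δ)) (Gib (rad φ) ν) := by
        refine I_congr_on (measurableSet_cube _ _) fun s hs => ?_
        unfold Gib
        rw [P_congr_on hsym (symm_rad φ) fun a ha b hb => inCell_of_mem hℓ (hs a ha) (hs b hb)]
      rw [h5]
      unfold Zc gcell
      exact I_cube_translate hφ ν ℓ _
    rw [Finset.prod_congr rfl h4, Finset.prod_const, card_coverIdx]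
  rw [h3] at h2
  exact h1.trans h2

/-- The pointwise inequality behind the upper bound. -/
lemma pointwise_upper {A : ℝ} (hA : 0 ≤ A) {w : ℝ → ℝ} {r : ℝ} (hwr : Rng w r)
    (hw0 : ∀ x, 0 ≤ w x) {a R : ℝ} (ha : 0 ≤ a) (hR : 0 < R) {m : ℕ} {q : ℝ} (hq : 0 < q)
    (hrq : r ≤ q) (hm : 6 ≤ m) (ν : ℝ) (s : Multiset E3) :
    let ℓ := (m : ℝ) * q
    let t := 3 / (m : ℝ)
    let a₁ := a * (1 + 4 * ℓ / R) ^ 3 / (1 - t)
    let φ₁ := fun x => core A x - (1 / (1 - t)) * w x - a₁ / ℓ ^ 3;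
    -P (rad fun x => core A x - w x - hat a R x) s + ν * (Multiset.card s : ℝ)
      ≤ ∑ i ∈ Finset.range m, ((1 - t) / (m : ℝ)) *
          (-P (inCell ℓ ((i : ℝ) * q) (rad φ₁)) s
            + (ν + a₁ / (2 * ℓ ^ 3)) * (Multiset.card s : ℝ))
        + t * (-P (rad fun x => core A x - w x) s + ν * (Multiset.card s : ℝ)) := by
  intro ℓ t a₁ φ₁
  have hm0 : (0 : ℝ) < m := by
    have : 0 < m := by omega
    exact_mod_cast this
  have hm6 : (6 : ℝ) ≤ m := by exact_mod_cast hm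
  have hm' : 0 < m := by omega
  have hℓ : 0 < ℓ := by positivity
  have ht1 : t ≤ 1 / 2 := by
    simp only [t]
    rw [div_le_iff₀ hm0]
    linarith
  have ht0 : 0 < t := by
    simp only [t]
    positivity
  have h1t : 0 < 1 - t := by linarith
  set N : ℝ := (Multiset.card s : ℝ) with hN
  set pc := P (rad (core A)) s with hpc
  set pw := P (rad w) s with hpw
  set ph := P (rad (hat a R)) s with hph
  have hL : P (rad fun x => core A x - w x - hat a R x) s = pc - pw - ph := by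
    rw [P_rad_sub (fun x => core A x - w x) (hat a R), P_rad_sub]
  have hG : P (rad fun x => core A x - w x) s = pc - pw := P_rad_sub _ _ _
  set Ci := fun i : ℕ => P (inCell ℓ ((i : ℝ) * q) (rad (core A))) s with hCi
  set Wi := fun i : ℕ => P (inCell ℓ ((i : ℝ) * q) (rad w)) s with hWi
  set Si := fun i : ℕ => P (sameK ℓ ((i : ℝ) * q)) s with hSi
  set κ := a₁ / ℓ ^ 3 with hκ
  -- decomposition of the grid kernels
  have hdec : ∀ i : ℕ, P (inCell ℓ ((i : ℝ) * q) (rad φ₁)) s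
      = Ci i - (1 / (1 - t)) * Wi i - κ * Si i := by
    intro i
    have e : inCell ℓ ((i : ℝ) * q) (rad φ₁) = fun x y =>
        (fun x y => inCell ℓ ((i : ℝ) * q) (rad (core A)) x y
          + (-(1 / (1 - t))) * inCell ℓ ((i : ℝ) * q) (rad w) x y) x y
        + (-κ) * sameK ℓ ((i : ℝ) * q) x y := by
      funext x y
      simp only [inCell, rad, φ₁]
      ring
    have s1 := symm_inCell ℓ ((i : ℝ) * q) (symm_rad (core A))
    have s2 := symm_inCell ℓ ((i : ℝ) * q) (symm_rad w)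
    have s3 := symm_sameK ℓ ((i : ℝ) * q)
    rw [e, P_add_kernel (s1.add (s2.const_mul _)) (s3.const_mul _), P_add_kernel s1 (s2.const_mul _),
      P_const_mul s2, P_const_mul s3]
    simp only [hCi, hWi, hSi]
    ring
  -- the three bounds
  have hC : ∀ i : ℕ, Ci i ≤ pc := by
    intro i
    refine P_mono (symm_inCell _ _ (symm_rad _)) (symm_rad _) (fun x y => ?_) s
    unfold inCell
    have h1 := sameK_le_one ℓ ((i : ℝ) * q) x y
    have h2 : 0 ≤ rad (core A) x y := core_nonneg hA _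
    nlinarith
  have hW : (1 - t) * pw ≤ (1 / (m : ℝ)) * ∑ i ∈ Finset.range m, Wi i := by
    have h1 := P_finset_sum (Finset.range m) (fun _ => 1 / (m : ℝ))
      (fun i : ℕ => inCell ℓ ((i : ℝ) * q) (rad w))
      (fun i _ => symm_inCell _ _ (symm_rad _)) s
    have hsymsum : Symm (fun x y => ∑ i ∈ Finset.range m, (1 / (m : ℝ))
        * inCell ℓ ((i : ℝ) * q) (rad w) x y) := fun x y =>
      Finset.sum_congr rfl fun i _ => by rw [symm_inCell _ _ (symm_rad _) x y]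
    have h2 : P (fun x y => (1 - t) * rad w x y) s
        ≤ P (fun x y => ∑ i ∈ Finset.range m, (1 / (m : ℝ))
          * inCell ℓ ((i : ℝ) * q) (rad w) x y) s := by
      refine P_mono ((symm_rad _).const_mul _) hsymsum (fun x y => ?_) s
      rw [← Finset.mul_sum]
      simp only [inCell]
      rw [← Finset.sum_mul]
      by_cases hxy : ‖x - y‖ ≤ q
      · have h3 := sum_sameK_ge hq hm' hxy
        have h4 : 0 ≤ rad w x y := hw0 _
        have e : 1 - t = (1 / (m : ℝ)) * ((m : ℝ) - 3) := by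
          simp only [t]
          field_simp
        rw [e, ← mul_assoc]
        refine mul_le_mul_of_nonneg_right ?_ h4
        exact mul_le_mul_of_nonneg_left h3 (by positivity)
      · have h3 : rad w x y = 0 := hwr _ (lt_of_le_of_lt hrq (not_le.1 hxy))
        rw [h3]
        simp
    rw [h1, P_const_mul (symm_rad _), ← Finset.mul_sum] at h2
    exact h2
  have hS : ∀ i : ℕ, ph ≤ (a * (1 + 4 * ℓ / R) ^ 3 / ℓ ^ 3) * Si i
      + (a * (1 + 4 * ℓ / R) ^ 3 / (2 * ℓ ^ 3)) * N := by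
    intro i
    have h1 := P_hat_le ha hR hℓ ((i : ℝ) * q) s
    have h2 := P_sameK_eq ℓ ((i : ℝ) * q) s
    have h3 : pairSum (sameK ℓ ((i : ℝ) * q)) s s = 2 * Si i + N := by
      simp only [hSi, hN]
      rw [h2]
      ring
    rw [h3] at h1
    refine h1.trans (le_of_eq ?_)
    field_simp
  -- combining
  set a₂ := a * (1 + 4 * ℓ / R) ^ 3 with ha₂
  have ha₁ : a₁ = a₂ / (1 - t) := rfl
  have hκ2 : (1 - t) * κ = a₂ / ℓ ^ 3 := by
    simp only [hκ, ha₁]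
    field_simp
  have hν2 : (1 - t) * (a₁ / (2 * ℓ ^ 3)) = a₂ / (2 * ℓ ^ 3) := by
    simp only [ha₁]
    field_simp
  have hsum : ∑ i ∈ Finset.range m, ((1 - t) / (m : ℝ)) *
      (-P (inCell ℓ ((i : ℝ) * q) (rad φ₁)) s + (ν + a₁ / (2 * ℓ ^ 3)) * N)
      = ((1 - t) / (m : ℝ)) * (-∑ i ∈ Finset.range m, Ci i)
        + (1 / (m : ℝ)) * ∑ i ∈ Finset.range m, Wi i
        + (1 / (m : ℝ)) * ((a₂ / ℓ ^ 3) * ∑ i ∈ Finset.range m, Si i)
        + (1 - t) * (ν + a₁ / (2 * ℓ ^ 3)) * N := by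
    have : ∀ i ∈ Finset.range m, ((1 - t) / (m : ℝ)) *
        (-P (inCell ℓ ((i : ℝ) * q) (rad φ₁)) s + (ν + a₁ / (2 * ℓ ^ 3)) * N)
        = ((1 - t) / (m : ℝ)) * (-Ci i) + (1 / (m : ℝ)) * Wi i
          + (1 / (m : ℝ)) * ((a₂ / ℓ ^ 3) * Si i)
          + (1 / (m : ℝ)) * ((1 - t) * (ν + a₁ / (2 * ℓ ^ 3)) * N) := by
      intro i _
      rw [hdec, ← hκ2]
      field_simp
      ring
    rw [Finset.sum_congr rfl this, Finset.sum_add_distrib, Finset.sum_add_distrib,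
      Finset.sum_add_distrib, ← Finset.mul_sum, ← Finset.mul_sum, ← Finset.mul_sum,
      ← Finset.mul_sum, ← Finset.sum_neg_distrib, Finset.sum_const, Finset.card_range,
      nsmul_eq_mul]
    field_simp
  rw [hL, hG, hsum]
  have hCsum : ∑ i ∈ Finset.range m, Ci i ≤ (m : ℝ) * pc := by
    have := Finset.sum_le_sum (s := Finset.range m) fun i _ => hC i
    simpa using this
  have hSsum : (m : ℝ) * ph ≤ (a₂ / ℓ ^ 3) * ∑ i ∈ Finset.range m, Si i
      + (m : ℝ) * ((a₂ / (2 * ℓ ^ 3)) * N) := by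
    have := Finset.sum_le_sum (s := Finset.range m) fun i _ => hS i
    rw [Finset.sum_add_distrib, ← Finset.mul_sum] at this
    simpa using this
  have h1 : ((1 - t) / (m : ℝ)) * (-∑ i ∈ Finset.range m, Ci i) ≥ -(1 - t) * pc := by
    have e : ((1 - t) / (m : ℝ)) * (-∑ i ∈ Finset.range m, Ci i)
        = -(((1 - t) / (m : ℝ)) * ∑ i ∈ Finset.range m, Ci i) := by ring
    rw [e]
    have h2 : ((1 - t) / (m : ℝ)) * ∑ i ∈ Finset.range m, Ci i
        ≤ ((1 - t) / (m : ℝ)) * ((m : ℝ) * pc) :=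
      mul_le_mul_of_nonneg_left hCsum (by positivity)
    have e2 : ((1 - t) / (m : ℝ)) * ((m : ℝ) * pc) = (1 - t) * pc := by
      field_simp
    linarith
  have h2 : (1 / (m : ℝ)) * ((a₂ / ℓ ^ 3) * ∑ i ∈ Finset.range m, Si i)
      ≥ ph - (a₂ / (2 * ℓ ^ 3)) * N := by
    have h3 := mul_le_mul_of_nonneg_left hSsum (by positivity : (0 : ℝ) ≤ 1 / (m : ℝ))
    have e1 : (1 / (m : ℝ)) * ((m : ℝ) * ph) = ph := by field_simp
    have e2 : (1 / (m : ℝ)) * ((a₂ / ℓ ^ 3) * ∑ i ∈ Finset.range m, Si i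
        + (m : ℝ) * ((a₂ / (2 * ℓ ^ 3)) * N))
        = (1 / (m : ℝ)) * ((a₂ / ℓ ^ 3) * ∑ i ∈ Finset.range m, Si i)
          + (a₂ / (2 * ℓ ^ 3)) * N := by
      field_simp
    rw [e1, e2] at h3
    linarith
  have h3 : (1 - t) * (ν + a₁ / (2 * ℓ ^ 3)) * N = (1 - t) * ν * N + (a₂ / (2 * ℓ ^ 3)) * N := by
    rw [mul_add, add_mul, hν2]
  rw [h3]
  nlinarith

/-- Hoelder over the shifted grids in a finite cube. -/
theorem lg_Zc_upper {A : ℝ} (hA : 0 ≤ A) {w : ℝ → ℝ} {r : ℝ} (hwr : Rng w r) (hw : Measurable w)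
    (hw0 : ∀ x, 0 ≤ w x) {a R : ℝ} (ha : 0 ≤ a) (hR : 0 < R) {m : ℕ} {q : ℝ} (hq : 0 < q)
    (hrq : r ≤ q) (hm : 6 ≤ m) (ν : ℝ) {B₁ B₂ : ℝ} (hv : Reg (fun x => core A x - w x) B₁)
    (hv' : Reg (fun x => core A x - w x - hat a R x) B₂) {a₁ ℓ t : ℝ}
    (hℓdef : ℓ = (m : ℝ) * q) (htdef : t = 3 / (m : ℝ))
    (ha₁ : a₁ = a * (1 + 4 * ℓ / R) ^ 3 / (1 - t))
    (hX : Zc (fun x => core A x - (1 / (1 - t)) * w x - a₁ / ℓ ^ 3) ℓ (ν + a₁ / (2 * ℓ ^ 3)) ≠ ∞)
    (M : ℕ) :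
    lg (Zc (fun x => core A x - w x - hat a R x) ((M : ℝ) * ℓ) ν)
      ≤ (1 - t) * (((M : ℝ) + 1) ^ 3 * lg (Zc (fun x => core A x - (1 / (1 - t)) * w x - a₁ / ℓ ^ 3) ℓ
          (ν + a₁ / (2 * ℓ ^ 3))))
        + t * lg (Zc (fun x => core A x - w x) ((M : ℝ) * ℓ) ν) := by
  classical
  subst hℓdef htdef ha₁
  set ℓ := (m : ℝ) * q with hℓd
  set t := 3 / (m : ℝ) with htd
  set a₁ := a * (1 + 4 * ℓ / R) ^ 3 / (1 - t) with ha₁d
  set φ₁ := fun x => core A x - (1 / (1 - t)) * w x - a₁ / ℓ ^ 3 with hφ₁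
  set ν₁ := ν + a₁ / (2 * ℓ ^ 3) with hν₁
  have hm0 : (0 : ℝ) < m := by
    have : 0 < m := by omega
    exact_mod_cast this
  have hm6 : (6 : ℝ) ≤ m := by exact_mod_cast hm
  have hℓ : 0 < ℓ := by positivity
  have ht1 : t ≤ 1 / 2 := by
    simp only [htd]
    rw [div_le_iff₀ hm0]
    linarith
  have ht0 : 0 < t := by
    simp only [htd]
    positivity
  have h1t : 0 < 1 - t := by linarith
  have hφ₁m : Measurable φ₁ :=
    ((measurable_core A).sub (hw.const_mul _)).sub measurable_const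
  set ρ : Measure E3 := volume.restrict (cube ((M : ℝ) * ℓ) 0) with hρ
  set u : ℕ → E3 → E3 → ℝ := fun i =>
    if i < m then inCell ℓ ((i : ℝ) * q) (rad φ₁) else rad fun x => core A x - w x with hu
  set νs : ℕ → ℝ := fun i => if i < m then ν₁ else ν with hνs
  set p : ℕ → ℝ := fun i => if i < m then (1 - t) / (m : ℝ) else t with hp
  have hmeas : ∀ i ∈ Finset.range (m + 1), Measurable (Function.uncurry (u i)) := by
    intro i _
    by_cases hi : i < m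
    · simp only [hu, if_pos hi]
      exact measurable_inCell _ _ (measurable_rad hφ₁m)
    · simp only [hu, if_neg hi]
      exact measurable_rad hv.meas
  have hp0 : ∀ i ∈ Finset.range (m + 1), 0 ≤ p i := by
    intro i _
    by_cases hi : i < m
    · simp only [hp, if_pos hi]
      positivity
    · simp only [hp, if_neg hi]
      exact ht0.le
  have hcongr : ∀ f : ℕ → ℝ, ∑ i ∈ Finset.range (m + 1), p i * f i
      = ((1 - t) / (m : ℝ)) * (∑ i ∈ Finset.range m, f i) + t * f m := by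
    intro f
    rw [Finset.sum_range_succ, Finset.mul_sum]
    congr 1
    · refine Finset.sum_congr rfl fun i hi => ?_
      simp only [hp, if_pos (Finset.mem_range.1 hi)]
    · simp only [hp, if_neg (lt_irrefl m)]
  have hpsum : ∑ i ∈ Finset.range (m + 1), p i = 1 := by
    have := hcongr (fun _ => 1)
    simp only [mul_one] at this
    rw [this, Finset.sum_const, Finset.card_range, nsmul_eq_mul, mul_one]
    field_simp
    ring
  have hpt : ∀ s : Multiset E3, -P (rad fun x => core A x - w x - hat a R x) s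
      + ν * (Multiset.card s : ℝ)
      ≤ ∑ i ∈ Finset.range (m + 1), p i * (-P (u i) s + νs i * (Multiset.card s : ℝ)) := by
    intro s
    have h1 := pointwise_upper hA hwr hw0 ha hR (m := m) hq hrq hm ν s
    rw [hcongr]
    simp only [hu, hνs, if_neg (lt_irrefl m)]
    rw [Finset.mul_sum, Finset.sum_congr rfl fun i hi => by
      rw [if_pos (Finset.mem_range.1 hi), if_pos (Finset.mem_range.1 hi)]]
    exact h1
  have hkey := I_Gib_holder (ρ := ρ) (Finset.range (m + 1)) hmeas hpsum hp0 hpt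
  have hfin : ∀ i, i < m → I ρ (Gib (inCell ℓ ((i : ℝ) * q) (rad φ₁)) ν₁)
      ≤ (Zc φ₁ ℓ ν₁) ^ ((M + 1) ^ 3) := by
    intro i hi
    refine I_inCell_le hℓ (by positivity) ?_ hφ₁m M ν₁
    simp only [hℓd]
    have : (i : ℝ) ≤ m := by exact_mod_cast hi.le
    exact mul_le_mul_of_nonneg_right this hq.le
  have hfin' : ∀ i, i < m → I ρ (Gib (inCell ℓ ((i : ℝ) * q) (rad φ₁)) ν₁) ≠ ∞ := fun i hi =>
    ne_top_of_le_ne_top (ENNReal.pow_ne_top hX) (hfin i hi)
  have hMℓ : 0 ≤ (M : ℝ) * ℓ := by positivity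
  have hkey2 := lg_le_of_prod_rpow (Finset.range (m + 1))
    (x := Zc (fun x => core A x - w x - hat a R x) ((M : ℝ) * ℓ) ν)
    (f := fun i => I ρ (Gib (u i) (νs i))) (p := p)
    (ne_of_gt (lt_of_lt_of_le one_pos (one_le_Zc _ _ _))) hkey
    (fun i _ => ne_of_gt (lt_of_lt_of_le one_pos (one_le_I_Gib _ _)))
    (fun i _ => by
      by_cases hi : i < m
      · simp only [hu, hνs, if_pos hi]
        exact hfin' i hi
      · simp only [hu, hνs, if_neg hi]
        exact Zc_ne_top hv hMℓ ν)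
    hp0
  rw [hcongr] at hkey2
  refine hkey2.trans ?_
  have hterm : ∑ i ∈ Finset.range m, lg (I ρ (Gib (u i) (νs i)))
      ≤ (m : ℝ) * (((M : ℝ) + 1) ^ 3 * lg (Zc φ₁ ℓ ν₁)) := by
    have h1 : ∀ i ∈ Finset.range m, lg (I ρ (Gib (u i) (νs i)))
        ≤ ((M : ℝ) + 1) ^ 3 * lg (Zc φ₁ ℓ ν₁) := by
      intro i hi
      have hi' := Finset.mem_range.1 hi
      simp only [hu, hνs, if_pos hi']
      have h2 := lg_le_lg (hfin i hi') (lt_of_lt_of_le one_pos (one_le_I_Gib _ _))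
        (ENNReal.pow_ne_top hX)
      rw [lg_pow] at h2
      push_cast at h2
      exact h2
    have h2 := Finset.sum_le_sum h1
    simpa using h2
  have hlast : lg (I ρ (Gib (u m) (νs m))) = lg (Zc (fun x => core A x - w x) ((M : ℝ) * ℓ) ν) := by
    simp only [hu, hνs, if_neg (lt_irrefl m)]
    rfl
  rw [hlast]
  have h3 := mul_le_mul_of_nonneg_left hterm (by positivity : 0 ≤ (1 - t) / (m : ℝ))
  have e : (1 - t) / (m : ℝ) * ((m : ℝ) * (((M : ℝ) + 1) ^ 3 * lg (Zc φ₁ ℓ ν₁)))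
      = (1 - t) * (((M : ℝ) + 1) ^ 3 * lg (Zc φ₁ ℓ ν₁)) := by
    field_simp
  rw [e] at h3
  linarith

/-- The upper bound for the pressure in terms of a single cube. -/
theorem Pres_upper {A : ℝ} (hA : 0 ≤ A) {w : ℝ → ℝ} {r : ℝ} (hwr : Rng w r) (hw : Measurable w)
    (hw0 : ∀ x, 0 ≤ w x) {a R : ℝ} (ha : 0 ≤ a) (hR : 0 < R) {m : ℕ} {q : ℝ} (hq : 0 < q)
    (hrq : r ≤ q) (hm : 6 ≤ m) (ν : ℝ) {B₁ B₂ : ℝ} (hv : Reg (fun x => core A x - w x) B₁)
    (hv' : Reg (fun x => core A x - w x - hat a R x) B₂) {a₁ ℓ t : ℝ}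
    (hℓdef : ℓ = (m : ℝ) * q) (htdef : t = 3 / (m : ℝ))
    (ha₁ : a₁ = a * (1 + 4 * ℓ / R) ^ 3 / (1 - t))
    (hX : Zc (fun x => core A x - (1 / (1 - t)) * w x - a₁ / ℓ ^ 3) ℓ (ν + a₁ / (2 * ℓ ^ 3)) ≠ ∞) :
    Pres (fun x => core A x - w x - hat a R x) ν
      ≤ (1 - t) * (lg (Zc (fun x => core A x - (1 / (1 - t)) * w x - a₁ / ℓ ^ 3) ℓ
          (ν + a₁ / (2 * ℓ ^ 3))) / ℓ ^ 3)
        + t * Pres (fun x => core A x - w x) ν := by
  have hm0 : (0 : ℝ) < m := by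
    have : 0 < m := by omega
    exact_mod_cast this
  have hℓ : 0 < ℓ := by
    rw [hℓdef]
    positivity
  set lX := lg (Zc (fun x => core A x - (1 / (1 - t)) * w x - a₁ / ℓ ^ 3) ℓ (ν + a₁ / (2 * ℓ ^ 3)))
    with hlX
  have hbound := lg_Zc_upper hA hwr hw hw0 ha hR hq hrq hm ν hv hv' hℓdef htdef ha₁ hX
  have hratio : Tendsto (fun M : ℕ => (1 + 1 / (M : ℝ)) ^ 3) atTop (𝓝 ((1 + 0) ^ 3)) :=
    (tendsto_const_nhds.add tendsto_one_div_atTop_nhds_zero_nat).pow 3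
  have hlim : Tendsto (fun M : ℕ => (1 - t) * ((1 + 1 / (M : ℝ)) ^ 3 * (lX / ℓ ^ 3))
      + t * (lg (Zc (fun x => core A x - w x) ((M : ℝ) * ℓ) ν) / ((M : ℝ) * ℓ) ^ 3)) atTop
      (𝓝 ((1 - t) * ((1 + 0) ^ 3 * (lX / ℓ ^ 3)) + t * Pres (fun x => core A x - w x) ν)) :=
    ((hratio.mul_const _).const_mul _).add ((Pres_tendsto_seq hv ν hℓ).const_mul _)
  have hfinal := le_of_tendsto_of_tendsto (Pres_tendsto_seq hv' ν hℓ) hlim (by
    filter_upwards [eventually_ge_atTop 1] with M hM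
    have hM0 : (0 : ℝ) < M := by exact_mod_cast hM
    have h1 := hbound M
    rw [← hlX] at h1
    rw [div_le_iff₀ (by positivity)]
    refine h1.trans (le_of_eq ?_)
    generalize lg (Zc (fun x => core A x - w x) ((M : ℝ) * ℓ) ν) = z
    field_simp)
  have e : (1 - t) * ((1 + 0) ^ 3 * (lX / ℓ ^ 3)) = (1 - t) * (lX / ℓ ^ 3) := by ring
  rw [e] at hfinal
  exact hfinal

end Vale.Agent.Lib.P171
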